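import Vale.Agent.P143.Nu

open MeasureTheory ProbabilityTheory Filter Topology SimpleGraph
open scoped InnerProductSpace ENNReal Classical

namespace Vale.Agent.P143

noncomputable section

variable {V : Type*} {G : SimpleGraph V}

lemma norm_pr_Co_tsum (B : Set (V × V)) (c : HS V) :
    ‖pr (Co B) c‖ ^ 2 = ∑' p, if p ∈ B then co c p ^ 2 else 0 := by
  rw [← real_inner_self_eq_norm_sq, ← (hasSum_co _ _).tsum_eq]
  congr 1
  funext p
  rw [co_pr_Co]
  split_ifs <;> ring

lemma tendsto_norm_pr {B : ℕ → Set (V × V)} {B' : Set (V × V)}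
    (h : ∀ p, ∀ᶠ n in atTop, (p ∈ B n ↔ p ∈ B')) (c : HS V) :
    Tendsto (fun n => ‖pr (Co (B n)) c‖ ^ 2) atTop (𝓝 (‖pr (Co B') c‖ ^ 2)) := by
  simp only [norm_pr_Co_tsum]
  refine tendsto_tsum_of_dominated_convergence (bound := fun p => co c p * co c p)
    (hasSum_co c c).summable (fun p => ?_) (Eventually.of_forall fun n p => ?_)
  · exact tendsto_const_nhds.congr' ((h p).mono fun n hn => by simp only [hn])
  · split_ifs
    · rw [Real.norm_eq_abs, abs_of_nonneg (sq_nonneg _), sq]
    · rw [norm_zero]; exact mul_self_nonneg _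

lemma RR_le_of_freq {B : ℕ → Set (V × V)} {B' : Set (V × V)}
    (h : ∀ p, ∀ᶠ n in atTop, (p ∈ B n ↔ p ∈ B')) {N : ℕ → Submodule ℝ (HS V)}
    {N' : Submodule ℝ (HS V)} (hN : ∀ n, N' ≤ N n) {v : HS V} (hv : ∀ n, v ∈ Co (B n))
    (hv' : v ∈ Co B') {t : ℝ} (ht : ∃ᶠ n in atTop, ‖pr (RR (Co (B n)) (N n)) v‖ ^ 2 ≤ t) :
    ‖pr (RR (Co B') N') v‖ ^ 2 ≤ t := by
  have ht0 : 0 ≤ t := ht.exists.elim fun n hn => (sq_nonneg _).trans hn
  apply norm_pr_RR_le (cl_Co _) _ ht0
  intro c hc
  rw [← pr_inner, pr_self hv']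
  refine isClosed_Ici.mem_of_frequently_of_tendsto (ht.mono fun n hn => ?_)
    ((tendsto_norm_pr h c).const_mul t)
  have := inner_sq_le_RR (cl_Co (B n)) v (hN n hc)
  rw [← pr_inner, pr_self (hv n)] at this
  exact this.trans (by gcongr)

variable [Countable V]

lemma tendsto_k {A : Set (Sym2 V)} {An : ℕ → Finset (Sym2 V)} (h1 : ∀ n, (An n : Set _) ⊆ A)
    (h2 : ∀ f ∈ A, ∀ᶠ n in atTop, f ∈ An n) (X : Sym2 V → Bool) {x y : V} (hxy : x ≠ y)
    (he : s(x, y) ∉ A) (hk : kM (LL G A X) s(x, y) + kM (LS G A X) s(x, y) = 1) :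
    Tendsto (fun n => kM (LL G (An n) X) s(x, y)) atTop (𝓝 (kM (LL G A X) s(x, y))) := by
  have hB : ∀ p, ∀ᶠ n in atTop, (p ∈ dart (An n : Set (Sym2 V))ᶜ ↔ p ∈ dart Aᶜ) := by
    intro p
    by_cases hp : s(p.1, p.2) ∈ A
    · exact (h2 _ hp).mono fun n hn => ⟨fun h => absurd hn h, fun h => absurd hp h⟩
    · exact Eventually.of_forall fun n => ⟨fun _ => hp, fun _ h => hp (h1 n h)⟩
  have hv : ∀ n, chiV x y ∈ Co (dart (An n : Set (Sym2 V))ᶜ) := fun n =>
    chiV_mem_O fun h => he (h1 n h)
  refine tendsto_order.2 ⟨fun a ha => ?_, fun a ha => ?_⟩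
  · by_contra hcon
    rw [not_eventually] at hcon
    have := RR_le_of_freq hB (N := fun n => HH G ⊓ (cI (An n) X)ᗮ) (N' := HH G ⊓ (cI A X)ᗮ)
      (fun n => inf_le_inf_left _ (Submodule.orthogonal_le
        (Co_mono fun p hp => ⟨h1 n hp.1, hp.2⟩))) hv (chiV_mem_O he) (t := 2 * a)
      (hcon.mono fun n hn => by
        rw [kM_mk, LL, not_lt] at hn
        linarith)
    rw [kM_mk, LL] at ha
    linarith
  · by_contra hcon
    rw [not_eventually] at hcon
    have := RR_le_of_freq hB (N := fun n => (HH G)ᗮ ⊓ (cD (An n) X)ᗮ)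
      (N' := (HH G)ᗮ ⊓ (cD A X)ᗮ)
      (fun n => inf_le_inf_left _ (Submodule.orthogonal_le
        (Co_mono fun p hp => ⟨h1 n hp.1, hp.2⟩))) hv (chiV_mem_O he) (t := 2 * (1 - a))
      (hcon.mono fun n hn => by
        have := k_add_le (G := G) (A := An n) X hxy fun h => he (h1 n h)
        rw [not_lt] at hn
        rw [kM_mk (LS _ _ _), LS] at this
        linarith)
    rw [kM_mk (LS _ _ _), LS] at hk
    linarith

lemma meas_k (G : SimpleGraph V) (A : Set (Sym2 V)) (e : Sym2 V) :
    Measurable fun X => kM (LL G A X) e :=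
  (MS_LL measurable_const (fun _ => MeasurableSet.const _) measurable_id).kM e

lemma integrable_k (ν : Measure (Sym2 V → Bool)) [IsFiniteMeasure ν] (A : Set (Sym2 V))
    (e : Sym2 V) : Integrable (fun X => kM (LL G A X) e) ν :=
  Integrable.of_bound (meas_k G A e).aestronglyMeasurable 1 (Eventually.of_forall fun X => by
    rw [Real.norm_eq_abs, abs_of_nonneg (kM_nonneg _ _)]; exact kM_le_one _ _)

lemma cond_finite {ν : Measure (Sym2 V → Bool)} [IsFiniteMeasure ν] (h : Det G ν)
    {A : Finset (Sym2 V)} {e : Sym2 V} (he : e ∉ A) {T : Finset (Sym2 V)} (hT : T ⊆ A)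
    (Y : Sym2 V → Bool) :
    ν.real (cyl T Y ∩ {F | F e = true}) = ∫ X in cyl T Y, kM (LL G A X) e ∂ν := by
  obtain ⟨S, hS⟩ : ∃ S, S = A \ T := ⟨_, rfl⟩
  induction S using Finset.induction_on generalizing T Y with
  | empty =>
    have : T = A := Finset.Subset.antisymm hT (Finset.sdiff_eq_empty_iff_subset.1 hS.symm)
    subst this
    rw [h T Y e he, setIntegral_congr_fun (meas_cyl _ _) (g := fun _ => kM (LL G T Y) e)
      fun X hX => by simp only [LL_congr G (A := T) (X := X) (X' := Y) hX]]
    simp [mul_comm]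
  | insert f S hf ih =>
    have hfA : f ∈ A \ T := hS ▸ Finset.mem_insert_self _ _
    rw [Finset.mem_sdiff] at hfA
    have hS' : S = A \ insert f T := by
      ext g
      have := Finset.ext_iff.1 hS g
      simp only [Finset.mem_insert, Finset.mem_sdiff] at this ⊢
      by_cases hg : g = f
      · simp [hg, hf]
      · simpa [hg] using this
    have hsub : insert f T ⊆ A := Finset.insert_subset hfA.1 hT
    have e1 : ∀ c, cyl (insert f T) (Function.update Y f c) = cyl T Y ∩ {F | F f = c} := by
      intro c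
      rw [cyl_insert, Function.update_self]
      congr 1
      ext F
      refine forall₂_congr fun g hg => ?_
      rw [Function.update_of_ne (by rintro rfl; exact hfA.2 hg)]
    have i1 := ih hsub (Function.update Y f true) hS'
    have i2 := ih hsub (Function.update Y f false) hS'
    rw [e1] at i1 i2
    have e2 : cyl T Y \ {F | F f = true} = cyl T Y ∩ {F | F f = false} := by ext F; simp
    rw [← integral_inter_add_sdiff (meas_eval f true) (integrable_k ν _ e).integrableOn, e2,
      ← i1, ← i2, Set.inter_right_comm, Set.inter_right_comm (cyl T Y) {F : Sym2 V → Bool | F f = false}, real_false]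
    ring

lemma cond_cyl {ν : Measure (Sym2 V → Bool)} [IsFiniteMeasure ν] (h : Det G ν)
    {A : Set (Sym2 V)} {e : Sym2 V} (he : e ∉ A)
    (hk : e ∈ G.edgeSet → ∀ᵐ X ∂ν, kM (LL G A X) e + kM (LS G A X) e = 1)
    {T : Finset (Sym2 V)} (hT : (T : Set _) ⊆ A) (Y : Sym2 V → Bool) :
    ν.real (cyl T Y ∩ {F | F e = true}) = ∫ X in cyl T Y, kM (LL G A X) e ∂ν := by
  by_cases hG : e ∈ G.edgeSet
  swap
  · rw [h T Y e fun h => he (hT h)]
    simp [kM_LL_nonadj _ _ hG]
  have : Nonempty (Sym2 V) := ⟨e⟩
  obtain ⟨u, hu⟩ := exists_surjective_nat (Sym2 V)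
  let An : ℕ → Finset (Sym2 V) := fun n => T ∪ ((Finset.range n).image u).filter (· ∈ A)
  have h1 : ∀ n, (An n : Set (Sym2 V)) ⊆ A := fun n f hf => by
    rcases Finset.mem_union.1 hf with h | h
    · exact hT h
    · exact (Finset.mem_filter.1 h).2
  have h2 : ∀ f ∈ A, ∀ᶠ n in atTop, f ∈ An n := fun f hf => by
    obtain ⟨m, rfl⟩ := hu f
    exact (eventually_gt_atTop m).mono fun n hn => Finset.mem_union_right _
      (Finset.mem_filter.2 ⟨Finset.mem_image_of_mem _ (Finset.mem_range.2 hn), hf⟩)
  induction e with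
  | h x y =>
  have := tendsto_integral_of_dominated_convergence (μ := ν.restrict (cyl T Y))
    (F := fun n X => kM (LL G (An n) X) s(x, y)) (f := fun X => kM (LL G A X) s(x, y))
    (fun _ => 1) (fun n => (meas_k G _ _).aestronglyMeasurable) (integrable_const _)
    (fun n => Eventually.of_forall fun X => by
      rw [Real.norm_eq_abs, abs_of_nonneg (kM_nonneg _ _)]; exact kM_le_one _ _)
    (ae_restrict_of_ae ((hk hG).mono fun X hX => tendsto_k h1 h2 X (G.ne_of_adj hG) he hX))
  refine tendsto_nhds_unique (tendsto_const_nhds.congr fun n => ?_) this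
  exact cond_finite h (fun h => he (h1 n h)) Finset.subset_union_left Y

def mask (A : Set (Sym2 V)) (X : Sym2 V → Bool) : Sym2 V → Bool :=
  fun f => if f ∈ A then X f else false

omit [Countable V] in
lemma measurable_mask (A : Set (Sym2 V)) : Measurable (mask A) :=
  measurable_pi_lambda _ fun f => by
    unfold mask
    split_ifs
    · exact measurable_pi_apply f
    · exact measurable_const

def kc (c : Bool) (k : ℝ) : ℝ := if c = true then k else 1 - k

theorem cond_lintegral {ν : Measure (Sym2 V → Bool)} [IsFiniteMeasure ν] (h : Det G ν)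
    {A : Set (Sym2 V)} {e : Sym2 V} (he : e ∉ A)
    (hk : e ∈ G.edgeSet → ∀ᵐ X ∂ν, kM (LL G A X) e + kM (LS G A X) e = 1) (c : Bool)
    {g : (Sym2 V → Bool) → ℝ≥0∞} (hg : Measurable g) (hgA : ∀ X, g (mask A X) = g X) :
    ∫⁻ X in {F | F e = c}, g X ∂ν = ∫⁻ X, ENNReal.ofReal (kc c (kM (LL G A X) e)) * g X ∂ν := by
  have hm : Measurable fun X => ENNReal.ofReal (kc c (kM (LL G A X) e)) := by
    unfold kc
    split_ifs
    · exact (meas_k G A e).ennreal_ofReal
    · exact ((meas_k G A e).const_sub 1).ennreal_ofReal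
  have hcyl : ∀ (T : Finset (Sym2 V)) (Y : Sym2 V → Bool), (T : Set _) ⊆ A →
      ν.restrict {F | F e = c} (cyl T Y) =
      ν.withDensity (fun X => ENNReal.ofReal (kc c (kM (LL G A X) e))) (cyl T Y) := by
    intro T Y hT
    have h1 := cond_cyl h he hk hT Y
    rw [Measure.restrict_apply (meas_cyl _ _), withDensity_apply _ (meas_cyl _ _),
      ← ofReal_measureReal]
    cases c
    · simp only [kc, Bool.false_eq_true, if_false]
      rw [← ofReal_integral_eq_lintegral_ofReal (f := fun X => 1 - kM (LL G A X) e)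
        ((integrable_const 1).sub (integrable_k ν A e)).integrableOn
        (Eventually.of_forall fun X => sub_nonneg.2 (kM_le_one _ _)), real_false, h1]
      congr 1
      rw [integral_sub (integrable_const 1).integrableOn (integrable_k ν A e).integrableOn]
      simp
    · simp only [kc, if_true]
      rw [← ofReal_integral_eq_lintegral_ofReal (integrable_k ν A e).integrableOn
        (Eventually.of_forall fun X => kM_nonneg _ _), h1]
  have heq : (ν.restrict {F | F e = c}).map (mask A) =
      (ν.withDensity fun X => ENNReal.ofReal (kc c (kM (LL G A X) e))).map (mask A) := by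
    have hpre : ∀ (T : Finset (Sym2 V)) (Y : Sym2 V → Bool),
        (ν.restrict {F | F e = c}).map (mask A) (cyl T Y) =
        (ν.withDensity fun X => ENNReal.ofReal (kc c (kM (LL G A X) e))).map (mask A) (cyl T Y) := by
      intro T Y
      rw [Measure.map_apply (measurable_mask A) (meas_cyl _ _),
        Measure.map_apply (measurable_mask A) (meas_cyl _ _)]
      by_cases hY : ∀ f ∈ T, f ∉ A → Y f = false
      · have : mask A ⁻¹' cyl T Y = cyl (T.filter (· ∈ A)) Y := by
          ext F
          simp only [cyl, mask, Set.mem_preimage, Set.mem_ofPred_eq, Finset.mem_filter]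
          constructor
          · intro h f hf
            simpa [hf.2] using h f hf.1
          · intro h f hf
            split_ifs with h'
            · exact h f ⟨hf, h'⟩
            · exact (hY f hf h').symm
        rw [this]
        exact hcyl _ _ fun f hf => (Finset.mem_filter.1 hf).2
      · have : mask A ⁻¹' cyl T Y = ∅ := by
          ext F
          simp only [cyl, mask, Set.mem_preimage, Set.mem_ofPred_eq, Set.mem_empty_iff_false,
            iff_false]
          intro h
          exact hY fun f hf h' => by simpa [h'] using (h f hf).symm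
        simp [this]
    refine ext_of_generate_finite _ generate_cyls isPiSystem_cyls ?_ ?_
    · rintro _ ⟨T, Y, rfl⟩
      exact hpre T Y
    · rw [← cyl_empty fun _ => false]; exact hpre _ _
  calc ∫⁻ X in {F | F e = c}, g X ∂ν = ∫⁻ X in {F | F e = c}, g (mask A X) ∂ν := by simp only [hgA]
    _ = _ := by
      rw [← lintegral_map hg (measurable_mask A), heq, lintegral_map hg (measurable_mask A)]
      simp only [hgA]
      rw [lintegral_withDensity_eq_lintegral_mul _ hm hg]
      rfl

end

end Vale.Agent.P143
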