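import Mathlib

open MeasureTheory ProbabilityTheory Filter Topology
open scoped ENNReal unitInterval

namespace Vale.Agent.P143

/-- The configuration `ω` (a `{0,1}`-valued function on unordered pairs of vertices) is the
indicator of the edge set of a spanning tree of the subgraph `K`. -/
def IsSpanningTreeOf {V : Type*} {G : SimpleGraph V} (K : G.Subgraph) (ω : Sym2 V → Bool) : Prop :=
  ∃ T : G.Subgraph, T ≤ K ∧ T.verts = K.verts ∧ T.coe.IsTree ∧ ∀ e, ω e = true ↔ e ∈ T.edgeSet

/-- The law of the uniform spanning tree of the finite connected subgraph `K`, as an edge set. -/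
noncomputable def ust {V : Type*} {G : SimpleGraph V} (K : G.Subgraph) :
    Measure (Sym2 V → Bool) :=
  uniformOn {ω | IsSpanningTreeOf K ω}

/-- An increasing sequence of finite connected subgraphs with union `G`. -/
def IsExhaustion {V : Type*} (G : SimpleGraph V) (K : ℕ → G.Subgraph) : Prop :=
  (∀ n, (K n).verts.Finite) ∧ (∀ n, (K n).Connected) ∧ Monotone K ∧ ⨆ n, K n = ⊤

/-- `ν` is the free uniform spanning forest measure of `G`: a probability measure that is the
weak limit of the uniform spanning trees along every exhaustion (and exhaustions exist). -/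
def IsFUSF {V : Type*} (G : SimpleGraph V) (ν : Measure (Sym2 V → Bool)) : Prop :=
  IsProbabilityMeasure ν ∧ (∃ K, IsExhaustion G K) ∧
    ∀ K, IsExhaustion G K → ∀ φ : BoundedContinuousFunction (Sym2 V → Bool) ℝ,
      Tendsto (fun n => ∫ ω, φ ω ∂(ust (K n))) atTop (𝓝 (∫ ω, φ ω ∂ν))

/-- The law of i.i.d. Uniform`[0,1]` labels on the vertices. -/
noncomputable def iid (V : Type*) : Measure (V → I) :=
  Measure.infinitePi fun _ : V => (volume : Measure I)

/-- Mass transport principle for a random rooted graph on the vertex set `V`, for all measurable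
nonnegative functions of the isomorphism class of a graph with two distinguished vertices. -/
def Unimodular {V : Type*} [MeasurableSpace V] (μ : Measure (SimpleGraph V × V)) : Prop :=
  ∀ f : SimpleGraph V × V × V → ℝ≥0∞, Measurable f →
    (∀ (s : Equiv.Perm V) (G : SimpleGraph V) (x y : V), f (G.comap s, x, y) = f (G, s x, s y)) →
    ∫⁻ p, ∑' v, f (p.1, p.2, v) ∂μ = ∫⁻ p, ∑' v, f (p.1, v, p.2) ∂μ

end Vale.Agent.P143
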