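import Vale.Agent.P143.Trace

open MeasureTheory Filter Topology ContinuousLinearMap
open scoped InnerProductSpace ENNReal

namespace Vale.Agent.P143

noncomputable section

variable {E : Type*} [NormedAddCommGroup E] [InnerProductSpace ℝ E] [CompleteSpace E]
variable {Ω : Type*} [MeasurableSpace Ω] {Γ : Type*}
variable {ι : Type*} [Countable ι] [MeasurableSpace ι] [DiscreteMeasurableSpace ι]

def NN (b : HilbertBasis ι ℝ E) (Q : Measure (Ω × ι)) (T : Ω → E →L[ℝ] E) : ℝ≥0∞ :=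
  ∫⁻ p, ENNReal.ofReal (‖T p.1 (b p.2)‖ ^ 2) ∂Q

def tr (b : HilbertBasis ι ℝ E) (Q : Measure (Ω × ι)) (T : Ω → E →L[ℝ] E) : ℝ≥0∞ :=
  ∫⁻ p, ENNReal.ofReal ⟪T p.1 (b p.2), b p.2⟫_ℝ ∂Q

def Uni (b : HilbertBasis ι ℝ E) (Q : Measure (Ω × ι)) (act : Γ → Ω → Ω)
    (U : Γ → E ≃ₗᵢ[ℝ] E) : Prop :=
  ∀ T : Ω → E →L[ℝ] E, Meas T → Equi act U T → NN b Q T = NN b Q (fun ω => adjoint (T ω))

def dim (b : HilbertBasis ι ℝ E) (Q : Measure (Ω × ι)) (M : Ω → Submodule ℝ E) : ℝ≥0∞ :=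
  NN b Q (fun ω => pr (M ω))

variable {b : HilbertBasis ι ℝ E} {Q : Measure (Ω × ι)} {act : Γ → Ω → Ω} {U : Γ → E ≃ₗᵢ[ℝ] E}

omit [CompleteSpace E] in
lemma Meas.nn {T : Ω → E →L[ℝ] E} (hT : Meas T) :
    Measurable fun p : Ω × ι => ENNReal.ofReal (‖T p.1 (b p.2)‖ ^ 2) :=
  (measurable_from_prod_countable_left fun i => hT.norm_sq b (b i)).ennreal_ofReal

omit [CompleteSpace E] in
lemma Meas.tt {T : Ω → E →L[ℝ] E} (hT : Meas T) :
    Measurable fun p : Ω × ι => ENNReal.ofReal ⟪T p.1 (b p.2), b p.2⟫_ℝ :=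
  (measurable_from_prod_countable_left fun i => hT (b i) (b i)).ennreal_ofReal

lemma NN_polar {X Y : Ω → E →L[ℝ] E} (hX : Meas X) (hY : Meas Y)
    (h : ∀ ω v, 0 ≤ ⟪(X ω * Y ω) v, v⟫_ℝ) :
    NN b Q (fun ω => Y ω + adjoint (X ω)) =
      NN b Q (fun ω => Y ω - adjoint (X ω)) + 4 * tr b Q (fun ω => X ω * Y ω) := by
  unfold NN tr
  rw [← lintegral_const_mul _ (hX.mul b hY).tt, ← lintegral_add_left (hY.sub hX.adj).nn]
  refine lintegral_congr fun p => ?_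
  have h4 : (4 : ℝ≥0∞) = ENNReal.ofReal 4 := by simp
  rw [h4, ← ENNReal.ofReal_mul (by norm_num), ← ENNReal.ofReal_add (by positivity)
    (by have := h p.1 (b p.2); positivity)]
  congr 1
  simp only [add_apply, sub_apply, mapp]
  rw [norm_add_sq_real, norm_sub_sq_real, adjoint_inner_right]
  ring

lemma tr_comm (hU : Uni b Q act U) {X Y : Ω → E →L[ℝ] E} (hX : Meas X) (hY : Meas Y)
    (eX : Equi act U X) (eY : Equi act U Y)
    (h : ∀ ω v, 0 ≤ ⟪(X ω * Y ω) v, v⟫_ℝ) (h' : ∀ ω v, 0 ≤ ⟪(Y ω * X ω) v, v⟫_ℝ)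
    (hfin : NN b Q (fun ω => Y ω - adjoint (X ω)) ≠ ∞) :
    tr b Q (fun ω => X ω * Y ω) = tr b Q (fun ω => Y ω * X ω) := by
  have h1 := NN_polar (b := b) (Q := Q) hX hY h
  have h2 := NN_polar (b := b) (Q := Q) hY hX h'
  have h3 := hU _ (hY.add hX.adj) (eY.add eX.adj)
  have h4 := hU _ (hX.sub hY.adj) (eX.sub eY.adj)
  simp only [map_add, map_sub, adjoint_adjoint] at h3 h4
  have h5 : NN b Q (fun ω => adjoint (X ω) - Y ω) = NN b Q (fun ω => Y ω - adjoint (X ω)) := by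
    unfold NN
    refine lintegral_congr fun p => ?_
    simp only [sub_apply]
    rw [norm_sub_rev]
  have h6 : (fun ω => adjoint (Y ω) + X ω) = fun ω => X ω + adjoint (Y ω) :=
    funext fun ω => add_comm _ _
  rw [h6, h2, h4, h5, h1] at h3
  have h7 := (ENNReal.add_right_inj hfin).1 h3
  exact (ENNReal.mul_right_inj (by norm_num) (by norm_num)).1 h7

lemma Meas.SS {T : Ω → E →L[ℝ] E} (b : HilbertBasis ι ℝ E) (hT : Meas T) :
    Meas fun ω => SS (T ω) := (Meas.const 1).sub (hT.mul b hT.adj)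

omit [MeasurableSpace Ω] in
lemma Equi.SS {T : Ω → E →L[ℝ] E} (hT : Equi act U T) :
    Equi act U fun ω => SS (T ω) := Equi.one.sub (hT.mul hT.adj)

lemma dim_range {T : Ω → E →L[ℝ] E} (hT : Meas T) (h1 : ∀ ω, ‖T ω‖ ≤ 1)
    {M : Ω → Submodule ℝ E} (hM : ∀ ω, Cl (M ω)) (h : ∀ ω x, adjoint (T ω) x = 0 ↔ x ∈ M ω) :
    dim b Q (fun ω => (M ω)ᗮ) =
      ∑' j, tr b Q (fun ω => (SS (T ω) ^ j * T ω) * adjoint (T ω)) := by
  unfold dim NN tr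
  rw [← lintegral_tsum fun j => ((((hT.SS b).pow b j).mul b hT).mul b hT.adj).tt.aemeasurable]
  refine lintegral_congr fun p => ?_
  have := hasSum_range (h1 p.1) (hM p.1) (h p.1) (b p.2)
  rw [← this.tsum_eq, ENNReal.ofReal_tsum_of_nonneg (fun j => term_nonneg (h1 _) j _)
    this.summable]

lemma dim_range_eq (hU : Uni b Q act U) {T : Ω → E →L[ℝ] E} (hT : Meas T) (eT : Equi act U T)
    (h1 : ∀ ω, ‖T ω‖ ≤ 1) (hfin : NN b Q T ≠ ∞)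
    {M M' : Ω → Submodule ℝ E} (hM : ∀ ω, Cl (M ω)) (hM' : ∀ ω, Cl (M' ω))
    (h : ∀ ω x, adjoint (T ω) x = 0 ↔ x ∈ M ω) (h' : ∀ ω x, T ω x = 0 ↔ x ∈ M' ω) :
    dim b Q (fun ω => (M ω)ᗮ) = dim b Q (fun ω => (M' ω)ᗮ) := by
  rw [dim_range hT h1 hM h, dim_range hT.adj (fun ω => norm_adjoint_le (h1 ω)) hM'
    (by simpa using h')]
  congr 1
  funext j
  have e : ∀ ω, adjoint (T ω) * (SS (T ω) ^ j * T ω) =
      SS (adjoint (T ω)) ^ j * adjoint (T ω) * adjoint (adjoint (T ω)) := by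
    intro ω
    rw [SS_intertwine (adjoint (T ω)), adjoint_adjoint, mul_assoc]
  rw [tr_comm hU (((hT.SS b).pow b j).mul b hT) hT.adj ((eT.SS.pow j).mul eT) eT.adj
    (fun ω v => term_nonneg (h1 ω) j v)]
  · simp only [e]
  · intro ω v
    rw [e]; exact term_nonneg (norm_adjoint_le (h1 ω)) j v
  · have hle : NN b Q (fun ω => adjoint (T ω) - adjoint (SS (T ω) ^ j * T ω)) ≤
        4 * NN b Q (fun ω => adjoint (T ω)) := by
      unfold NN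
      rw [← lintegral_const_mul _ hT.adj.nn]
      refine lintegral_mono fun p => ?_
      have h4 : (4 : ℝ≥0∞) = ENNReal.ofReal 4 := by simp
      rw [h4, ← ENNReal.ofReal_mul (by norm_num)]
      apply ENNReal.ofReal_le_ofReal
      have e2 : adjoint (SS (T p.1) ^ j * T p.1) =
          SS (adjoint (T p.1)) ^ j * adjoint (T p.1) := by
        rw [SS_intertwine, mul_def, adjoint_comp, adjoint_SS_pow, mul_def]
      simp only []
      rw [e2, sub_apply, mapp]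
      have h5 := norm_SS_pow_apply (norm_adjoint_le (h1 p.1)) j (adjoint (T p.1) (b p.2))
      have h6 := norm_sub_le (adjoint (T p.1) (b p.2))
        ((SS (adjoint (T p.1)) ^ j) (adjoint (T p.1) (b p.2)))
      have h7 : ‖adjoint (T p.1) (b p.2) - (SS (adjoint (T p.1)) ^ j) (adjoint (T p.1) (b p.2))‖
          ≤ 2 * ‖adjoint (T p.1) (b p.2)‖ := by linarith
      calc _ ≤ (2 * ‖adjoint (T p.1) (b p.2)‖) ^ 2 := by gcongr
        _ = _ := by ring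
    rw [← hU T hT eT] at hle
    exact ne_top_of_le_ne_top (ENNReal.mul_ne_top (by norm_num) hfin) hle

/-- good families -/
def GS (act : Γ → Ω → Ω) (U : Γ → E ≃ₗᵢ[ℝ] E) (M : Ω → Submodule ℝ E) : Prop :=
  MS M ∧ EqS act U M

lemma GS.orth {M : Ω → Submodule ℝ E} (hM : GS act U M) : GS act U fun ω => (M ω)ᗮ :=
  ⟨hM.1.orth, hM.2.orth⟩

omit [MeasurableSpace ι] [DiscreteMeasurableSpace ι] in
lemma GS.inf (b : HilbertBasis ι ℝ E) {M N : Ω → Submodule ℝ E} (hM : GS act U M)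
    (hN : GS act U N) : GS act U fun ω => M ω ⊓ N ω := ⟨hM.1.inf b hN.1, hM.2.inf hN.2⟩

omit [MeasurableSpace ι] [DiscreteMeasurableSpace ι] in
lemma GS.RR (b : HilbertBasis ι ℝ E) {M N : Ω → Submodule ℝ E} (hM : GS act U M)
    (hN : GS act U N) : GS act U fun ω => RR (M ω) (N ω) := ⟨hM.1.RR b hN.1, hM.2.RR hN.2⟩

lemma ker_prpr {M N : Submodule ℝ E} (hM : Cl M) (x : E) :
    (pr N * pr M) x = 0 ↔ x ∈ (RR M N)ᗮ := by
  constructor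
  · intro hx
    apply mem_orth
    intro w hw
    have h1 : pr M x ∈ Nᗮ := by
      have := sub_pr_mem N (pr M x)
      rw [mapp] at hx
      rwa [hx, sub_zero] at this
    rw [real_inner_comm, ← pr_inner_mem x hw.1]
    exact inner_zero_of_mem (M := M ⊓ Nᗮ) ⟨pr_mem hM x, h1⟩ hw.2
  · intro hx
    rw [mapp]
    apply pr_zero
    apply orth_of_orth_RR hM (pr_mem hM x)
    apply mem_orth
    intro w hw
    rw [← pr_inner, pr_self hw.1]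
    exact inner_zero_of_mem hw hx

lemma dim_RR (hU : Uni b Q act U) {M N : Ω → Submodule ℝ E} (hM : GS act U M) (hN : GS act U N)
    (hfin : dim b Q N ≠ ∞) :
    dim b Q (fun ω => RR (M ω) (N ω)) = dim b Q (fun ω => RR (N ω) (M ω)) := by
  have := dim_range_eq hU (T := fun ω => pr (M ω) * pr (N ω)) (hM.1.2.mul b hN.1.2)
    ((Equi.of_mem hM.1.1 hM.2).mul (Equi.of_mem hN.1.1 hN.2))
    (fun ω => (norm_mul_le _ _).trans
      (mul_le_one₀ (opNorm_pr_le _) (norm_nonneg _) (opNorm_pr_le _))) ?_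
    (M := fun ω => (RR (M ω) (N ω))ᗮ) (M' := fun ω => (RR (N ω) (M ω))ᗮ)
    (fun ω => Cl.orth _) (fun ω => Cl.orth _) (fun ω x => ?_) (fun ω x => ker_prpr (hN.1.1 ω) x)
  · have e1 : ∀ ω, (RR (M ω) (N ω))ᗮᗮ = RR (M ω) (N ω) := fun ω => (hM.1.1 ω).RR _
    have e2 : ∀ ω, (RR (N ω) (M ω))ᗮᗮ = RR (N ω) (M ω) := fun ω => (hN.1.1 ω).RR _
    simpa only [e1, e2] using this
  · refine ne_top_of_le_ne_top hfin (lintegral_mono fun p => ENNReal.ofReal_le_ofReal ?_)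
    have := norm_pr_le (M p.1) (pr (N p.1) (b p.2))
    simp only [mapp]
    gcongr
  · rw [mul_def, adjoint_comp, adjoint_pr, adjoint_pr, ← mul_def]
    exact ker_prpr (hM.1.1 ω) x

lemma dim_add {M A B : Ω → Submodule ℝ E} (hA : MS A)
    (h : ∀ ω v, ‖pr (M ω) v‖ ^ 2 = ‖pr (A ω) v‖ ^ 2 + ‖pr (B ω) v‖ ^ 2) :
    dim b Q M = dim b Q A + dim b Q B := by
  unfold dim NN
  rw [← lintegral_add_left hA.2.nn]
  refine lintegral_congr fun p => ?_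
  rw [h, ENNReal.ofReal_add (by positivity) (by positivity)]

lemma dim_le_add {M A B : Ω → Submodule ℝ E} (hA : MS A)
    (h : ∀ ω v, ‖pr (M ω) v‖ ^ 2 ≤ ‖pr (A ω) v‖ ^ 2 + ‖pr (B ω) v‖ ^ 2) :
    dim b Q M ≤ dim b Q A + dim b Q B := by
  unfold dim NN
  rw [← lintegral_add_left hA.2.nn]
  refine lintegral_mono fun p => ?_
  rw [← ENNReal.ofReal_add (by positivity) (by positivity)]
  exact ENNReal.ofReal_le_ofReal (h _ _)

lemma dim_split {M N : Ω → Submodule ℝ E} (hM : MS M) (hN : MS N) :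
    dim b Q M = dim b Q (fun ω => M ω ⊓ (N ω)ᗮ) + dim b Q (fun ω => RR (M ω) (N ω)) :=
  dim_add (hM.inf b hN.orth) fun ω v => norm_pr_RR _ _ (hM.1 ω) v

lemma dim_RR_le {M N : Ω → Submodule ℝ E} (hM : MS M) (hN : MS N) :
    dim b Q (fun ω => RR (M ω) (N ω)) ≤ dim b Q M := by
  rw [dim_split hM hN]; exact le_add_self

theorem dim_Z (hU : Uni b Q act U) {H CI CD : Ω → Submodule ℝ E} (hH : GS act U H)
    (hI : GS act U CI) (hD : GS act U CD) (hID : ∀ ω, CI ω ≤ (CD ω)ᗮ)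
    (fI : dim b Q CI ≠ ∞) (fD : dim b Q CD ≠ ∞) :
    dim b Q (fun ω => ((H ω ⊓ (CI ω)ᗮ)ᗮ ⊓ ((H ω)ᗮ ⊓ (CD ω)ᗮ)ᗮ) ⊓ ((CI ω)ᗮ ⊓ (CD ω)ᗮ)) = 0 := by
  have gO := hI.orth.inf b hD.orth
  have gA := gO.orth
  have gW := (hH.inf b hI.orth).orth.inf b (hH.orth.inf b hD.orth).orth
  have eA : dim b Q (fun ω => ((CI ω)ᗮ ⊓ (CD ω)ᗮ)ᗮ) = dim b Q CI + dim b Q CD :=
    dim_add hI.1 fun ω v => norm_pr_osum (hI.1.1 ω) (hD.1.1 ω) (hID ω) v
  have fA : dim b Q (fun ω => ((CI ω)ᗮ ⊓ (CD ω)ᗮ)ᗮ) ≠ ∞ := by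
    rw [eA]; exact ENNReal.add_ne_top.2 ⟨fI, fD⟩
  have e1 := dim_split (b := b) (Q := Q) gW.1 gA.1
  have e2 := dim_RR hU gW gA fA
  have e3 := dim_split (b := b) (Q := Q) gA.1 gW.1
  have e4 := dim_add (b := b) (Q := Q) (hH.RR b hI).1
    (fun ω v => norm_W_decomp (CI := CI ω) (CD := CD ω) (hH.1.1 ω) v)
  have e5 := dim_RR hU hH hI fI
  have e6 := dim_RR hU hH.orth hD fD
  have e7 := dim_split (b := b) (Q := Q) hI.1 hH.1
  have e8 := dim_split (b := b) (Q := Q) hD.1 hH.orth.1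
  have e9 := dim_le_add (b := b) (Q := Q) (hI.inf b hH.orth).1
    (fun ω v => norm_AK_le (hH.1.1 ω) (hI.1.1 ω) (hD.1.1 ω) (hID ω) v)
  have eO : ∀ ω, ((CI ω)ᗮ ⊓ (CD ω)ᗮ)ᗮᗮ = (CI ω)ᗮ ⊓ (CD ω)ᗮ := gO.1.1
  simp only [eO] at e1
  rw [e4, e5, e6, e2] at e1
  rw [eA] at e3
  obtain ⟨z, hz⟩ : ∃ z, z = dim b Q (fun ω => ((H ω ⊓ (CI ω)ᗮ)ᗮ ⊓ ((H ω)ᗮ ⊓ (CD ω)ᗮ)ᗮ) ⊓
    ((CI ω)ᗮ ⊓ (CD ω)ᗮ)) := ⟨_, rfl⟩
  rw [← hz] at e1 ⊢
  obtain ⟨r, hr⟩ : ∃ r, r = dim b Q (fun ω => RR ((CI ω)ᗮ ⊓ (CD ω)ᗮ)ᗮ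
    ((H ω ⊓ (CI ω)ᗮ)ᗮ ⊓ ((H ω)ᗮ ⊓ (CD ω)ᗮ)ᗮ)) := ⟨_, rfl⟩
  rw [← hr] at e1 e3
  have key : z + (dim b Q CI + dim b Q CD) ≤ 0 + (dim b Q CI + dim b Q CD) := by
    calc z + (dim b Q CI + dim b Q CD) = z + r + _ := by rw [e3, add_comm _ r, ← add_assoc]
      _ ≤ z + r + _ := add_le_add le_rfl e9
      _ = 0 + (dim b Q CI + dim b Q CD) := by rw [← e1, e7, e8]; ring
  exact le_antisymm (ENNReal.le_of_add_le_add_right (ENNReal.add_ne_top.2 ⟨fI, fD⟩) key) zero_le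

theorem dim_lip (hU : Uni b Q act U) {O K J : Ω → Submodule ℝ E} (hO : GS act U O)
    (hK : GS act U K) (hJ : GS act U J) (fJ : dim b Q J ≠ ∞) :
    dim b Q (fun ω => RR (O ω) (K ω) ⊓ (RR (O ω) (K ω ⊓ (J ω)ᗮ))ᗮ) ≤ dim b Q J := by
  have gY := (hO.RR b hK).inf b (hO.RR b (hK.inf b hJ.orth)).orth
  have gR := hK.RR b hJ
  have e1 : dim b Q (fun ω => RR (K ω) (J ω)) ≤ dim b Q J := by
    rw [dim_RR hU hK hJ fJ]; exact dim_RR_le hJ.1 hK.1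
  have e2 := dim_split (b := b) (Q := Q) gY.1 gR.1
  have e3 := dim_RR hU gY gR (ne_top_of_le_ne_top fJ e1)
  have e4 : dim b Q (fun ω => (RR (O ω) (K ω) ⊓ (RR (O ω) (K ω ⊓ (J ω)ᗮ))ᗮ) ⊓
      (RR (K ω) (J ω))ᗮ) = 0 := by
    have : ∀ ω, (RR (O ω) (K ω) ⊓ (RR (O ω) (K ω ⊓ (J ω)ᗮ))ᗮ) ⊓ (RR (K ω) (J ω))ᗮ = ⊥ :=
      fun ω => lip_bot (hO.1.1 ω) (hK.1.1 ω)
    have h0 : ∀ v : E, pr (⊥ : Submodule ℝ E) v = 0 := fun v => pr_zero (by simp)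
    simp [this, dim, NN, h0]
  rw [e2, e4, zero_add, e3]
  exact (dim_RR_le gR.1 gY.1).trans e1

omit [CompleteSpace E] [Countable ι] [MeasurableSpace ι] [DiscreteMeasurableSpace ι] in
lemma ofReal_norm_sq_eq (b : HilbertBasis ι ℝ E) (v : E) :
    ENNReal.ofReal (‖v‖ ^ 2) = ∑' i, ENNReal.ofReal (⟪v, b i⟫_ℝ ^ 2) := by
  have := b.hasSum_inner_mul_inner v v
  simp only [real_inner_self_eq_norm_sq, real_inner_comm v, ← sq] at this
  rw [← this.tsum_eq, ENNReal.ofReal_tsum_of_nonneg (fun j => sq_nonneg _) this.summable]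

end

end Vale.Agent.P143
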