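import Vale.Agent.P143.Cond

open MeasureTheory ProbabilityTheory Filter Topology SimpleGraph
open scoped InnerProductSpace ENNReal Classical

namespace Vale.Agent.P143

noncomputable section

variable {V : Type*}

def deg (G : SimpleGraph V) (x : V) : ℝ := (G.neighborSet x).ncard

def aE (G : SimpleGraph V) : Sym2 V → ℝ :=
  Sym2.lift ⟨fun x y => if G.Adj x y then 1 / (deg G x + deg G y) else -1, fun x y => by
    simp only [G.adj_comm x y, add_comm]⟩

lemma aE_mk (G : SimpleGraph V) (x y : V) :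
    aE G s(x, y) = if G.Adj x y then 1 / (deg G x + deg G y) else -1 := rfl

def tm (G : SimpleGraph V) (U : Sym2 V → ℝ) (e : Sym2 V) : ℝ := aE G e * U e

def up (G : SimpleGraph V) (U : Sym2 V → ℝ) (r : ℝ) : Set (Sym2 V) := {f | r < tm G U f}

def kr (G : SimpleGraph V) (U : Sym2 V → ℝ) (r : ℝ) (X : Sym2 V → Bool) (e : Sym2 V) : ℝ :=
  kM (LL G (up G U r) X) e

def ksr (G : SimpleGraph V) (U : Sym2 V → ℝ) (r : ℝ) (X : Sym2 V → Bool) (e : Sym2 V) : ℝ :=
  kM (LS G (up G U r) X) e

def kE (G : SimpleGraph V) (U : Sym2 V → ℝ) (X : Sym2 V → Bool) (e : Sym2 V) : ℝ :=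
  kr G U (tm G U e) X e

def ph (c : Bool) (k w : ℝ) : ℝ := if c = true then k * w + 0 else (1 - k) * w + k

def vv (G : SimpleGraph V) (U : Sym2 V → ℝ) (F : Sym2 V → Bool) (W : Sym2 V → ℝ) (e : Sym2 V) : ℝ :=
  ph (F e) (kE G U F e) (W e)

def XX (G : SimpleGraph V) (U Y : Sym2 V → ℝ) : ℕ → Sym2 V → Bool
  | 0 => fun _ => false
  | n + 1 => fun e => decide (Y e < kE G U (XX G U Y n) e)

def Phi0 (G : SimpleGraph V) (U Y : Sym2 V → ℝ) (e : Sym2 V) : Bool :=
  decide (∀ᶠ n in atTop, XX G U Y n e = true)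

/-! ### equivariance -/

lemma deg_comap (σ : Equiv.Perm V) (G : SimpleGraph V) (x : V) :
    deg (G.comap σ) x = deg G (σ x) := by
  unfold deg
  have : G.neighborSet (σ x) = σ '' (G.comap σ).neighborSet x := by
    ext y
    obtain ⟨y, rfl⟩ := σ.surjective y
    simp
  rw [this, Set.ncard_image_of_injective _ σ.injective]

lemma aE_comap (σ : Equiv.Perm V) (G : SimpleGraph V) (e : Sym2 V) :
    aE (G.comap σ) e = aE G (e.map σ) := by
  induction e with
  | h x y => simp only [Sym2.map_mk, aE_mk, deg_comap, comap_adj]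

lemma tm_comap (σ : Equiv.Perm V) (G : SimpleGraph V) (U : Sym2 V → ℝ) (e : Sym2 V) :
    tm (G.comap σ) (rel σ U) e = tm G U (e.map σ) := by
  simp only [tm, aE_comap, rel]

lemma up_comap (σ : Equiv.Perm V) (G : SimpleGraph V) (U : Sym2 V → ℝ) (r : ℝ) (e : Sym2 V) :
    e ∈ up (G.comap σ) (rel σ U) r ↔ e.map σ ∈ up G U r := by
  simp only [up, Set.mem_ofPred_eq, tm_comap]

lemma kr_comap (σ : Equiv.Perm V) (G : SimpleGraph V) (U : Sym2 V → ℝ) (r : ℝ)
    (X : Sym2 V → Bool) (e : Sym2 V) :
    kr (G.comap σ) (rel σ U) r (rel σ X) e = kr G U r X (e.map σ) :=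
  kM_LL_comap σ G (up_comap σ G U r) (fun _ => rfl) e

lemma ksr_comap (σ : Equiv.Perm V) (G : SimpleGraph V) (U : Sym2 V → ℝ) (r : ℝ)
    (X : Sym2 V → Bool) (e : Sym2 V) :
    ksr (G.comap σ) (rel σ U) r (rel σ X) e = ksr G U r X (e.map σ) :=
  kM_LS_comap σ G (up_comap σ G U r) (fun _ => rfl) e

lemma kE_comap (σ : Equiv.Perm V) (G : SimpleGraph V) (U : Sym2 V → ℝ)
    (X : Sym2 V → Bool) (e : Sym2 V) :
    kE (G.comap σ) (rel σ U) (rel σ X) e = kE G U X (e.map σ) := by
  rw [kE, tm_comap, kr_comap, kE]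

lemma vv_comap (σ : Equiv.Perm V) (G : SimpleGraph V) (U : Sym2 V → ℝ)
    (F : Sym2 V → Bool) (W : Sym2 V → ℝ) :
    vv (G.comap σ) (rel σ U) (rel σ F) (rel σ W) = rel σ (vv G U F W) := by
  funext e
  simp only [vv, kE_comap, rel]

lemma XX_comap (σ : Equiv.Perm V) (G : SimpleGraph V) (U Y : Sym2 V → ℝ) (n : ℕ) :
    XX (G.comap σ) (rel σ U) (rel σ Y) n = rel σ (XX G U Y n) := by
  induction n with
  | zero => rfl
  | succ n ih =>
    funext e
    simp only [XX, ih, kE_comap, rel]

lemma Phi0_comap (σ : Equiv.Perm V) (G : SimpleGraph V) (U Y : Sym2 V → ℝ) :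
    Phi0 (G.comap σ) (rel σ U) (rel σ Y) = rel σ (Phi0 G U Y) := by
  funext e
  simp only [Phi0, XX_comap, rel]

/-! ### locality -/

section loc
variable {G : SimpleGraph V} {U U' W W' Y Y' : Sym2 V → ℝ} {F F' X X' : Sym2 V → Bool} {r : ℝ}

lemma up_local (h : up G U r = up G U' r) (hU : ∀ f ∈ up G U r, U f = U' f) {s : ℝ} (hs : r ≤ s) :
    up G U s = up G U' s := by
  ext g
  constructor
  · intro hg
    have : g ∈ up G U r := lt_of_le_of_lt hs hg
    simpa only [up, tm, Set.mem_ofPred_eq, hU g this] using hg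
  · intro hg
    have : g ∈ up G U r := h ▸ lt_of_le_of_lt hs hg
    simpa only [up, tm, Set.mem_ofPred_eq, hU g this] using hg

lemma kr_local (h : up G U r = up G U' r) (hX : ∀ f ∈ up G U r, X f = X' f) (e : Sym2 V) :
    kr G U r X e = kr G U' r X' e := by
  rw [kr, kr, ← h, LL_congr G hX]

lemma ksr_local (h : up G U r = up G U' r) (hX : ∀ f ∈ up G U r, X f = X' f) (e : Sym2 V) :
    ksr G U r X e = ksr G U' r X' e := by
  rw [ksr, ksr, ← h, LS_congr G hX]

lemma kE_local (h : up G U r = up G U' r) (hU : ∀ f ∈ up G U r, U f = U' f)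
    (hX : ∀ f ∈ up G U r, X f = X' f) {e : Sym2 V} (he : e ∈ up G U r) :
    kE G U X e = kE G U' X' e := by
  have : tm G U' e = tm G U e := by simp only [tm, hU e he]
  rw [kE, kE, this]
  exact kr_local (up_local h hU (le_of_lt he)) (fun f hf => hX f (lt_trans (show r < tm G U e from he) hf)) e

lemma vv_local (h : up G U r = up G U' r) (hU : ∀ f ∈ up G U r, U f = U' f)
    (hF : ∀ f ∈ up G U r, F f = F' f) (hW : ∀ f ∈ up G U r, W f = W' f) :
    ∀ e ∈ up G U r, vv G U F W e = vv G U' F' W' e := fun e he => by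
  rw [vv, vv, kE_local h hU hF he, hF e he, hW e he]

lemma XX_local (h : up G U r = up G U' r) (hU : ∀ f ∈ up G U r, U f = U' f)
    (hY : ∀ f ∈ up G U r, Y f = Y' f) (n : ℕ) :
    ∀ e ∈ up G U r, XX G U Y n e = XX G U' Y' n e := by
  induction n with
  | zero => exact fun _ _ => rfl
  | succ n ih => exact fun e he => by simp only [XX, kE_local h hU ih he, hY e he]

lemma up_update {e : Sym2 V} {u u' : ℝ} (hu : aE G e * u ≤ r) (hu' : aE G e * u' ≤ r) :
    up G (Function.update U e u) r = up G (Function.update U e u') r ∧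
    ∀ f ∈ up G (Function.update U e u) r, Function.update U e u f = Function.update U e u' f := by
  constructor
  · ext f
    by_cases hf : f = e
    · subst hf
      simp [up, tm, not_lt.2 hu, not_lt.2 hu']
    · simp [up, tm, hf]
  · intro f hf
    by_cases hfe : f = e
    · subst hfe
      simp [up, tm, not_lt.2 hu] at hf
    · simp [hfe]

end loc

/-! ### measurability -/

section meas
variable [Countable V] {Ω : Type*} [MeasurableSpace Ω]
variable {gG : Ω → SimpleGraph V} {gU gW gY : Ω → Sym2 V → ℝ} {gX : Ω → Sym2 V → Bool} {gr : Ω → ℝ}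

lemma meas_deg (x : V) : Measurable fun G : SimpleGraph V => deg G x := by
  have : Measurable fun G : SimpleGraph V => G.neighborSet x :=
    measurable_set_iff.2 fun y => (SimpleGraph.measurable_iff_adj.1 measurable_id) x y
  exact (Measurable.of_discrete (f := fun n : ℕ => (n : ℝ))).comp (measurable_ncard.comp this)

lemma meas_aE (e : Sym2 V) : Measurable fun G : SimpleGraph V => aE G e := by
  induction e with
  | h x y =>
    simp only [aE_mk]
    exact Measurable.ite (meas_adj x y) (((meas_deg x).add (meas_deg y)).const_div 1)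
      measurable_const

lemma meas_tm (hG : Measurable gG) (hU : Measurable gU) (e : Sym2 V) :
    Measurable fun ω => tm (gG ω) (gU ω) e :=
  ((meas_aE e).comp hG).mul ((measurable_pi_apply e).comp hU)

lemma meas_up (hG : Measurable gG) (hU : Measurable gU) (hr : Measurable gr) (e : Sym2 V) :
    MeasurableSet {ω | e ∈ up (gG ω) (gU ω) (gr ω)} :=
  measurableSet_lt hr (meas_tm hG hU e)

lemma meas_kr (hG : Measurable gG) (hU : Measurable gU) (hr : Measurable gr) (hX : Measurable gX)
    (e : Sym2 V) : Measurable fun ω => kr (gG ω) (gU ω) (gr ω) (gX ω) e :=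
  (MS_LL hG (meas_up hG hU hr) hX).kM e

lemma meas_ksr (hG : Measurable gG) (hU : Measurable gU) (hr : Measurable gr) (hX : Measurable gX)
    (e : Sym2 V) : Measurable fun ω => ksr (gG ω) (gU ω) (gr ω) (gX ω) e :=
  (MS_LS hG (meas_up hG hU hr) hX).kM e

lemma meas_kE (hG : Measurable gG) (hU : Measurable gU) (hX : Measurable gX)
    (e : Sym2 V) : Measurable fun ω => kE (gG ω) (gU ω) (gX ω) e :=
  meas_kr hG hU (meas_tm hG hU e) hX e

omit [Countable V] in
lemma meas_ph {c : Ω → Bool} {k w : Ω → ℝ} (hc : Measurable c) (hk : Measurable k)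
    (hw : Measurable w) : Measurable fun ω => ph (c ω) (k ω) (w ω) :=
  Measurable.ite (hc (measurableSet_singleton true)) (by fun_prop) (by fun_prop)

lemma meas_vv (hG : Measurable gG) (hU : Measurable gU) (hX : Measurable gX)
    (hW : Measurable gW) : Measurable fun ω => vv (gG ω) (gU ω) (gX ω) (gW ω) :=
  measurable_pi_lambda _ fun e => meas_ph ((measurable_pi_apply e).comp hX) (meas_kE hG hU hX e)
    ((measurable_pi_apply e).comp hW)

omit [Countable V] in
lemma meas_decide {p : Ω → Prop} {d : ∀ ω, Decidable (p ω)} (h : MeasurableSet {ω | p ω}) :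
    Measurable fun ω => @decide (p ω) (d ω) :=
  measurable_to_bool (by convert h using 1; ext ω; simp)

lemma meas_XX (hG : Measurable gG) (hU : Measurable gU) (hY : Measurable gY) (n : ℕ) :
    Measurable fun ω => XX (gG ω) (gU ω) (gY ω) n := by
  induction n with
  | zero => exact measurable_const
  | succ n ih =>
    exact measurable_pi_lambda _ fun e => meas_decide
      (measurableSet_lt ((measurable_pi_apply e).comp hY) (meas_kE hG hU ih e))

lemma meas_Phi0 (hG : Measurable gG) (hU : Measurable gU) (hY : Measurable gY) :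
    Measurable fun ω => Phi0 (gG ω) (gU ω) (gY ω) := by
  refine measurable_pi_lambda _ fun e => meas_decide ?_
  simp only [eventually_atTop, Set.ofPred_exists, Set.ofPred_forall]
  exact .iUnion fun a => .iInter fun b => .iInter fun _ => measSet_eq (meas_XX hG hU hY b) e true

end meas

/-! ### the uniform measure -/

def lam : Measure ℝ := volume.restrict (Set.Ioc 0 1)

instance : IsProbabilityMeasure lam := ⟨by simp [lam]⟩

lemma lam_ae : ∀ᵐ w ∂lam, w ∈ Set.Ioo (0 : ℝ) 1 := by
  rw [lam, ← Measure.restrict_congr_set Ioo_ae_eq_Ioc]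
  exact ae_restrict_mem measurableSet_Ioo

instance : NullSingletonClass lam := by unfold lam; infer_instance

lemma lam_affine {c : ℝ} (hc : 0 ≤ c) (a : ℝ) (ψ : ℝ → ℝ≥0∞) :
    ENNReal.ofReal c * ∫⁻ w, ψ (c * w + a) ∂lam = ∫⁻ v in Set.Ioc a (c + a), ψ v := by
  rcases eq_or_lt_of_le hc with rfl | hc
  · simp
  have := lintegral_image_eq_lintegral_abs_deriv_mul (s := Set.Ioc (0 : ℝ) 1)
    (f := fun w => c * w + a) (f' := fun _ => c) measurableSet_Ioc
    (fun x _ => (by simpa using ((hasDerivAt_id x).const_mul c).add_const a :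
      HasDerivAt (fun w => c * w + a) c x).hasDerivWithinAt)
    (fun x _ y _ h => by simpa [hc.ne'] using h) ψ
  rw [Set.image_affine_Ioc hc, abs_of_pos hc, lintegral_const_mul' _ _ ENNReal.ofReal_ne_top] at this
  rw [lam, ← this]
  simp

lemma lam_split {k : ℝ} (h0 : 0 ≤ k) (h1 : k ≤ 1) (ψ : ℝ → ℝ≥0∞) :
    ENNReal.ofReal (kc true k) * ∫⁻ w, ψ (ph true k w) ∂lam +
      ENNReal.ofReal (kc false k) * ∫⁻ w, ψ (ph false k w) ∂lam = ∫⁻ v, ψ v ∂lam := by
  simp only [kc, ph, if_true, Bool.false_eq_true, if_false]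
  rw [lam_affine h0, lam_affine (sub_nonneg.2 h1), lam, add_zero, sub_add_cancel,
    ← lintegral_union measurableSet_Ioc (Set.Ioc_disjoint_Ioc_of_le le_rfl),
    Set.Ioc_union_Ioc_eq_Ioc h0 h1]

def piL (ι : Type*) : Measure (ι → ℝ) := Measure.infinitePi fun _ : ι => lam

instance (ι : Type*) : IsProbabilityMeasure (piL ι) := by unfold piL; infer_instance

lemma map_update {ι : Type*} [DecidableEq ι] (i : ι) :
    ((piL ι).prod lam).map (fun p => Function.update p.1 i p.2) = piL ι := by
  refine Measure.eq_infinitePi _ fun s t ht => ?_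
  rw [Measure.map_apply measurable_update' (.pi s.countable_toSet fun _ _ => ht _)]
  have : (fun p : (ι → ℝ) × ℝ => Function.update p.1 i p.2) ⁻¹' (s : Set ι).pi t =
      ((s.erase i : Finset ι) : Set ι).pi t ×ˢ (if i ∈ s then t i else Set.univ) := by
    ext ⟨U, u⟩
    simp only [Set.mem_preimage, Set.mem_pi, Finset.mem_coe, Set.mem_prod, Finset.mem_erase]
    constructor
    · intro h
      refine ⟨fun j hj => by simpa [hj.1] using h j hj.2, ?_⟩
      split_ifs with hi
      · simpa using h i hi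
      · trivial
    · rintro ⟨h1, h2⟩ j hj
      by_cases hji : j = i
      · subst hji; simpa [hj] using h2
      · simpa [hji] using h1 j ⟨hji, hj⟩
  rw [this, Measure.prod_prod, piL, Measure.infinitePi_pi _ fun j _ => ht j]
  split_ifs with hi
  · exact Finset.prod_erase_mul _ _ hi
  · rw [Finset.erase_eq_of_notMem hi]; simp

lemma resample {ι : Type*} [DecidableEq ι] (i : ι) {f : (ι → ℝ) → ℝ≥0∞} (hf : Measurable f) :
    ∫⁻ U, f U ∂piL ι = ∫⁻ U, ∫⁻ u, f (Function.update U i u) ∂lam ∂piL ι := by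
  conv_lhs => rw [← map_update i]
  rw [lintegral_map hf measurable_update']
  exact lintegral_prod _ (hf.comp measurable_update').aemeasurable

lemma piL_ae {ι : Type*} [Countable ι] : ∀ᵐ U ∂piL ι, ∀ i, U i ∈ Set.Ioo (0 : ℝ) 1 :=
  ae_all_iff.2 fun i =>
    (measurePreserving_eval_infinitePi (fun _ : ι => lam) i).quasiMeasurePreserving.ae lam_ae

lemma piL_inj {ι : Type*} [Countable ι] {a : ι → ℝ} (ha : ∀ i, a i ≠ 0) :
    ∀ᵐ U ∂piL ι, Function.Injective fun i => a i * U i := by
  have : ∀ i j, ∀ᵐ U ∂piL ι, a i * U i = a j * U j → i = j := by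
    intro i j
    by_cases hij : i = j
    · simp [hij]
    simp only [hij, imp_false]
    have hm : MeasurableSet {U : ι → ℝ | a i * U i = a j * U j} :=
      measurableSet_eq_fun (by fun_prop) (by fun_prop)
    rw [ae_iff]
    simp only [not_not]
    rw [← lintegral_indicator_one hm, resample i (measurable_one.indicator hm)]
    refine (lintegral_congr fun U => ?_).trans lintegral_zero
    have : ∀ u, Set.indicator {U : ι → ℝ | a i * U i = a j * U j} (1 : (ι → ℝ) → ℝ≥0∞)
        (Function.update U i u) = Set.indicator {a j * U j / a i} 1 u := by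
      intro u
      simp only [Set.indicator, Set.mem_ofPred_eq, Function.update_self,
        Function.update_of_ne (Ne.symm hij), Set.mem_singleton_iff, eq_div_iff (ha i), mul_comm u]
      rfl
    simp only [this]
    rw [lintegral_indicator_one (measurableSet_singleton _), measure_singleton]
  exact (ae_all_iff.2 fun i => ae_all_iff.2 fun j => this i j).mono fun U h i j => h i j

lemma piL_reindex {ι κ : Type*} {f : κ → ι} (hf : Function.Injective f) :
    (piL ι).map (fun U j => U (f j)) = piL κ := by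
  refine Measure.eq_infinitePi _ fun s t ht => ?_
  rw [Measure.map_apply (by fun_prop) (.pi s.countable_toSet fun _ _ => ht _)]
  have : (fun (U : ι → ℝ) j => U (f j)) ⁻¹' (s : Set κ).pi t =
      ((s.map ⟨f, hf⟩ : Finset ι) : Set ι).pi (Function.extend f t fun _ => Set.univ) := by
    ext U
    simp [hf.extend_apply]
  rw [this, piL, Measure.infinitePi_pi, Finset.prod_map]
  · simp [hf.extend_apply]
  · intro i hi
    obtain ⟨j, _, rfl⟩ := Finset.mem_map.1 hi
    simpa [hf.extend_apply] using ht j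

end

end Vale.Agent.P143
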