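import Vale.Agent.P143.Space

open MeasureTheory Filter Topology ContinuousLinearMap
open scoped InnerProductSpace ENNReal Classical

namespace Vale.Agent.P143

noncomputable section

variable {V : Type*} {Ω : Type*} {Γ : Type*}

section meas
variable [MeasurableSpace Ω] [Countable V]
variable {gG : Ω → SimpleGraph V} {gA : Ω → Set (Sym2 V)} {gX gY : Ω → Sym2 V → Bool}

omit [Countable V] in
lemma MS.comp {E : Type*} [NormedAddCommGroup E] [InnerProductSpace ℝ E] [CompleteSpace E]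
    {Ω' : Type*} [MeasurableSpace Ω'] {M : Ω' → Submodule ℝ E} (hM : MS M) {f : Ω → Ω'}
    (hf : Measurable f) : MS fun ω => M (f ω) :=
  ⟨fun _ => hM.1 _, fun u v => (hM.2 u v).comp hf⟩

omit [Countable V] in
lemma measSet_eq (hX : Measurable gX) (e : Sym2 V) (c : Bool) :
    MeasurableSet {ω | gX ω e = c} :=
  ((measurable_pi_apply e).comp hX) (measurableSet_singleton c)

lemma MS_cI (hA : ∀ e, MeasurableSet {ω | e ∈ gA ω}) (hX : Measurable gX) :
    MS fun ω => cI (gA ω) (gX ω) := MS.co fun _ => (hA _).inter (measSet_eq hX _ _)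

lemma MS_cD (hA : ∀ e, MeasurableSet {ω | e ∈ gA ω}) (hX : Measurable gX) :
    MS fun ω => cD (gA ω) (gX ω) := MS.co fun _ => (hA _).inter (measSet_eq hX _ _)

lemma MS_O (hA : ∀ e, MeasurableSet {ω | e ∈ gA ω}) :
    MS fun ω => Co (dart (gA ω)ᶜ) := MS.co fun _ => (hA _).compl

lemma MS_LL (hG : Measurable gG) (hA : ∀ e, MeasurableSet {ω | e ∈ gA ω}) (hX : Measurable gX) :
    MS fun ω => LL (gG ω) (gA ω) (gX ω) :=
  (MS_O hA).RR (bs V) ((MS_HH.comp hG).inf (bs V) (MS_cI hA hX).orth)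

lemma MS_LS (hG : Measurable gG) (hA : ∀ e, MeasurableSet {ω | e ∈ gA ω}) (hX : Measurable gX) :
    MS fun ω => LS (gG ω) (gA ω) (gX ω) :=
  (MS_O hA).RR (bs V) ((MS_HH.comp hG).orth.inf (bs V) (MS_cD hA hX).orth)

lemma MS.kM {M : Ω → Submodule ℝ (HS V)} (hM : MS M) (e : Sym2 V) :
    Measurable fun ω => kM (M ω) e := by
  induction e with
  | h x y => exact (hM.2.norm_sq (bs V) _).div_const _

end meas

section equi
variable {π : Γ → Equiv.Perm V} {act : Γ → Ω → Ω}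
variable {gG : Ω → SimpleGraph V} {gA : Ω → Set (Sym2 V)} {gX gY : Ω → Sym2 V → Bool}

lemma EqS_dart (hA : ∀ g ω e, e ∈ gA (act g ω) ↔ e.map (π g) ∈ gA ω) :
    EqS act (fun g => UU (π g)) fun ω => Co (dart (gA ω)) :=
  fun g ω v => UU_mem_Co _ (fun _ => hA g ω _) v

lemma EqS_HH (hG : ∀ g ω, gG (act g ω) = (gG ω).comap (π g)) :
    EqS act (fun g => UU (π g)) fun ω => HH (gG ω) :=
  fun g ω v => by simp only [hG]; exact UU_mem_HH _ _ v

lemma EqS_cI (hA : ∀ g ω e, e ∈ gA (act g ω) ↔ e.map (π g) ∈ gA ω)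
    (hX : ∀ g ω e, gX (act g ω) e = gX ω (e.map (π g))) :
    EqS act (fun g => UU (π g)) fun ω => cI (gA ω) (gX ω) :=
  EqS_dart fun g ω e => by simp only [sI, Set.mem_ofPred_eq, hA, hX]

lemma EqS_cD (hA : ∀ g ω e, e ∈ gA (act g ω) ↔ e.map (π g) ∈ gA ω)
    (hX : ∀ g ω e, gX (act g ω) e = gX ω (e.map (π g))) :
    EqS act (fun g => UU (π g)) fun ω => cD (gA ω) (gX ω) :=
  EqS_dart fun g ω e => by simp only [sD, Set.mem_ofPred_eq, hA, hX]

lemma EqS_O (hA : ∀ g ω e, e ∈ gA (act g ω) ↔ e.map (π g) ∈ gA ω) :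
    EqS act (fun g => UU (π g)) fun ω => Co (dart (gA ω)ᶜ) :=
  EqS_dart fun g ω e => by simp only [Set.mem_compl_iff, hA]

lemma EqS.kM {M : Ω → Submodule ℝ (HS V)} (hc : ∀ ω, Cl (M ω))
    (hM : EqS act (fun g => UU (π g)) M) (g : Γ) (ω : Ω) (e : Sym2 V) :
    kM (M (act g ω)) e = kM (M ω) (e.map (π g)) := by
  induction e with
  | h x y =>
    have h1 := Equi.of_mem hc hM g ω (chiV (π g x) (π g y))
    have h2 : UU (π g) (chiV (π g x) (π g y)) = chiV x y := by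
      simp only [chiV, map_sub, UU_bs]
    simp only [h2] at h1
    rw [Sym2.map_mk, kM_mk, kM_mk, h1, LinearIsometryEquiv.norm_map]

end equi

def act0 (σ : Equiv.Perm V) (ω : SimpleGraph V × Set (Sym2 V) × (Sym2 V → Bool)) :
    SimpleGraph V × Set (Sym2 V) × (Sym2 V → Bool) :=
  (ω.1.comap σ, {e | e.map σ ∈ ω.2.1}, fun e => ω.2.2 (e.map σ))

lemma kM_LL_comap (σ : Equiv.Perm V) (G : SimpleGraph V) {A A' : Set (Sym2 V)}
    {X X' : Sym2 V → Bool} (hA : ∀ e, e ∈ A' ↔ e.map σ ∈ A) (hX : ∀ e, X' e = X (e.map σ))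
    (e : Sym2 V) : kM (LL (G.comap σ) A' X') e = kM (LL G A X) (e.map σ) := by
  have h1 : A' = {e | e.map σ ∈ A} := Set.ext hA
  have h2 : X' = fun e => X (e.map σ) := funext hX
  rw [h1, h2]
  exact EqS.kM (π := id) (act := act0) (M := fun ω => LL ω.1 ω.2.1 ω.2.2)
    (fun ω => (cl_Co _).RR _) ((EqS_O (π := id) fun _ _ _ => Iff.rfl).RR
      ((EqS_HH (π := id) fun _ _ => rfl).inf
        (EqS_cI (π := id) (fun _ _ _ => Iff.rfl) (fun _ _ _ => rfl)).orth)) σ (G, A, X) e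

lemma kM_LS_comap (σ : Equiv.Perm V) (G : SimpleGraph V) {A A' : Set (Sym2 V)}
    {X X' : Sym2 V → Bool} (hA : ∀ e, e ∈ A' ↔ e.map σ ∈ A) (hX : ∀ e, X' e = X (e.map σ))
    (e : Sym2 V) : kM (LS (G.comap σ) A' X') e = kM (LS G A X) (e.map σ) := by
  have h1 : A' = {e | e.map σ ∈ A} := Set.ext hA
  have h2 : X' = fun e => X (e.map σ) := funext hX
  rw [h1, h2]
  exact EqS.kM (π := id) (act := act0) (M := fun ω => LS ω.1 ω.2.1 ω.2.2)
    (fun ω => (cl_Co _).RR _) ((EqS_O (π := id) fun _ _ _ => Iff.rfl).RR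
      ((EqS_HH (π := id) fun _ _ => rfl).orth.inf
        (EqS_cD (π := id) (fun _ _ _ => Iff.rfl) (fun _ _ _ => rfl)).orth)) σ (G, A, X) e

lemma LL_congr (G : SimpleGraph V) {A : Set (Sym2 V)} {X X' : Sym2 V → Bool}
    (h : ∀ e ∈ A, X e = X' e) : LL G A X = LL G A X' := by
  have : sI A X = sI A X' := Set.ext fun e => and_congr_right fun he => by rw [h e he]
  rw [LL, LL, cI, cI, this]

lemma LS_congr (G : SimpleGraph V) {A : Set (Sym2 V)} {X X' : Sym2 V → Bool}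
    (h : ∀ e ∈ A, X e = X' e) : LS G A X = LS G A X' := by
  have : sD A X = sD A X' := Set.ext fun e => and_congr_right fun he => by rw [h e he]
  rw [LS, LS, cD, cD, this]

lemma k_add_le {G : SimpleGraph V} {A : Set (Sym2 V)} (X : Sym2 V → Bool) {x y : V} (hxy : x ≠ y)
    (hA : s(x, y) ∉ A) : kM (LL G A X) s(x, y) + kM (LS G A X) s(x, y) ≤ 1 := by
  have := k_add (G := G) X hxy hA
  nlinarith [sq_nonneg ‖pr (ZZ G A X) (bs V (x, y))‖]

section trace
variable [MeasurableSpace Ω] [Countable V] [MeasurableSpace V] [DiscreteMeasurableSpace V]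
variable {π : Γ → Equiv.Perm V} {act : Γ → Ω → Ω} {Q : Measure (Ω × (V × V))}
variable {gG : Ω → SimpleGraph V} {gA : Ω → Set (Sym2 V)} {gX gY : Ω → Sym2 V → Bool}

lemma measSet_prod {B : Ω → Set (V × V)} (h : ∀ p, MeasurableSet {ω | p ∈ B ω}) :
    MeasurableSet {q : Ω × (V × V) | q.2 ∈ B q.1} := by
  rw [← measurable_mem]
  exact measurable_from_prod_countable_left fun p => measurable_mem.2 (h p)

lemma dim_Co {B : Ω → Set (V × V)} (h : ∀ p, MeasurableSet {ω | p ∈ B ω}) :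
    dim (bs V) Q (fun ω => Co (B ω)) = Q {q | q.2 ∈ B q.1} := by
  rw [← lintegral_indicator_one (measSet_prod h)]
  refine lintegral_congr fun q => ?_
  simp only [pr_Co_bs, Set.indicator, Set.mem_ofPred_eq]
  split_ifs <;> simp [norm_bs]

theorem fam_Z (hU : Uni (bs V) Q act fun g => UU (π g)) (mG : Measurable gG)
    (mA : ∀ e, MeasurableSet {ω | e ∈ gA ω}) (mX : Measurable gX)
    (hG : ∀ g ω, gG (act g ω) = (gG ω).comap (π g))
    (hA : ∀ g ω e, e ∈ gA (act g ω) ↔ e.map (π g) ∈ gA ω)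
    (hX : ∀ g ω e, gX (act g ω) e = gX ω (e.map (π g)))
    (hfin : Q {q | s(q.2.1, q.2.2) ∈ gA q.1} ≠ ∞) :
    ∫⁻ q, (if q.2.1 ≠ q.2.2 ∧ s(q.2.1, q.2.2) ∉ gA q.1 then
      ENNReal.ofReal (1 - kM (LL (gG q.1) (gA q.1) (gX q.1)) s(q.2.1, q.2.2) -
        kM (LS (gG q.1) (gA q.1) (gX q.1)) s(q.2.1, q.2.2)) else 0) ∂Q = 0 := by
  have h := dim_Z hU (H := fun ω => HH (gG ω)) (CI := fun ω => cI (gA ω) (gX ω))
    (CD := fun ω => cD (gA ω) (gX ω)) ⟨MS_HH.comp mG, EqS_HH hG⟩ ⟨MS_cI mA mX, EqS_cI hA hX⟩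
    ⟨MS_cD mA mX, EqS_cD hA hX⟩ (fun ω => cI_le _ _) ?_ ?_
  · refine le_antisymm ?_ zero_le
    have h2 : (2 : ℝ≥0∞) * dim (bs V) Q (fun ω => ZZ (gG ω) (gA ω) (gX ω)) = 0 := by
      unfold ZZ; rw [h, mul_zero]
    refine le_of_le_of_eq ?_ h2
    rw [dim, NN, ← lintegral_const_mul' _ _ (by norm_num)]
    refine lintegral_mono fun q => ?_
    split_ifs with h'
    swap
    · exact zero_le
    · have := k_add (G := gG q.1) (gX q.1) h'.1 h'.2
      have h2 : (2 : ℝ≥0∞) = ENNReal.ofReal 2 := by simp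
      rw [h2, ← ENNReal.ofReal_mul (by norm_num)]
      apply ENNReal.ofReal_le_ofReal
      linarith
  · unfold cI
    rw [dim_Co (B := fun ω => dart (sI (gA ω) (gX ω))) fun _ => (mA _).inter (measSet_eq mX _ _)]
    exact ne_top_of_le_ne_top hfin (measure_mono fun q hq => hq.1)
  · unfold cD
    rw [dim_Co (B := fun ω => dart (sD (gA ω) (gX ω))) fun _ => (mA _).inter (measSet_eq mX _ _)]
    exact ne_top_of_le_ne_top hfin (measure_mono fun q hq => hq.1)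

lemma fam_lip_aux (hU : Uni (bs V) Q act fun g => UU (π g)) (mG : Measurable gG)
    (mA : ∀ e, MeasurableSet {ω | e ∈ gA ω}) (mX : Measurable gX) (mY : Measurable gY)
    (hG : ∀ g ω, gG (act g ω) = (gG ω).comap (π g))
    (hA : ∀ g ω e, e ∈ gA (act g ω) ↔ e.map (π g) ∈ gA ω)
    (hX : ∀ g ω e, gX (act g ω) e = gX ω (e.map (π g)))
    (hY : ∀ g ω e, gY (act g ω) e = gY ω (e.map (π g)))
    (hfin : Q {q | s(q.2.1, q.2.2) ∈ gA q.1} ≠ ∞) :
    ∫⁻ q, ENNReal.ofReal (kM (LL (gG q.1) (gA q.1) (gX q.1)) s(q.2.1, q.2.2) -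
        kM (LL (gG q.1) (gA q.1) (gY q.1)) s(q.2.1, q.2.2)) ∂Q ≤
      2 * Q {q | s(q.2.1, q.2.2) ∈ gA q.1 ∧ gY q.1 s(q.2.1, q.2.2) = true ∧
        gX q.1 s(q.2.1, q.2.2) = false} := by
  have mJ : ∀ e, MeasurableSet {ω | e ∈ gA ω ∧ gY ω e = true ∧ gX ω e = false} := fun e =>
    (mA _).inter ((measSet_eq mY _ _).inter (measSet_eq mX _ _))
  have hd : dim (bs V) Q (fun ω => Co (dart {e | e ∈ gA ω ∧ gY ω e = true ∧ gX ω e = false})) =
      Q {q | s(q.2.1, q.2.2) ∈ gA q.1 ∧ gY q.1 s(q.2.1, q.2.2) = true ∧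
        gX q.1 s(q.2.1, q.2.2) = false} := dim_Co fun _ => mJ _
  have h := dim_lip hU (O := fun ω => Co (dart (gA ω)ᶜ))
    (K := fun ω => HH (gG ω) ⊓ (cI (gA ω) (gX ω))ᗮ)
    (J := fun ω => Co (dart {e | e ∈ gA ω ∧ gY ω e = true ∧ gX ω e = false}))
    ⟨MS_O mA, EqS_O hA⟩
    ⟨(MS_HH.comp mG).inf (bs V) (MS_cI mA mX).orth, (EqS_HH hG).inf (EqS_cI hA hX).orth⟩
    ⟨MS.co fun _ => mJ _, EqS_dart fun g ω e => by simp only [Set.mem_ofPred_eq, hA, hX, hY]⟩
    (by rw [hd]; exact ne_top_of_le_ne_top hfin (measure_mono fun q hq => hq.1))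
  rw [hd] at h
  refine le_trans ?_ (mul_le_mul_right h 2)
  rw [dim, NN, ← lintegral_const_mul' _ _ (by norm_num)]
  refine lintegral_mono fun q => ?_
  dsimp only
  have h2 : (2 : ℝ≥0∞) = ENNReal.ofReal 2 := by simp
  rw [h2, ← ENNReal.ofReal_mul (by norm_num)]
  apply ENNReal.ofReal_le_ofReal
  obtain ⟨ω, x, y⟩ := q
  dsimp only
  unfold LL
  rw [kM_eq (sym_orth_RR inf_le_left x y), kM_eq (sym_orth_RR inf_le_left x y)]
  have hle : HH (gG ω) ⊓ (cI (gA ω) (gX ω))ᗮ ⊓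
      (Co (dart {e | e ∈ gA ω ∧ gY ω e = true ∧ gX ω e = false}))ᗮ ≤
      HH (gG ω) ⊓ (cI (gA ω) (gY ω))ᗮ := by
    rw [inf_assoc]
    apply inf_le_inf_left
    rw [cI, cI, Co_orth, Co_orth, Co_orth, Co_inf]
    apply Co_mono
    intro p hp hp'
    simp only [dart, sI, Set.mem_inter_iff, Set.mem_compl_iff, Set.mem_ofPred_eq] at hp hp'
    cases hx : gX ω s(p.1, p.2)
    · exact hp.2 ⟨hp'.1, hp'.2, hx⟩
    · exact hp.1 ⟨hp'.1, hx⟩
  have e1 := norm_pr_split ((cl_Co (dart (gA ω)ᶜ)).RR _) ((cl_Co (dart (gA ω)ᶜ)).RR _)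
    (RR_mono (inf_le_left (a := HH (gG ω) ⊓ (cI (gA ω) (gX ω))ᗮ)
      (b := (Co (dart {e | e ∈ gA ω ∧ gY ω e = true ∧ gX ω e = false}))ᗮ))) (bs V (x, y))
  have e2 := norm_pr_mono ((cl_Co (dart (gA ω)ᶜ)).RR _) ((cl_Co (dart (gA ω)ᶜ)).RR _)
    (RR_mono hle) (bs V (x, y))
  linarith

theorem fam_lip (hU : Uni (bs V) Q act fun g => UU (π g)) (mG : Measurable gG)
    (mA : ∀ e, MeasurableSet {ω | e ∈ gA ω}) (mX : Measurable gX) (mY : Measurable gY)
    (hG : ∀ g ω, gG (act g ω) = (gG ω).comap (π g))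
    (hA : ∀ g ω e, e ∈ gA (act g ω) ↔ e.map (π g) ∈ gA ω)
    (hX : ∀ g ω e, gX (act g ω) e = gX ω (e.map (π g)))
    (hY : ∀ g ω e, gY (act g ω) e = gY ω (e.map (π g)))
    (hfin : Q {q | s(q.2.1, q.2.2) ∈ gA q.1} ≠ ∞) :
    ∫⁻ q, ENNReal.ofReal |kM (LL (gG q.1) (gA q.1) (gX q.1)) s(q.2.1, q.2.2) -
        kM (LL (gG q.1) (gA q.1) (gY q.1)) s(q.2.1, q.2.2)| ∂Q ≤
      2 * Q {q | s(q.2.1, q.2.2) ∈ gA q.1 ∧ gX q.1 s(q.2.1, q.2.2) ≠ gY q.1 s(q.2.1, q.2.2)} := by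
  have h1 := fam_lip_aux hU mG mA mX mY hG hA hX hY hfin
  have h2 := fam_lip_aux hU mG mA mY mX hG hA hY hX hfin
  have m1 : Measurable fun q : Ω × (V × V) =>
      ENNReal.ofReal (kM (LL (gG q.1) (gA q.1) (gX q.1)) s(q.2.1, q.2.2) -
        kM (LL (gG q.1) (gA q.1) (gY q.1)) s(q.2.1, q.2.2)) :=
    (measurable_from_prod_countable_left fun p =>
      ((MS_LL mG mA mX).kM s(p.1, p.2)).fun_sub ((MS_LL mG mA mY).kM s(p.1, p.2))).ennreal_ofReal
  refine le_trans ?_ ((add_le_add h1 h2).trans ?_)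
  · rw [← lintegral_add_left m1]
    refine lintegral_mono fun q => ?_
    dsimp only
    rcases abs_cases (kM (LL (gG q.1) (gA q.1) (gX q.1)) s(q.2.1, q.2.2) -
        kM (LL (gG q.1) (gA q.1) (gY q.1)) s(q.2.1, q.2.2)) with h | h
    · rw [h.1]; exact le_self_add
    · rw [h.1, neg_sub]; exact le_add_self
  · rw [← mul_add, ← measure_union]
    · gcongr
      rintro q (hq | hq) <;> exact ⟨hq.1, by simp [hq.2.1, hq.2.2]⟩
    · rw [Set.disjoint_left]
      intro q hq hq'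
      have := hq.2.1.symm.trans hq'.2.2
      simp at this
    · exact measSet_prod (B := fun ω => dart {e | e ∈ gA ω ∧ gX ω e = true ∧ gY ω e = false})
        fun _ => (mA _).inter ((measSet_eq mX _ _).inter (measSet_eq mY _ _))

end trace

lemma finite_dart {A : Set (Sym2 V)} (hA : A.Finite) : (dart A).Finite := by
  refine hA.preimage' (f := fun p : V × V => s(p.1, p.2)) fun e _ => ?_
  induction e with
  | h x y =>
    refine (Set.toFinite {(x, y), (y, x)}).subset fun p hp => ?_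
    rcases Sym2.eq_iff.1 (Set.mem_singleton_iff.1 hp) with ⟨rfl, rfl⟩ | ⟨rfl, rfl⟩ <;> simp

theorem k_add_finite [Countable V] (G : SimpleGraph V) {A : Set (Sym2 V)} (hA : A.Finite)
    (X : Sym2 V → Bool) {x y : V} (hxy : x ≠ y) (he : s(x, y) ∉ A) :
    kM (LL G A X) s(x, y) + kM (LS G A X) s(x, y) = 1 := by
  let : MeasurableSpace V := ⊤
  have : DiscreteMeasurableSpace V := ⟨fun _ => trivial⟩
  have hU : Uni (bs V) (Measure.count : Measure (Unit × (V × V))) (fun (g : Empty) => g.elim)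
      fun g => UU (g.elim : Equiv.Perm V) := by
    intro T _ _
    unfold NN
    rw [lintegral_count, lintegral_count, ENNReal.tsum_prod', ENNReal.tsum_prod']
    simp only [tsum_fintype, Finset.univ_unique, Finset.sum_singleton,
      ofReal_norm_sq_eq (bs V)]
    rw [ENNReal.tsum_comm]
    simp only [adjoint_inner_left, real_inner_comm]
  have h := fam_Z (π := fun g : Empty => g.elim) hU (gG := fun _ => G) (gA := fun _ => A)
    (gX := fun _ => X) measurable_const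
    (fun _ => MeasurableSet.of_discrete) measurable_const (fun g => g.elim) (fun g => g.elim)
    (fun g => g.elim) (by
      rw [Ne, Measure.count_apply_eq_top, Set.not_infinite]
      exact ((Set.finite_univ (α := Unit)).prod (finite_dart hA)).subset fun q hq => ⟨trivial, hq⟩)
  rw [lintegral_count, ENNReal.tsum_eq_zero] at h
  have h1 := h ((), x, y)
  simp only [ne_eq, hxy, not_false_eq_true, he, and_self, if_true, ENNReal.ofReal_eq_zero] at h1
  have := k_add_le (G := G) X hxy he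
  linarith

end

end Vale.Agent.P143
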