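import Vale.Agent.P143.Dyn

open MeasureTheory ProbabilityTheory Filter Topology SimpleGraph
open scoped InnerProductSpace ENNReal Classical

namespace Vale.Agent.P143

noncomputable section

variable {V : Type*} [Countable V] {G : SimpleGraph V} {U : Sym2 V → ℝ}
  {ν : Measure (Sym2 V → Bool)}

def Hyp (G : SimpleGraph V) (ν : Measure (Sym2 V → Bool)) (U : Sym2 V → ℝ) (e : Sym2 V) : Prop :=
  e ∈ G.edgeSet → ∀ᵐ X ∂ν, kr G U (tm G U e) X e + ksr G U (tm G U e) X e = 1

omit [Countable V] in
lemma not_mem_up (G : SimpleGraph V) (U : Sym2 V → ℝ) (e : Sym2 V) : e ∉ up G U (tm G U e) :=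
  lt_irrefl (tm G U e)

omit [Countable V] in
lemma kE_mask (X : Sym2 V → Bool) (e : Sym2 V) :
    kE G U (mask (up G U (tm G U e)) X) e = kE G U X e :=
  kr_local rfl (fun f hf => by simp [mask, hf]) e

theorem unif [IsProbabilityMeasure ν] (h : Det G ν) {e : Sym2 V} (hk : Hyp G ν U e)
    {Ψ : ((Sym2 V → Bool) × (Sym2 V → ℝ)) × ℝ → ℝ≥0∞} (mΨ : Measurable Ψ)
    (hΨ : ∀ F F' W W' v, (∀ f ∈ up G U (tm G U e), F f = F' f) →
      (∀ f ∈ up G U (tm G U e), W f = W' f) → Ψ ((F, W), v) = Ψ ((F', W'), v)) :
    ∫⁻ ρ, Ψ (ρ, vv G U ρ.1 ρ.2 e) ∂(ν.prod (piL _)) =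
      ∫⁻ ρ, ∫⁻ v, Ψ (ρ, v) ∂lam ∂(ν.prod (piL _)) := by
  have mk : Measurable fun F => kE G U F e := meas_kE measurable_const measurable_const measurable_id e
  have m1 : Measurable fun ρ : (Sym2 V → Bool) × (Sym2 V → ℝ) => Ψ (ρ, vv G U ρ.1 ρ.2 e) :=
    mΨ.comp (measurable_id.prodMk ((measurable_pi_apply e).comp
      (meas_vv measurable_const measurable_const measurable_fst measurable_snd)))
  have m2 : Measurable fun ρ : (Sym2 V → Bool) × (Sym2 V → ℝ) =>
      ∫⁻ w, Ψ (ρ, ph (ρ.1 e) (kE G U ρ.1 e) w) ∂lam :=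
    Measurable.lintegral_prod_right' (f := fun z : ((Sym2 V → Bool) × (Sym2 V → ℝ)) × ℝ =>
      Ψ (z.1, ph (z.1.1 e) (kE G U z.1.1 e) z.2)) (mΨ.comp (measurable_fst.prodMk
        (meas_ph (by fun_prop) (mk.comp (by fun_prop)) measurable_snd)))
  have m3 : ∀ c W, Measurable fun F : Sym2 V → Bool =>
      ∫⁻ w, Ψ ((F, W), ph c (kE G U F e) w) ∂lam := fun c W =>
    Measurable.lintegral_prod_right' (f := fun z : (Sym2 V → Bool) × ℝ =>
      Ψ ((z.1, W), ph c (kE G U z.1 e) z.2)) (mΨ.comp ((by fun_prop : Measurable fun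
        z : (Sym2 V → Bool) × ℝ => (z.1, W)).prodMk
        (meas_ph measurable_const (mk.comp (by fun_prop)) measurable_snd)))
  have m4 : ∀ c, Measurable fun F : Sym2 V → Bool => ENNReal.ofReal (kc c (kE G U F e)) := by
    intro c
    unfold kc
    split_ifs
    · exact mk.ennreal_ofReal
    · exact (mk.const_sub 1).ennreal_ofReal
  calc _ = ∫⁻ ρ, ∫⁻ w, Ψ (ρ, ph (ρ.1 e) (kE G U ρ.1 e) w) ∂lam ∂(ν.prod (piL _)) := by
        rw [lintegral_prod _ m1.aemeasurable, lintegral_prod _ m2.aemeasurable]
        refine lintegral_congr fun F => ?_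
        rw [resample e (f := fun W => Ψ ((F, W), vv G U F W e)) (m1.comp measurable_prodMk_left)]
        refine lintegral_congr fun W => lintegral_congr fun w => ?_
        simp only [vv, Function.update_self]
        exact hΨ _ _ _ _ _ (fun _ _ => rfl) fun f hf =>
          Function.update_of_ne (by rintro rfl; exact not_mem_up G U f hf) _ _
    _ = _ := by
        rw [lintegral_prod_symm' _ m2, lintegral_prod_symm' _ mΨ.lintegral_prod_right']
        refine lintegral_congr fun W => ?_
        have hc : ∀ c, ∫⁻ F in {F | F e = c}, ∫⁻ w, Ψ ((F, W), ph (F e) (kE G U F e) w) ∂lam ∂ν =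
            ∫⁻ F, ENNReal.ofReal (kc c (kE G U F e)) *
              ∫⁻ w, Ψ ((F, W), ph c (kE G U F e) w) ∂lam ∂ν := by
          intro c
          rw [setLIntegral_congr_fun (meas_eval e c)
            (g := fun F => ∫⁻ w, Ψ ((F, W), ph c (kE G U F e) w) ∂lam)
            fun F hF => by simp only [show F e = c from hF]]
          refine cond_lintegral h (not_mem_up G U e) hk c (m3 c W) fun X => ?_
          rw [kE_mask]
          exact lintegral_congr fun w => hΨ _ _ _ _ _ (fun f hf => by simp [mask, hf])
            fun _ _ => rfl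
        rw [← lintegral_add_compl _ (meas_eval e true)]
        have : {F : Sym2 V → Bool | F e = true}ᶜ = {F | F e = false} := by ext F; simp
        rw [this, hc, hc, ← lintegral_add_left ((m4 _).fun_mul (m3 _ _))]
        exact lintegral_congr fun F => lam_split (kM_nonneg _ _) (kM_le_one _ _)
          fun v => Ψ ((F, W), v)

theorem vv_iid [IsProbabilityMeasure ν] (h : Det G ν) (hk : ∀ e, Hyp G ν U e)
    (hinj : Function.Injective (tm G U)) :
    (ν.prod (piL _)).map (fun ρ => vv G U ρ.1 ρ.2) = piL _ := by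
  have mv : Measurable fun ρ : (Sym2 V → Bool) × (Sym2 V → ℝ) => vv G U ρ.1 ρ.2 :=
    meas_vv measurable_const measurable_const measurable_fst measurable_snd
  refine Measure.eq_infinitePi _ fun s t ht => ?_
  rw [Measure.map_apply mv (.pi s.countable_toSet fun _ _ => ht _)]
  induction s using Finset.induction_on_min_value (tm G U) with
  | empty => simp
  | insert e s he hmin ih =>
    have ms : MeasurableSet ((fun ρ : (Sym2 V → Bool) × (Sym2 V → ℝ) => vv G U ρ.1 ρ.2) ⁻¹'
      (s : Set _).pi t) := mv (.pi s.countable_toSet fun _ _ => ht _)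
    have := unif h (hk e) (Ψ := Set.indicator ((((fun ρ : (Sym2 V → Bool) × (Sym2 V → ℝ) =>
      vv G U ρ.1 ρ.2) ⁻¹' (s : Set _).pi t)) ×ˢ t e) 1)
      (measurable_one.indicator (ms.prod (ht e))) ?_
    · rw [Finset.prod_insert he, ← ih, ← lintegral_indicator_one ms,
        ← lintegral_indicator_one (mv (.pi (insert e s).countable_toSet fun _ _ => ht _)),
        ← lintegral_const_mul _ (measurable_one.indicator ms)]
      refine Eq.trans (lintegral_congr fun ρ => ?_) (this.trans (lintegral_congr fun ρ => ?_))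
      · simp only [Set.indicator, Set.mem_preimage, Set.mem_prod, Finset.coe_insert,
          Set.insert_pi, Set.mem_inter_iff, and_comm]
        rfl
      · simp only [Set.indicator_prod_one]
        rw [lintegral_const_mul _ (measurable_one.indicator (ht e)), lintegral_indicator_one (ht e),
          mul_comm]
    · intro F F' W W' v hF hW
      have : ∀ f ∈ s, vv G U F W f = vv G U F' W' f := fun f hf =>
        vv_local rfl (fun _ _ => rfl) hF hW f (lt_of_le_of_ne (hmin f hf) fun h' => by
          rw [hinj h'] at he; exact he hf)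
      simp only [Set.indicator, Set.mem_preimage, Set.mem_prod, Set.mem_pi, Finset.mem_coe]
      exact if_congr (and_congr_left' (forall₂_congr fun f hf => by rw [this f hf])) rfl rfl

lemma ae_vv [IsProbabilityMeasure ν] (h : Det G ν) {e : Sym2 V} (hk : Hyp G ν U e) :
    ∀ᵐ ρ ∂(ν.prod (piL _)), decide (vv G U ρ.1 ρ.2 e < kE G U ρ.1 e) = ρ.1 e := by
  have mk : Measurable fun F => kE G U F e := meas_kE measurable_const measurable_const measurable_id e
  have ms : MeasurableSet {F | kE G U F e = 0} := mk (measurableSet_singleton 0)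
  have h1 := cond_lintegral h (not_mem_up G U e) hk true
    (g := Set.indicator {F | kE G U F e = 0} 1) (measurable_one.indicator ms)
    (fun X => by simp only [Set.indicator, Set.mem_ofPred_eq, kE_mask]; rfl)
  have h2 : ∀ᵐ F ∂ν, F e = true → kE G U F e ≠ 0 := by
    rw [lintegral_indicator_one ms, Measure.restrict_apply ms] at h1
    have h3 : ν ({F | kE G U F e = 0} ∩ {F | F e = true}) = 0 := by
      rw [h1]
      refine (lintegral_congr fun F => ?_).trans lintegral_zero
      by_cases hF : kE G U F e = 0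
      · have : kM (LL G (up G U (tm G U e)) F) e = 0 := hF
        simp [kc, this]
      · simp [Set.indicator, hF]
    rw [ae_iff]
    convert h3 using 2
    ext F; simp [and_comm]
  filter_upwards [Measure.quasiMeasurePreserving_fst.ae h2,
    Measure.quasiMeasurePreserving_snd.ae (piL_ae (ι := Sym2 V))] with ρ h3 h4
  have a0 : 0 ≤ kE G U ρ.1 e := kM_nonneg _ _
  have a1 : kE G U ρ.1 e ≤ 1 := kM_le_one _ _
  have a2 := h4 e
  unfold vv ph
  cases hF : ρ.1 e
  · simp only [Bool.false_eq_true, if_false, decide_eq_false_iff_not, not_lt]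
    nlinarith [a2.1]
  · simp only [if_true, decide_eq_true_eq]
    have := lt_of_le_of_ne a0 (h3 hF).symm
    nlinarith [a2.2]

def ne1 (a b : Bool) : ℝ≥0∞ := if a = b then 0 else 1

omit [Countable V] in
lemma meas_ne1 {Ω : Type*} [MeasurableSpace Ω] {a b : Ω → Bool} (ha : Measurable a)
    (hb : Measurable b) : Measurable fun ω => ne1 (a ω) (b ω) :=
  Measurable.ite (measurableSet_eq_fun ha hb) measurable_const measurable_const

omit [Countable V] in
lemma lam_ne1 (k k' : ℝ) :
    ∫⁻ v, ne1 (decide (v < k')) (decide (v < k)) ∂lam ≤ ENNReal.ofReal |k' - k| := by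
  have : ∀ v, ne1 (decide (v < k')) (decide (v < k)) ≤ Set.indicator (Set.uIcc k k') 1 v := by
    intro v
    unfold ne1
    split_ifs with h
    · exact zero_le
    · rw [Set.indicator_of_mem]
      · rfl
      · rw [Set.mem_uIcc]
        by_cases h1 : v < k' <;> by_cases h2 : v < k <;> simp [h1, h2] at h
        · exact Or.inl ⟨not_lt.1 h2, h1.le⟩
        · exact Or.inr ⟨not_lt.1 h1, h2.le⟩
  refine (lintegral_mono this).trans ?_
  rw [lintegral_indicator_one measurableSet_uIcc, ← Real.volume_interval]
  exact Measure.restrict_apply_le _ _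

theorem mismatch [IsProbabilityMeasure ν] (h : Det G ν) {e : Sym2 V} (hk : Hyp G ν U e) (n : ℕ) :
    ∫⁻ ρ, ne1 (XX G U (vv G U ρ.1 ρ.2) (n + 1) e) (ρ.1 e) ∂(ν.prod (piL _)) ≤
      ∫⁻ ρ, ENNReal.ofReal |kE G U (XX G U (vv G U ρ.1 ρ.2) n) e - kE G U ρ.1 e|
        ∂(ν.prod (piL _)) := by
  have mv : Measurable fun ρ : (Sym2 V → Bool) × (Sym2 V → ℝ) => vv G U ρ.1 ρ.2 :=
    meas_vv measurable_const measurable_const measurable_fst measurable_snd
  have := unif h hk (Ψ := fun z => ne1 (decide (z.2 < kE G U (XX G U (vv G U z.1.1 z.1.2) n) e))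
    (decide (z.2 < kE G U z.1.1 e))) (meas_ne1 (meas_decide (measurableSet_lt measurable_snd
      (meas_kE measurable_const measurable_const
        (meas_XX measurable_const measurable_const (mv.comp measurable_fst) n) e)))
      (meas_decide (measurableSet_lt measurable_snd
        (meas_kE measurable_const measurable_const (by fun_prop) e)))) ?_
  · refine le_trans (le_of_eq (lintegral_congr_ae ?_)) (this.le.trans
      (lintegral_mono fun ρ => lam_ne1 _ _))
    filter_upwards [ae_vv h hk] with ρ hρ
    rw [hρ]; rfl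
  · intro F F' W W' v hF hW
    have h1 : kE G U F e = kE G U F' e := kr_local rfl hF e
    have h2 : kE G U (XX G U (vv G U F W) n) e = kE G U (XX G U (vv G U F' W') n) e :=
      kr_local rfl (XX_local rfl (fun _ _ => rfl) (vv_local rfl (fun _ _ => rfl) hF hW) n) e
    simp only [h1, h2]

/-! ### integrating over the time -/

theorem time_le {ι : Type*} [DecidableEq ι] (e : ι) {a : ℝ} (ha : a ≤ 1) {D : (ι → ℝ) × ℝ → ℝ≥0∞}
    (mD : Measurable D)
    (hD : ∀ U u u' r, a * u ≤ r → a * u' ≤ r →
      D (Function.update U e u, r) = D (Function.update U e u', r)) :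
    ∫⁻ U, ENNReal.ofReal (a * U e) ^ 4 * D (U, a * U e) ∂piL ι ≤
      ∫⁻ r, ENNReal.ofReal r ^ 3 * ∫⁻ U, (if a * U e ≤ r then D (U, r) else 0) ∂piL ι ∂lam := by
  have m0 : Measurable fun z : (ι → ℝ) × ℝ => D (Function.update z.1 e 0, z.2) :=
    mD.comp ((measurable_update_left.comp measurable_fst).prodMk measurable_snd)
  rw [resample e (by fun_prop)]
  rcases le_or_gt a 0 with ha0 | ha0
  · refine le_trans (le_of_eq ((lintegral_congr fun U => ?_).trans lintegral_zero)) zero_le
    refine (lintegral_congr_ae ?_).trans lintegral_zero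
    filter_upwards [lam_ae] with u hu
    rw [Function.update_self, ENNReal.ofReal_of_nonpos (by nlinarith [hu.1])]
    simp
  have hne : ENNReal.ofReal a ≠ 0 := by simpa using ha0
  rw [← ENNReal.mul_le_mul_iff_right hne ENNReal.ofReal_ne_top,
    ← lintegral_const_mul' _ _ ENNReal.ofReal_ne_top,
    ← lintegral_const_mul' _ _ ENNReal.ofReal_ne_top]
  calc _ = ∫⁻ U, ∫⁻ r in Set.Ioc 0 a, ENNReal.ofReal r ^ 4 * D (Function.update U e 0, r) ∂volume
        ∂piL ι := by
        refine lintegral_congr fun U => ?_
        have := lam_affine ha0.le 0 fun r => ENNReal.ofReal r ^ 4 * D (Function.update U e 0, r)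
        simp only [add_zero] at this
        rw [← this]
        congr 1
        refine lintegral_congr_ae ?_
        filter_upwards [lam_ae] with u hu
        rw [Function.update_self, hD U u 0 _ le_rfl (by nlinarith [hu.1])]
    _ = ∫⁻ r in Set.Ioc 0 a, ENNReal.ofReal r ^ 4 * ∫⁻ U, D (Function.update U e 0, r) ∂piL ι := by
        rw [lintegral_lintegral_swap (Measurable.aemeasurable (by
          exact (measurable_snd.ennreal_ofReal.pow_const 4).mul m0))]
        refine lintegral_congr fun r => lintegral_const_mul _ (m0.comp measurable_prodMk_right)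
    _ ≤ ∫⁻ r in Set.Ioc 0 a, ENNReal.ofReal a * (ENNReal.ofReal r ^ 3 *
          ∫⁻ U, (if a * U e ≤ r then D (U, r) else 0) ∂piL ι) := by
        refine setLIntegral_mono' measurableSet_Ioc fun r hr => le_of_eq ?_
        rw [resample e (f := fun U => if a * U e ≤ r then D (U, r) else 0) (Measurable.ite (measurableSet_le (by fun_prop) measurable_const)
          (mD.comp measurable_prodMk_right) measurable_const), pow_succ, mul_assoc,
          mul_left_comm (ENNReal.ofReal a),
          ← lintegral_const_mul' _ _ ENNReal.ofReal_ne_top,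
          ← lintegral_const_mul' _ _ ENNReal.ofReal_ne_top]
        congr 1
        refine lintegral_congr fun U => ?_
        have := lam_affine ha0.le 0 fun s => Set.indicator (Set.Iic r)
          (fun _ => D (Function.update U e 0, r)) s
        rw [lintegral_indicator measurableSet_Iic, setLIntegral_const,
          Measure.restrict_apply measurableSet_Iic, add_zero, Set.inter_comm, Set.Ioc_inter_Iic,
          min_eq_right hr.2, Real.volume_Ioc, sub_zero, mul_comm (D _)] at this
        rw [← this]
        congr 1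
        refine lintegral_congr fun u => ?_
        simp only [Function.update_self, add_zero, Set.indicator, Set.mem_Iic]
        split_ifs with h'
        · exact hD U 0 u r (by simpa using hr.1.le) h'
        · rfl
    _ ≤ _ := lintegral_mono_set (Set.Ioc_subset_Ioc_right ha)

end

end Vale.Agent.P143
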