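import Vale.Agent.P143.Fix

open MeasureTheory ProbabilityTheory Filter Topology SimpleGraph ContinuousLinearMap
open scoped InnerProductSpace ENNReal Classical

namespace Vale.Agent.P143

noncomputable section

abbrev Lab (V : Type*) := (Sym2 V → ℝ) × ((Sym2 V → Bool) × (Sym2 V → ℝ))
abbrev Om (V : Type*) := SimpleGraph V × Lab V

variable {V : Type*} [Countable V]

def PP (G : SimpleGraph V) : Measure (Lab V) := (piL _).prod ((nu G).prod (piL _))

instance (G : SimpleGraph V) : IsProbabilityMeasure (PP G) := by unfold PP; infer_instance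

def nuK : Kernel (SimpleGraph V) (Sym2 V → Bool) := ⟨nu, measurable_nu⟩

instance : IsMarkovKernel (nuK (V := V)) := ⟨fun G => inferInstanceAs (IsProbabilityMeasure (nu G))⟩

def kap : Kernel (SimpleGraph V) (Lab V) :=
  Kernel.const _ (piL _) ×ₖ (nuK ×ₖ Kernel.const _ (piL _))

instance : IsMarkovKernel (kap (V := V)) := by unfold kap; infer_instance

lemma kap_apply (G : SimpleGraph V) : kap G = PP G := by
  rw [kap, Kernel.prod_apply, Kernel.prod_apply]; rfl

def actL (σ : Equiv.Perm V) (l : Lab V) : Lab V := (rel σ l.1, rel σ l.2.1, rel σ l.2.2)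

def act (σ : Equiv.Perm V) (ω : Om V) : Om V := (ω.1.comap σ, actL σ ω.2)

omit [Countable V] in
lemma piL_rel (σ : Equiv.Perm V) : (piL (Sym2 V)).map (rel σ) = piL _ :=
  piL_reindex (Sym2.map.injective σ.injective)

lemma PP_comap (σ : Equiv.Perm V) (G : SimpleGraph V) : PP (G.comap σ) = (PP G).map (actL σ) := by
  have : actL σ = Prod.map (rel σ) (Prod.map (rel σ) (rel σ)) := rfl
  rw [this, PP, PP, ← Measure.map_prod_map _ _ (measurable_rel σ)
    ((measurable_rel σ).prodMap (measurable_rel σ)),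
    ← Measure.map_prod_map _ _ (measurable_rel σ) (measurable_rel σ), piL_rel, nu_comap]

omit [Countable V] in
lemma measurable_actL (σ : Equiv.Perm V) : Measurable (actL σ) :=
  (measurable_rel σ).prodMap ((measurable_rel σ).prodMap (measurable_rel σ))

def Good (G : SimpleGraph V) : Prop := G.Connected ∧ ∀ v, (G.neighborSet v).Finite

section a
omit [Countable V]
variable {G : SimpleGraph V}

lemma one_le_deg (h : Good G) {x y : V} (hxy : G.Adj x y) : 1 ≤ deg G x := by
  unfold deg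
  exact_mod_cast (Set.ncard_pos (h.2 x)).2 ⟨y, hxy⟩

lemma aE_pos (h : Good G) {e : Sym2 V} (he : e ∈ G.edgeSet) : 0 < aE G e := by
  induction e with
  | h x y =>
    have h1 := one_le_deg h he
    have h2 := one_le_deg h (G.adj_symm he)
    rw [aE_mk, if_pos (show G.Adj x y from he)]
    positivity

lemma aE_ne (h : Good G) (e : Sym2 V) : aE G e ≠ 0 := by
  by_cases he : e ∈ G.edgeSet
  · exact (aE_pos h he).ne'
  · induction e with
    | h x y => rw [aE_mk, if_neg (show ¬ G.Adj x y from he)]; norm_num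

lemma aE_le (h : Good G) (e : Sym2 V) : aE G e ≤ 1 := by
  induction e with
  | h x y =>
    rw [aE_mk]
    split_ifs with he
    · have h1 := one_le_deg h he
      have h2 := one_le_deg h he.symm
      exact div_le_one_of_le₀ (by linarith) (by linarith)
    · norm_num

lemma sum_aE (h : Good G) (x : V) : ∑' y, ENNReal.ofReal (aE G s(x, y)) ≤ 1 := by
  rw [tsum_eq_sum (s := (h.2 x).toFinset) fun y hy => by
    rw [aE_mk, if_neg (by simpa using hy)]; simp]
  refine (Finset.sum_le_card_nsmul _ _ (ENNReal.ofReal (1 / deg G x)) fun y hy => ?_).trans ?_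
  · have he : G.Adj x y := by simpa using hy
    have h1 := one_le_deg h he
    have h2 := one_le_deg h he.symm
    rw [aE_mk, if_pos he]
    apply ENNReal.ofReal_le_ofReal
    gcongr; linarith
  · rw [← Set.ncard_eq_toFinset_card _ (h.2 x), nsmul_eq_mul, ← ENNReal.ofReal_natCast,
      ← ENNReal.ofReal_mul (by positivity), ← ENNReal.ofReal_one]
    apply ENNReal.ofReal_le_ofReal
    rw [deg, mul_one_div]
    exact div_self_le_one _

lemma tm_le {U : Sym2 V → ℝ} (hU : ∀ e, U e ∈ Set.Ioo (0 : ℝ) 1) (e : Sym2 V) :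
    ENNReal.ofReal (tm G U e) ≤ ENNReal.ofReal (aE G e) := by
  unfold tm
  rcases le_total (aE G e) 0 with h | h
  · rw [ENNReal.ofReal_of_nonpos (by nlinarith [(hU e).1])]; exact zero_le
  · exact ENNReal.ofReal_le_ofReal (by nlinarith [(hU e).2])

end a

variable [MeasurableSpace V] [DiscreteMeasurableSpace V]

def QQ (μ : Measure (SimpleGraph V × V)) : Measure (Om V × (V × V)) :=
  Measure.sum fun y => (μ ⊗ₘ kap.comap Prod.fst measurable_fst).map
    fun z => ((z.1.1, z.2), (z.1.2, y))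

variable {μ : Measure (SimpleGraph V × V)} [IsProbabilityMeasure μ]

instance : SFinite (QQ μ) := by unfold QQ; infer_instance

omit [DiscreteMeasurableSpace V] in
lemma meas_avg {f : Om V × (V × V) → ℝ≥0∞} (hf : Measurable f) :
    Measurable fun z : SimpleGraph V × V × V => ∫⁻ l, f ((z.1, l), z.2) ∂PP z.1 := by
  simp only [← kap_apply]
  exact Measurable.lintegral_kernel_prod_right' (κ := kap.comap Prod.fst measurable_fst)
    (f := fun w : (SimpleGraph V × V × V) × Lab V => f ((w.1.1, w.2), w.1.2)) (by fun_prop)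

omit [DiscreteMeasurableSpace V] in
lemma meas_avg1 {f : Om V × (V × V) → ℝ≥0∞} (hf : Measurable f) (y : V) :
    Measurable fun p : SimpleGraph V × V => ∫⁻ l, f ((p.1, l), (p.2, y)) ∂PP p.1 :=
  (meas_avg hf).comp (f := fun p : SimpleGraph V × V => (p.1, p.2, y)) (by fun_prop)

omit [DiscreteMeasurableSpace V] in
lemma meas_avg2 {f : Om V × (V × V) → ℝ≥0∞} (hf : Measurable f) (y : V) :
    Measurable fun p : SimpleGraph V × V => ∫⁻ l, f ((p.1, l), (y, p.2)) ∂PP p.1 :=
  (meas_avg hf).comp (f := fun p : SimpleGraph V × V => (p.1, y, p.2)) (by fun_prop)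

omit [DiscreteMeasurableSpace V] in
lemma lintegral_QQ {f : Om V × (V × V) → ℝ≥0∞} (hf : Measurable f) :
    ∫⁻ q, f q ∂QQ μ = ∫⁻ p, ∑' y, ∫⁻ l, f ((p.1, l), (p.2, y)) ∂PP p.1 ∂μ := by
  rw [QQ, lintegral_sum_measure, lintegral_tsum fun y => (meas_avg1 hf y).aemeasurable]
  congr 1
  funext y
  rw [lintegral_map hf (by fun_prop), Measure.lintegral_compProd (by fun_prop)]
  simp only [Kernel.comap_apply, kap_apply]

lemma meas_dart {β : Type*} [MeasurableSpace β] {α : Type*} [MeasurableSpace α]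
    {f : α → Sym2 V → β} (hf : ∀ e, Measurable fun ω => f ω e) :
    Measurable fun q : α × (V × V) => f q.1 s(q.2.1, q.2.2) :=
  measurable_from_prod_countable_left fun p => hf s(p.1, p.2)

omit [DiscreteMeasurableSpace V] [IsProbabilityMeasure μ] in
lemma mtp (hμ : Unimodular μ) {f : Om V × (V × V) → ℝ≥0∞} (hf : Measurable f)
    (hinv : ∀ σ ω x y, f (act σ ω, (x, y)) = f (ω, (σ x, σ y))) :
    ∫⁻ p, ∑' y, ∫⁻ l, f ((p.1, l), (p.2, y)) ∂PP p.1 ∂μ =
      ∫⁻ p, ∑' y, ∫⁻ l, f ((p.1, l), (y, p.2)) ∂PP p.1 ∂μ := by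
  refine hμ _ (meas_avg hf) fun σ G x y => ?_
  dsimp only
  rw [PP_comap, lintegral_map (by fun_prop) (measurable_actL σ)]
  exact lintegral_congr fun l => hinv σ (G, l) x y

omit [Countable V] [MeasurableSpace V] [DiscreteMeasurableSpace V] in
lemma tsum_swap {α ι κ : Type*} [Countable ι] [Countable κ] [MeasurableSpace α] (m : Measure α)
    {g : ι → κ → α → ℝ≥0∞} (hg : ∀ i j, Measurable (g i j)) :
    ∑' i, ∫⁻ l, ∑' j, g i j l ∂m = ∑' j, ∫⁻ l, ∑' i, g i j l ∂m := by
  simp only [lintegral_tsum fun j => (hg _ j).aemeasurable,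
    lintegral_tsum fun i => (hg i _).aemeasurable]
  exact ENNReal.tsum_comm

omit [Countable V] [MeasurableSpace V] [DiscreteMeasurableSpace V] in
lemma norm_expand (v : HS V) : ENNReal.ofReal (‖v‖ ^ 2) =
    ∑' z, ∑' w, ENNReal.ofReal (⟪v, bs V (z, w)⟫_ℝ ^ 2) := by
  rw [ofReal_norm_sq_eq (bs V), ENNReal.tsum_prod']

omit [Countable V] [MeasurableSpace V] [DiscreteMeasurableSpace V] in
lemma norm_expand' (T : HS V →L[ℝ] HS V) (v : HS V) : ENNReal.ofReal (‖adjoint T v‖ ^ 2) =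
    ∑' z, ∑' w, ENNReal.ofReal (⟪T (bs V (z, w)), v⟫_ℝ ^ 2) := by
  rw [norm_expand]
  refine tsum_congr fun z => tsum_congr fun w => ?_
  rw [adjoint_inner_left, real_inner_comm]

theorem uni_QQ (hμ : Unimodular μ) : Uni (bs V) (QQ μ) act fun σ => UU (id σ) := by
  intro T hT eT
  obtain ⟨t, ht⟩ : ∃ t : Om V → V × V → V × V → ℝ≥0∞, ∀ ω a c, t ω a c =
    ENNReal.ofReal (⟪T ω (bs V a), bs V c⟫_ℝ ^ 2) := ⟨_, fun _ _ _ => rfl⟩
  have m1 : ∀ a c : V × V, Measurable fun ω => t ω a c := fun a c => by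
    simp only [ht]; exact ((hT _ _).pow_const 2).ennreal_ofReal
  have := mtp hμ (f := fun q => ∑' y, ∑' w, t q.1 (q.2.1, y) (q.2.2, w))
    (measurable_from_prod_countable_left fun p =>
      .tsum fun y => .tsum fun w => m1 (p.1, y) (p.2, w)) ?_
  · unfold NN
    rw [lintegral_QQ hT.nn, lintegral_QQ hT.adj.nn]
    simp only [norm_expand', ← ht]
    simp only [norm_expand, ← ht]
    refine Eq.trans (lintegral_congr fun p => ?_) (this.trans (lintegral_congr fun p => ?_))
    · exact tsum_swap _ (g := fun y z l => ∑' w, t (p.1, l) (p.2, y) (z, w))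
        fun i j => .tsum fun w => (m1 _ _).comp measurable_prodMk_left
    · rw [tsum_swap _ (g := fun w z l => ∑' y, t (p.1, l) (z, y) (p.2, w))
        fun i j => .tsum fun w => (m1 _ _).comp measurable_prodMk_left]
      exact tsum_congr fun z => lintegral_congr fun l => ENNReal.tsum_comm
  · intro σ ω x z
    dsimp only
    rw [← σ.tsum_eq (fun y => ∑' w, t ω (σ x, y) (σ z, w))]
    refine tsum_congr fun y => ?_
    rw [← σ.tsum_eq (fun w => t ω (σ x, σ y) (σ z, w))]
    refine tsum_congr fun w => ?_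
    have := eT σ ω (bs V (σ x, σ y))
    simp only [id, UU_bs] at this
    rw [ht, ht, this, ← UU_bs σ z w, (UU σ).inner_map_map]

theorem root_all (hμ : Unimodular μ) {f : Om V × (V × V) → ℝ≥0∞} (hf : Measurable f)
    (hinv : ∀ σ ω x y, f (act σ ω, (x, y)) = f (ω, (σ x, σ y))) (h0 : ∫⁻ q, f q ∂QQ μ = 0) :
    ∀ᵐ p ∂μ, ∀ x y, ∀ᵐ l ∂PP p.1, f ((p.1, l), (x, y)) = 0 := by
  have m1 : Measurable fun q : Om V × (V × V) => ∑' y, f (q.1, (q.2.1, y)) :=
    .tsum fun y => by fun_prop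
  have h1 := mtp hμ m1 fun σ ω x z => by
    simp only [hinv]
    exact σ.tsum_eq fun y => f (ω, (σ x, y))
  rw [lintegral_QQ hf, lintegral_eq_zero_iff (.tsum fun y => meas_avg1 hf y)] at h0
  have h2 : ∫⁻ p, ∑' z : V, ∫⁻ l, ∑' y, f ((p.1, l), (p.2, y)) ∂PP p.1 ∂μ = 0 := by
    refine (lintegral_congr_ae ?_).trans lintegral_zero
    filter_upwards [h0] with p hp
    rw [lintegral_tsum fun y => Measurable.aemeasurable (by fun_prop), hp]
    simp
  rw [h2, eq_comm, lintegral_eq_zero_iff (.tsum fun y => meas_avg2 m1 y)] at h1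
  filter_upwards [h1] with p hp x y
  have h3 := ENNReal.tsum_eq_zero.1 hp x
  rw [lintegral_eq_zero_iff (.tsum fun y => by fun_prop)] at h3
  filter_upwards [h3] with l hl
  exact ENNReal.tsum_eq_zero.1 hl y

omit [DiscreteMeasurableSpace V] in
lemma Q_le (hG : ∀ᵐ p ∂μ, Good p.1) {f : Om V × (V × V) → ℝ≥0∞} (hf : Measurable f) {c : ℝ≥0∞}
    (h : ∀ G l x y, Good G → (∀ e, l.1 e ∈ Set.Ioo (0 : ℝ) 1) →
      f ((G, l), (x, y)) ≤ c * ENNReal.ofReal (aE G s(x, y))) : ∫⁻ q, f q ∂QQ μ ≤ c := by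
  rw [lintegral_QQ hf]
  refine (lintegral_mono_ae (g := fun _ => c) ?_).trans (by simp)
  filter_upwards [hG] with p hp
  refine le_trans (ENNReal.tsum_le_tsum (g := fun y => c * ENNReal.ofReal (aE p.1 s(p.2, y)))
    fun y => ?_) ?_
  · refine (lintegral_mono_ae (g := fun _ => c * ENNReal.ofReal (aE p.1 s(p.2, y))) ?_).trans
      (by simp)
    filter_upwards [Measure.quasiMeasurePreserving_fst.ae (piL_ae (ι := Sym2 V))] with l hl
    exact h _ _ _ _ hp hl
  · rw [ENNReal.tsum_mul_left]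
    exact mul_le_of_le_one_right' (sum_aE hp _)

lemma Q_up (hG : ∀ᵐ p ∂μ, Good p.1) {r : ℝ} (hr : 0 < r) :
    QQ μ {q | s(q.2.1, q.2.2) ∈ up q.1.1 q.1.2.1 r} ≠ ∞ := by
  have ms : MeasurableSet {q : Om V × (V × V) | s(q.2.1, q.2.2) ∈ up q.1.1 q.1.2.1 r} :=
    measSet_prod (B := fun ω : Om V => dart (up ω.1 ω.2.1 r)) fun p =>
      meas_up measurable_fst (by fun_prop) measurable_const _
  rw [← lintegral_indicator_one ms]
  refine ne_top_of_le_ne_top (b := (ENNReal.ofReal r)⁻¹) (by simpa using hr)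
    (Q_le hG (measurable_one.indicator ms) fun G l x y _ hl => ?_)
  by_cases h : s(x, y) ∈ up G l.1 r
  · rw [Set.indicator_of_mem (by exact h), Pi.one_apply,
      ← ENNReal.inv_mul_cancel (a := ENNReal.ofReal r) (by simpa using hr) ENNReal.ofReal_ne_top]
    exact mul_le_mul_right ((ENNReal.ofReal_le_ofReal (le_of_lt h)).trans (tm_le hl _)) _
  · rw [Set.indicator_of_notMem (by exact h)]; exact zero_le

theorem time_Q (hG : ∀ᵐ p ∂μ, Good p.1) {d : Om V × ℝ → Sym2 V → ℝ≥0∞}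
    (md : ∀ e, Measurable fun z => d z e)
    (hd : ∀ G U ρ e u u' r, aE G e * u ≤ r → aE G e * u' ≤ r →
      d ((G, Function.update U e u, ρ), r) e = d ((G, Function.update U e u', ρ), r) e) :
    ∫⁻ q, ENNReal.ofReal (tm q.1.1 q.1.2.1 s(q.2.1, q.2.2)) ^ 4 *
      d (q.1, tm q.1.1 q.1.2.1 s(q.2.1, q.2.2)) s(q.2.1, q.2.2) ∂QQ μ ≤
    ∫⁻ r, ENNReal.ofReal r ^ 3 * ∫⁻ q, d (q.1, r) s(q.2.1, q.2.2) ∂QQ μ ∂lam := by
  have mt : ∀ e, Measurable fun ω : Om V => tm ω.1 ω.2.1 e := fun e =>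
    meas_tm measurable_fst (by fun_prop) e
  have m1 : ∀ e, Measurable fun ω : Om V => ENNReal.ofReal (tm ω.1 ω.2.1 e) ^ 4 *
      d (ω, tm ω.1 ω.2.1 e) e := fun e =>
    ((mt e).ennreal_ofReal.pow_const 4).mul ((md e).comp (measurable_id.prodMk (mt e)))
  have m2 : Measurable fun z : ℝ × (Om V × (V × V)) =>
      ENNReal.ofReal z.1 ^ 3 * d (z.2.1, z.1) s(z.2.2.1, z.2.2.2) :=
    (measurable_fst.ennreal_ofReal.pow_const 3).mul ((meas_dart md).comp
      (f := fun z : ℝ × (Om V × (V × V)) => ((z.2.1, z.1), z.2.2)) (by fun_prop))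
  simp only [← lintegral_const_mul' _ _ (ENNReal.pow_ne_top ENNReal.ofReal_ne_top)]
  rw [lintegral_lintegral_swap m2.aemeasurable, lintegral_QQ (meas_dart m1),
    lintegral_QQ m2.lintegral_prod_left']
  refine lintegral_mono_ae ?_
  filter_upwards [hG] with p hp
  refine ENNReal.tsum_le_tsum fun y => ?_
  obtain ⟨e, he⟩ : ∃ e, e = s(p.2, y) := ⟨_, rfl⟩
  rw [← he]
  have m3 : Measurable fun z : ((Sym2 V → ℝ) × ℝ) × ((Sym2 V → Bool) × (Sym2 V → ℝ)) =>
      d ((p.1, z.1.1, z.2), z.1.2) e := (md e).comp (by fun_prop)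
  have m4 : Measurable fun l : Lab V => ENNReal.ofReal (tm p.1 l.1 e) ^ 4 *
      d ((p.1, l), tm p.1 l.1 e) e := (m1 e).comp (f := fun l : Lab V => (p.1, l)) (by fun_prop)
  have := time_le e (aE_le hp e)
    (D := fun z => ∫⁻ ρ, d ((p.1, z.1, ρ), z.2) e ∂((nu p.1).prod (piL _)))
    m3.lintegral_prod_right' fun U u u' r h1 h2 => lintegral_congr fun ρ => hd _ _ _ _ _ _ _ h1 h2
  rw [← lintegral_lintegral_swap (Measurable.aemeasurable (by
    exact (measurable_fst.ennreal_ofReal.pow_const 3).mul ((md e).comp (by fun_prop)))),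
    PP, lintegral_prod _ m4.aemeasurable]
  refine le_trans (le_of_eq (lintegral_congr fun U => ?_)) (this.trans (lintegral_mono fun r => ?_))
  · exact lintegral_const_mul' (ENNReal.ofReal (aE p.1 e * U e) ^ 4) _
      (ENNReal.pow_ne_top ENNReal.ofReal_ne_top)
  · rw [lintegral_const_mul' _ _ (ENNReal.pow_ne_top ENNReal.ofReal_ne_top),
      lintegral_prod _ (Measurable.aemeasurable (by exact (md e).comp (by fun_prop)))]
    gcongr
    split_ifs
    · exact le_rfl
    · exact zero_le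

end

end Vale.Agent.P143
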