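import Mathlib

open MeasureTheory Filter Topology
open scoped InnerProductSpace ENNReal

namespace Vale.Agent.P143

noncomputable section

variable {E : Type*} [NormedAddCommGroup E] [InnerProductSpace ℝ E] [CompleteSpace E]

def pr (M : Submodule ℝ E) : E →L[ℝ] E := Mᗮᗮ.starProjection

def Cl (M : Submodule ℝ E) : Prop := Mᗮᗮ = M

omit [CompleteSpace E] in
lemma Cl.orth (M : Submodule ℝ E) : Cl Mᗮ := Submodule.triorthogonal_eq_orthogonal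

omit [CompleteSpace E] in
lemma Cl.inf {M N : Submodule ℝ E} (hM : Cl M) (hN : Cl N) : Cl (M ⊓ N) := by
  apply le_antisymm
  · apply le_inf
    · conv_rhs => rw [← hM]
      exact Submodule.orthogonal_le (Submodule.orthogonal_le inf_le_left)
    · conv_rhs => rw [← hN]
      exact Submodule.orthogonal_le (Submodule.orthogonal_le inf_le_right)
  · exact Submodule.le_orthogonal_orthogonal _

lemma pr_mem' (M : Submodule ℝ E) (v : E) : pr M v ∈ Mᗮᗮ := Submodule.starProjection_apply_mem _ _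

lemma pr_mem {M : Submodule ℝ E} (h : Cl M) (v : E) : pr M v ∈ M := by
  have := pr_mem' M v
  rwa [h] at this

lemma sub_pr_mem (M : Submodule ℝ E) (v : E) : v - pr M v ∈ Mᗮ := by
  have := Submodule.sub_starProjection_mem_orthogonal (K := Mᗮᗮ) v
  rwa [Submodule.triorthogonal_eq_orthogonal] at this

lemma pr_eq {M : Submodule ℝ E} {v w : E} (hw : w ∈ M) (h : v - w ∈ Mᗮ) : pr M v = w := by
  apply Submodule.eq_starProjection_of_mem_orthogonal (Submodule.le_orthogonal_orthogonal _ hw)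
  rwa [Submodule.triorthogonal_eq_orthogonal]

lemma pr_self {M : Submodule ℝ E} {v : E} (hv : v ∈ M) : pr M v = v := pr_eq hv (by simp)

lemma pr_zero {M : Submodule ℝ E} {v : E} (hv : v ∈ Mᗮ) : pr M v = 0 :=
  pr_eq (Submodule.zero_mem _) (by simpa using hv)

lemma pr_inner (M : Submodule ℝ E) (u v : E) : ⟪pr M u, v⟫_ℝ = ⟪u, pr M v⟫_ℝ :=
  Submodule.inner_starProjection_left_eq_right _ _ _

lemma pr_pr (M : Submodule ℝ E) (v : E) : pr M (pr M v) = pr M v := by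
  unfold pr
  exact Submodule.starProjection_eq_self_iff.2 (Submodule.starProjection_apply_mem _ _)

lemma pr_inner_mem {M : Submodule ℝ E} (u : E) {w : E} (hw : w ∈ M) :
    ⟪pr M u, w⟫_ℝ = ⟪u, w⟫_ℝ := by rw [pr_inner, pr_self hw]

lemma pr_inner_self (M : Submodule ℝ E) (v : E) : ⟪pr M v, v⟫_ℝ = ‖pr M v‖ ^ 2 := by
  rw [← real_inner_self_eq_norm_sq, pr_inner M v (pr M v), pr_pr, pr_inner]

lemma norm_pr_le (M : Submodule ℝ E) (v : E) : ‖pr M v‖ ≤ ‖v‖ :=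
  Submodule.norm_starProjection_apply_le _ _

lemma opNorm_pr_le (M : Submodule ℝ E) : ‖pr M‖ ≤ 1 := Submodule.starProjection_norm_le _

lemma adjoint_pr (M : Submodule ℝ E) : ContinuousLinearMap.adjoint (pr M) = pr M := by
  symm
  rw [ContinuousLinearMap.eq_adjoint_iff]
  exact pr_inner M

lemma pr_orth (M : Submodule ℝ E) (v : E) : pr Mᗮ v = v - pr M v :=
  pr_eq (sub_pr_mem M v) (by simpa using pr_mem' M v)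

lemma mem_of_norm_pr {M : Submodule ℝ E} (hM : Cl M) {v : E} (h : ‖v‖ ≤ ‖pr M v‖) : v ∈ M := by
  have h1 : ‖v - pr M v‖ ^ 2 = ‖v‖ ^ 2 - ‖pr M v‖ ^ 2 := by
    rw [norm_sub_sq_real, real_inner_comm, pr_inner_self]; ring
  have h2 : ‖v‖ ^ 2 ≤ ‖pr M v‖ ^ 2 := by gcongr
  have h3 : ‖v - pr M v‖ = 0 := by nlinarith [sq_nonneg ‖v - pr M v‖]
  have : v = pr M v := sub_eq_zero.1 (norm_eq_zero.1 h3)
  rw [this]; exact pr_mem hM v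

omit [CompleteSpace E] in
lemma inner_zero_of_mem {M : Submodule ℝ E} {u v : E} (hu : u ∈ M) (hv : v ∈ Mᗮ) :
    ⟪u, v⟫_ℝ = 0 := Submodule.inner_right_of_mem_orthogonal hu hv

omit [CompleteSpace E] in
lemma inner_zero_of_mem' {M : Submodule ℝ E} {u v : E} (hu : u ∈ Mᗮ) (hv : v ∈ M) :
    ⟪u, v⟫_ℝ = 0 := Submodule.inner_left_of_mem_orthogonal hv hu

omit [CompleteSpace E] in
lemma mem_orth {M : Submodule ℝ E} {v : E} (h : ∀ u ∈ M, ⟪u, v⟫_ℝ = 0) : v ∈ Mᗮ := h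

omit [CompleteSpace E] in
lemma eq_zero_of_mem {M : Submodule ℝ E} {v : E} (h1 : v ∈ M) (h2 : v ∈ Mᗮ) : v = 0 :=
  inner_self_eq_zero.1 (inner_zero_of_mem h1 h2)

/-- projection on an orthogonal sum -/
lemma pr_add {A B M : Submodule ℝ E} (hA : Cl A) (hB : Cl B) (hAB : A ≤ Bᗮ) (hAM : A ≤ M)
    (hBM : B ≤ M) (hM : ∀ m ∈ M, ∃ a ∈ A, ∃ b ∈ B, m = a + b) (v : E) :
    pr M v = pr A v + pr B v := by
  apply pr_eq (M.add_mem (hAM (pr_mem hA v)) (hBM (pr_mem hB v)))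
  apply mem_orth
  intro m hm
  obtain ⟨a, ha, b, hb, rfl⟩ := hM m hm
  have h1 : ⟪a, pr B v⟫_ℝ = 0 := inner_zero_of_mem' (hAB ha) (pr_mem hB v)
  have h2 : ⟪b, pr A v⟫_ℝ = 0 := inner_zero_of_mem hb (hAB (pr_mem hA v))
  have h3 : ⟪a, pr A v⟫_ℝ = ⟪a, v⟫_ℝ := by rw [← pr_inner, pr_self ha]
  have h4 : ⟪b, pr B v⟫_ℝ = ⟪b, v⟫_ℝ := by rw [← pr_inner, pr_self hb]
  simp only [inner_sub_right, inner_add_right, inner_add_left, h1, h2, h3, h4]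
  ring

lemma norm_pr_add {A B M : Submodule ℝ E} (hA : Cl A) (hB : Cl B) (hAB : A ≤ Bᗮ) (hAM : A ≤ M)
    (hBM : B ≤ M) (hM : ∀ m ∈ M, ∃ a ∈ A, ∃ b ∈ B, m = a + b) (v : E) :
    ‖pr M v‖ ^ 2 = ‖pr A v‖ ^ 2 + ‖pr B v‖ ^ 2 := by
  rw [pr_add hA hB hAB hAM hBM hM, norm_add_sq_real,
    inner_zero_of_mem' (hAB (pr_mem hA v)) (pr_mem hB v)]
  ring

lemma norm_pr_split {A M : Submodule ℝ E} (hA : Cl A) (hM : Cl M) (hAM : A ≤ M) (v : E) :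
    ‖pr M v‖ ^ 2 = ‖pr A v‖ ^ 2 + ‖pr (M ⊓ Aᗮ) v‖ ^ 2 := by
  apply norm_pr_add hA (hM.inf (Cl.orth A)) _ hAM inf_le_left
  · intro m hm
    exact ⟨pr A m, pr_mem hA m, m - pr A m, ⟨M.sub_mem hm (hAM (pr_mem hA m)), sub_pr_mem A m⟩,
      by simp⟩
  · intro a ha
    exact mem_orth fun u hu => inner_zero_of_mem' hu.2 ha

lemma norm_pr_mono {A M : Submodule ℝ E} (hA : Cl A) (hM : Cl M) (hAM : A ≤ M) (v : E) :
    ‖pr A v‖ ^ 2 ≤ ‖pr M v‖ ^ 2 := by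
  rw [norm_pr_split hA hM hAM]; nlinarith [sq_nonneg ‖pr (M ⊓ Aᗮ) v‖]

/-- orthogonal direct sum of two orthogonal closed subspaces -/
lemma osum_decomp {A B : Submodule ℝ E} (hA : Cl A) (hB : Cl B) (hAB : A ≤ Bᗮ) {u : E}
    (hu : u ∈ (Aᗮ ⊓ Bᗮ)ᗮ) : u = pr A u + pr B u := by
  have hBA : B ≤ Aᗮ := fun b hb => mem_orth fun a ha => inner_zero_of_mem' (hAB ha) hb
  have h1 : u - (pr A u + pr B u) ∈ Aᗮ ⊓ Bᗮ := by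
    constructor
    · have : u - (pr A u + pr B u) = (u - pr A u) - pr B u := by abel
      rw [this]; exact Submodule.sub_mem _ (sub_pr_mem A u) (hBA (pr_mem hB u))
    · have : u - (pr A u + pr B u) = (u - pr B u) - pr A u := by abel
      rw [this]; exact Submodule.sub_mem _ (sub_pr_mem B u) (hAB (pr_mem hA u))
  have h2 : u - (pr A u + pr B u) ∈ (Aᗮ ⊓ Bᗮ)ᗮ := by
    apply Submodule.sub_mem _ hu
    apply Submodule.add_mem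
    · exact mem_orth fun w hw => inner_zero_of_mem' hw.1 (pr_mem hA u)
    · exact mem_orth fun w hw => inner_zero_of_mem' hw.2 (pr_mem hB u)
  exact sub_eq_zero.1 (eq_zero_of_mem h1 h2)

omit [CompleteSpace E] in
lemma le_osum_left (A B : Submodule ℝ E) : A ≤ (Aᗮ ⊓ Bᗮ)ᗮ :=
  fun _ ha => mem_orth fun _ hw => inner_zero_of_mem' hw.1 ha

omit [CompleteSpace E] in
lemma le_osum_right (A B : Submodule ℝ E) : B ≤ (Aᗮ ⊓ Bᗮ)ᗮ :=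
  fun _ ha => mem_orth fun _ hw => inner_zero_of_mem' hw.2 ha

lemma pr_osum {A B : Submodule ℝ E} (hA : Cl A) (hB : Cl B) (hAB : A ≤ Bᗮ) (v : E) :
    pr (Aᗮ ⊓ Bᗮ)ᗮ v = pr A v + pr B v :=
  pr_add hA hB hAB (le_osum_left A B) (le_osum_right A B)
    (fun m hm => ⟨_, pr_mem hA m, _, pr_mem hB m, osum_decomp hA hB hAB hm⟩) v

lemma norm_pr_osum {A B : Submodule ℝ E} (hA : Cl A) (hB : Cl B) (hAB : A ≤ Bᗮ) (v : E) :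
    ‖pr (Aᗮ ⊓ Bᗮ)ᗮ v‖ ^ 2 = ‖pr A v‖ ^ 2 + ‖pr B v‖ ^ 2 :=
  norm_pr_add hA hB hAB (le_osum_left A B) (le_osum_right A B)
    (fun m hm => ⟨_, pr_mem hA m, _, pr_mem hB m, osum_decomp hA hB hAB hm⟩) v

/-- closure of the projection of `N` to `M` -/
def RR (M N : Submodule ℝ E) : Submodule ℝ E := M ⊓ (M ⊓ Nᗮ)ᗮ

omit [CompleteSpace E] in
lemma Cl.RR {M : Submodule ℝ E} (hM : Cl M) (N : Submodule ℝ E) : Cl (RR M N) :=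
  hM.inf (Cl.orth _)

lemma pr_mem_RR {M N : Submodule ℝ E} (hM : Cl M) {c : E} (hc : c ∈ N) : pr M c ∈ RR M N :=
  ⟨pr_mem hM c, mem_orth fun z hz => by
    rw [← pr_inner, pr_self hz.1]; exact inner_zero_of_mem' hz.2 hc⟩

lemma orth_of_orth_RR {M N : Submodule ℝ E} (hM : Cl M) {w : E} (hw : w ∈ M)
    (h : w ∈ (RR M N)ᗮ) : w ∈ Nᗮ :=
  mem_orth fun c hc => by
    rw [← pr_inner_mem c hw]; exact inner_zero_of_mem (pr_mem_RR hM hc) h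

lemma norm_pr_RR (M N : Submodule ℝ E) (hM : Cl M) (v : E) :
    ‖pr M v‖ ^ 2 = ‖pr (M ⊓ Nᗮ) v‖ ^ 2 + ‖pr (RR M N) v‖ ^ 2 :=
  norm_pr_split (hM.inf (Cl.orth N)) hM inf_le_left v

lemma RR_mono {M N N' : Submodule ℝ E} (h : N ≤ N') : RR M N ≤ RR M N' :=
  inf_le_inf_left _ (Submodule.orthogonal_le (inf_le_inf_left _ (Submodule.orthogonal_le h)))

lemma norm_pr_RR_le {M N : Submodule ℝ E} (hM : Cl M) (v : E) {t : ℝ} (ht : 0 ≤ t)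
    (h : ∀ c ∈ N, ⟪v, pr M c⟫_ℝ ^ 2 ≤ t * ‖pr M c‖ ^ 2) : ‖pr (RR M N) v‖ ^ 2 ≤ t := by
  have hle : RR M N ≤ (N.map (pr M : E →ₗ[ℝ] E)).topologicalClosure := by
    rw [← Submodule.orthogonal_orthogonal_eq_closure]
    intro w hw
    apply mem_orth
    intro u hu
    rw [← pr_inner_mem u hw.1]
    refine inner_zero_of_mem (M := M ⊓ Nᗮ) ⟨pr_mem hM u, mem_orth fun c hc => ?_⟩ hw.2
    rw [← pr_inner]
    exact inner_zero_of_mem (M := N.map (pr M : E →ₗ[ℝ] E)) ⟨c, hc, rfl⟩ hu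
  have hcl : IsClosed {w : E | ⟪v, w⟫_ℝ ^ 2 ≤ t * ‖w‖ ^ 2} :=
    isClosed_le (by fun_prop) (by fun_prop)
  have hsub : ((N.map (pr M : E →ₗ[ℝ] E)).topologicalClosure : Set E) ⊆
      {w : E | ⟪v, w⟫_ℝ ^ 2 ≤ t * ‖w‖ ^ 2} := by
    rw [Submodule.topologicalClosure_coe]
    apply closure_minimal _ hcl
    rintro _ ⟨c, hc, rfl⟩
    exact h c hc
  have h1 := hsub (hle (pr_mem (hM.RR N) v))
  simp only [Set.mem_setOf_eq] at h1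
  rw [real_inner_comm, pr_inner_self] at h1
  by_contra hcon
  push Not at hcon
  nlinarith

lemma inner_sq_le_RR {M N : Submodule ℝ E} (hM : Cl M) (v : E) {c : E} (hc : c ∈ N) :
    ⟪v, pr M c⟫_ℝ ^ 2 ≤ ‖pr (RR M N) v‖ ^ 2 * ‖pr M c‖ ^ 2 := by
  rw [← pr_inner_mem v (pr_mem_RR hM hc), ← mul_pow, ← sq_abs]
  gcongr
  exact abs_real_inner_le_norm _ _

/-! ### pointwise facts on the main configuration -/

section config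
variable {H CI CD : Submodule ℝ E}

lemma prO_orth (hI : Cl CI) (hD : Cl CD) (hID : CI ≤ CDᗮ) {h c : E} (hh : h ∈ H ⊓ CIᗮ)
    (hc : c ∈ Hᗮ ⊓ CDᗮ) : ⟪pr (CIᗮ ⊓ CDᗮ) h, pr (CIᗮ ⊓ CDᗮ) c⟫_ℝ = 0 := by
  have e1 : ∀ v, pr (CIᗮ ⊓ CDᗮ) v = v - (pr CI v + pr CD v) := by
    intro v
    rw [← pr_osum hI hD hID, pr_orth]; simp
  rw [pr_inner, pr_pr, e1, pr_zero hc.2, inner_sub_right, add_zero, ← pr_inner, pr_zero hh.2,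
    inner_zero_of_mem hh.1 hc.1]
  simp

lemma LL_le (hI : Cl CI) (hD : Cl CD) (hID : CI ≤ CDᗮ) :
    RR (CIᗮ ⊓ CDᗮ) (Hᗮ ⊓ CDᗮ) ≤ (CIᗮ ⊓ CDᗮ) ⊓ (H ⊓ CIᗮ)ᗮ := by
  have hO : Cl (CIᗮ ⊓ CDᗮ) := (Cl.orth _).inf (Cl.orth _)
  intro l hl
  refine ⟨hl.1, mem_orth fun h hh => ?_⟩
  rw [← pr_inner_mem h hl.1]
  refine inner_zero_of_mem (M := (CIᗮ ⊓ CDᗮ) ⊓ (Hᗮ ⊓ CDᗮ)ᗮ) ⟨pr_mem hO h, mem_orth fun c hc => ?_⟩ hl.2
  rw [← pr_pr, ← pr_inner, real_inner_comm]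
  exact prO_orth hI hD hID hh hc

lemma norm_O_decomp (hI : Cl CI) (hD : Cl CD) (hID : CI ≤ CDᗮ) (v : E) :
    ‖pr (CIᗮ ⊓ CDᗮ) v‖ ^ 2 = ‖pr (RR (CIᗮ ⊓ CDᗮ) (H ⊓ CIᗮ)) v‖ ^ 2 +
      ‖pr (RR (CIᗮ ⊓ CDᗮ) (Hᗮ ⊓ CDᗮ)) v‖ ^ 2 +
      ‖pr (((H ⊓ CIᗮ)ᗮ ⊓ (Hᗮ ⊓ CDᗮ)ᗮ) ⊓ (CIᗮ ⊓ CDᗮ)) v‖ ^ 2 := by
  have hO : Cl (CIᗮ ⊓ CDᗮ) := (Cl.orth _).inf (Cl.orth _)
  rw [norm_pr_RR _ (H ⊓ CIᗮ) hO, norm_pr_split (hO.RR (Hᗮ ⊓ CDᗮ)) (hO.inf (Cl.orth _))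
    (LL_le hI hD hID)]
  have : (CIᗮ ⊓ CDᗮ) ⊓ (H ⊓ CIᗮ)ᗮ ⊓ (RR (CIᗮ ⊓ CDᗮ) (Hᗮ ⊓ CDᗮ))ᗮ =
      ((H ⊓ CIᗮ)ᗮ ⊓ (Hᗮ ⊓ CDᗮ)ᗮ) ⊓ (CIᗮ ⊓ CDᗮ) := by
    apply le_antisymm
    · intro w hw
      exact ⟨⟨hw.1.2, orth_of_orth_RR hO hw.1.1 hw.2⟩, hw.1.1⟩
    · intro w hw
      exact ⟨⟨hw.2, hw.1.1⟩, mem_orth fun l hl =>
        inner_zero_of_mem' (M := (CIᗮ ⊓ CDᗮ) ⊓ (Hᗮ ⊓ CDᗮ)ᗮ) hl.2 ⟨hw.2, hw.1.2⟩⟩
  rw [this]; ring

lemma norm_W_decomp (hH : Cl H) (v : E) :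
    ‖pr ((H ⊓ CIᗮ)ᗮ ⊓ (Hᗮ ⊓ CDᗮ)ᗮ) v‖ ^ 2 = ‖pr (RR H CI) v‖ ^ 2 + ‖pr (RR Hᗮ CD) v‖ ^ 2 := by
  apply norm_pr_add (hH.RR _) ((Cl.orth H).RR _)
  · intro a ha
    exact mem_orth fun u hu => inner_zero_of_mem' hu.1 ha.1
  · intro a ha
    exact ⟨ha.2, mem_orth fun u hu => inner_zero_of_mem' hu.1 ha.1⟩
  · intro a ha
    exact ⟨mem_orth fun u hu => inner_zero_of_mem hu.1 ha.1, ha.2⟩
  · intro m hm
    refine ⟨pr H m, ⟨pr_mem hH m, mem_orth fun k hk => ?_⟩, pr Hᗮ m,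
      ⟨pr_mem (Cl.orth H) m, mem_orth fun k hk => ?_⟩, by rw [pr_orth]; simp⟩
    · rw [← pr_inner, pr_self hk.1]; exact inner_zero_of_mem hk hm.1
    · rw [← pr_inner, pr_self hk.1]; exact inner_zero_of_mem hk hm.2

lemma norm_AK_le (hH : Cl H) (hI : Cl CI) (hD : Cl CD) (hID : CI ≤ CDᗮ) (v : E) :
    ‖pr ((CIᗮ ⊓ CDᗮ)ᗮ ⊓ ((H ⊓ CIᗮ)ᗮ ⊓ (Hᗮ ⊓ CDᗮ)ᗮ)ᗮ) v‖ ^ 2 ≤
      ‖pr (CI ⊓ Hᗮ) v‖ ^ 2 + ‖pr (CD ⊓ Hᗮᗮ) v‖ ^ 2 := by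
  have h1 : Cl (CI ⊓ Hᗮ) := hI.inf (Cl.orth _)
  have h2 : Cl (CD ⊓ Hᗮᗮ) := hD.inf (Cl.orth _)
  have hK1 : Cl (H ⊓ CIᗮ) := hH.inf (Cl.orth _)
  have hK2 : Cl (Hᗮ ⊓ CDᗮ) := (Cl.orth _).inf (Cl.orth _)
  rw [← norm_pr_osum h1 h2 (fun a ha => mem_orth fun u hu => inner_zero_of_mem hu.1 (hID ha.1))]
  apply norm_pr_mono ((Cl.orth _).inf (Cl.orth _)) (Cl.orth _)
  intro u hu
  have hd := osum_decomp hK1 hK2
    (fun a ha => mem_orth fun w hw => inner_zero_of_mem' hw.1 ha.1) hu.2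
  obtain ⟨h, hh⟩ : ∃ h, h = pr (H ⊓ CIᗮ) u := ⟨_, rfl⟩
  obtain ⟨c, hc⟩ : ∃ c, c = pr (Hᗮ ⊓ CDᗮ) u := ⟨_, rfl⟩
  have hhm : h ∈ H ⊓ CIᗮ := hh ▸ pr_mem hK1 u
  have hcm : c ∈ Hᗮ ⊓ CDᗮ := hc ▸ pr_mem hK2 u
  rw [← hh, ← hc] at hd
  have h0 : pr (CIᗮ ⊓ CDᗮ) h + pr (CIᗮ ⊓ CDᗮ) c = 0 := by
    rw [← map_add, ← hd]; exact pr_zero hu.1
  have horth := prO_orth hI hD hID hhm hcm
  have hc0 : pr (CIᗮ ⊓ CDᗮ) c = 0 := by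
    rw [eq_neg_of_add_eq_zero_left h0, inner_neg_left, neg_eq_zero] at horth
    exact inner_self_eq_zero.1 horth
  have hh0 : pr (CIᗮ ⊓ CDᗮ) h = 0 := by simpa [hc0] using h0
  have e1 : ∀ v, pr (CIᗮ ⊓ CDᗮ) v = v - (pr CI v + pr CD v) := by
    intro v
    rw [← pr_osum hI hD hID, pr_orth]; simp
  rw [e1, pr_zero hcm.2, add_zero, sub_eq_zero] at hc0
  rw [e1, pr_zero hhm.2, zero_add, sub_eq_zero] at hh0
  rw [hd]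
  apply Submodule.add_mem
  · exact le_osum_right _ _ ⟨hh0 ▸ pr_mem hD h, Submodule.le_orthogonal_orthogonal _ hhm.1⟩
  · exact le_osum_left _ _ ⟨hc0 ▸ pr_mem hI c, hcm.1⟩

end config

lemma lip_bot {O K J : Submodule ℝ E} (hO : Cl O) (hK : Cl K) :
    (RR O K ⊓ (RR O (K ⊓ Jᗮ))ᗮ) ⊓ (RR K J)ᗮ = ⊥ := by
  rw [eq_bot_iff]
  intro y hy
  have h1 : y ∈ (K ⊓ Jᗮ)ᗮ := orth_of_orth_RR hO hy.1.1.1 hy.1.2
  have h2 : y ∈ Kᗮ := by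
    apply mem_orth
    intro k hk
    have hk' : Cl (K ⊓ Jᗮ) := hK.inf (Cl.orth _)
    have e : k = pr (K ⊓ Jᗮ) k + (k - pr (K ⊓ Jᗮ) k) := by simp
    rw [e, inner_add_left, inner_zero_of_mem (pr_mem hk' k) h1,
      inner_zero_of_mem (M := RR K J) ⟨K.sub_mem hk (pr_mem hk' k).1, sub_pr_mem _ k⟩ hy.2]
    simp
  exact eq_zero_of_mem (M := O ⊓ Kᗮ) ⟨hy.1.1.1, h2⟩ hy.1.1.2

/-! ### powers of `1 - T T†` -/

open ContinuousLinearMap in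
lemma tendsto_pr_fix (f : E →L[ℝ] E) (hf : ‖f‖ ≤ 1) {M : Submodule ℝ E} (hM : Cl M)
    (h : ∀ x, f x = x ↔ x ∈ M) (x : E) :
    Tendsto (fun n : ℕ => ((n : ℝ)⁻¹ • ∑ k ∈ Finset.range n, f ^ k) x) atTop (𝓝 (pr M x)) := by
  have h1 := f.tendsto_birkhoffAverage_orthogonalProjection hf x
  have h2 : f.eqLocus (1 : E →L[ℝ] E) = Mᗮᗮ := by
    ext y
    rw [hM]
    simpa using h y
  have h3 : (((f.eqLocus (1 : E →L[ℝ] E)).orthogonalProjectionOnto x : _) : E) = pr M x := by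
    unfold pr
    simp only [← h2]
    rfl
  rw [h3] at h1
  refine h1.congr fun n => ?_
  simp [birkhoffAverage, birkhoffSum, ContinuousLinearMap.sum_apply, ContinuousLinearMap.coe_pow]

end

end Vale.Agent.P143
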