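import Mathlib

open SimpleGraph Finset
open scoped Classical

namespace Vale.Agent.P143

noncomputable section

variable {V : Type*}

/-- spanning tree of `K` on the vertex set `S` containing `I` and avoiding `D` -/
structure Tr (K : SimpleGraph V) (S : Finset V) (I D : Set (Sym2 V)) (T : SimpleGraph V) : Prop where
  le : T ≤ K
  acyc : T.IsAcyclic
  conn : ∀ x ∈ S, ∀ y ∈ S, T.Reachable x y
  inc : ∀ e ∈ I, e ∈ T.edgeSet
  exc : ∀ e ∈ D, e ∉ T.edgeSet

def cut (F : SimpleGraph V) (v w : V) : ℝ := if F.Reachable v w then 1 else 0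

def theta (T : SimpleGraph V) (x y : V) (p : V × V) : ℝ :=
  if T.Adj p.1 p.2 then cut (T.deleteEdges {s(p.1, p.2)}) p.2 y -
    cut (T.deleteEdges {s(p.1, p.2)}) p.2 x else 0

def chi (x y : V) (p : V × V) : ℝ := (if p = (x, y) then 1 else 0) - (if p = (y, x) then 1 else 0)

lemma reach_or {T : SimpleGraph V} {u v w : V} (h : T.Reachable u w) :
    (T.deleteEdges {s(u, v)}).Reachable u w ∨ (T.deleteEdges {s(u, v)}).Reachable v w := by
  rw [reachable_iff_reflTransGen] at h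
  induction h with
  | refl => exact Or.inl (Reachable.refl _)
  | @tail a c _ hac ih =>
    by_cases he : s(a, c) = s(u, v)
    · rcases Sym2.eq_iff.1 he with ⟨-, rfl⟩ | ⟨-, rfl⟩
      · exact Or.inr (Reachable.refl _)
      · exact Or.inl (Reachable.refl _)
    · have : (T.deleteEdges {s(u, v)}).Adj a c := by simp [hac, he]
      exact ih.imp (fun h => h.trans this.reachable) (fun h => h.trans this.reachable)

lemma not_reach {T : SimpleGraph V} (hT : T.IsAcyclic) {u v : V} (h : T.Adj u v) :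
    ¬ (T.deleteEdges {s(u, v)}).Reachable u v :=
  isAcyclic_iff_forall_adj_isBridge.1 hT h

lemma cut_flip {T : SimpleGraph V} (hT : T.IsAcyclic) {u v w : V} (h : T.Adj u v)
    (hw : T.Reachable u w) :
    cut (T.deleteEdges {s(u, v)}) u w = 1 - cut (T.deleteEdges {s(u, v)}) v w := by
  unfold cut
  have h1 := not_reach hT h
  rcases reach_or (v := v) hw with h2 | h2
  · have : ¬ (T.deleteEdges {s(u, v)}).Reachable v w := fun h3 => h1 (h2.trans h3.symm)
    simp [h2, this]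
  · have : ¬ (T.deleteEdges {s(u, v)}).Reachable u w := fun h3 => h1 (h3.trans h2.symm)
    simp [h2, this]

lemma theta_adj {T : SimpleGraph V} (hT : T.IsAcyclic) {x y : V} (h : T.Adj x y) (p : V × V) :
    theta T x y p = chi x y p := by
  obtain ⟨u, v⟩ := p
  have hne := h.ne
  unfold theta chi
  by_cases h1 : (u, v) = (x, y)
  · obtain ⟨rfl, rfl⟩ := Prod.mk.inj h1
    have := not_reach hT h
    have h2 : ¬ (T.deleteEdges {s(u, v)}).Reachable v u := fun h3 => this h3.symm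
    simp [h, cut, h2, hne]
  by_cases h2 : (u, v) = (y, x)
  · obtain ⟨rfl, rfl⟩ := Prod.mk.inj h2
    have := not_reach hT h.symm
    have h2 : ¬ (T.deleteEdges {s(u, v)}).Reachable v u := fun h3 => this h3.symm
    simp [h.symm, cut, h2, hne.symm]
  simp only [h1, h2, if_false, sub_zero]
  split_ifs with h3
  · have he : s(x, y) ≠ s(u, v) := by
      intro he
      rcases Sym2.eq_iff.1 he with ⟨rfl, rfl⟩ | ⟨rfl, rfl⟩
      · exact h1 rfl
      · exact h2 rfl
    have hadj : (T.deleteEdges {s(u, v)}).Adj x y := by simp [h, he]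
    have : (T.deleteEdges {s(u, v)}).Reachable v y ↔ (T.deleteEdges {s(u, v)}).Reachable v x :=
      ⟨fun h => h.trans hadj.reachable.symm, fun h => h.trans hadj.reachable⟩
    simp [cut, this]
  · rfl

lemma sum_chi {S : Finset V} {x y : V} (hx : x ∈ S) (hy : y ∈ S) (v : V) :
    ∑ w ∈ S, chi x y (v, w) = (if v = x then 1 else 0) - (if v = y then 1 else 0) := by
  unfold chi
  rw [sum_sub_distrib]
  congr 1
  · by_cases h : v = x <;> simp [h, hy]
  · by_cases h : v = y <;> simp [h, hx]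

lemma theta_div {T : SimpleGraph V} (hT : T.IsAcyclic) {S : Finset V}
    (hS : ∀ a c, T.Adj a c → a ∈ S) {x y : V} (h : T.Reachable x y) (v : V) :
    ∑ w ∈ S, theta T x y (v, w) = (if v = x then 1 else 0) - (if v = y then 1 else 0) := by
  rw [reachable_iff_reflTransGen] at h
  induction h with
  | refl => simp [theta]
  | @tail a c _ hac ih =>
    have : ∀ p, theta T x c p = theta T x a p + theta T a c p := by
      intro p; unfold theta; split_ifs <;> ring
    simp only [this, sum_add_distrib, ih, theta_adj hT hac,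
      sum_chi (hS _ _ hac) (hS _ _ hac.symm)]
    ring

lemma theta_anti {T : SimpleGraph V} (hT : T.IsAcyclic) {S : Finset V}
    (hS : ∀ a c, T.Adj a c → a ∈ S) (hc : ∀ x ∈ S, ∀ y ∈ S, T.Reachable x y) {x y : V}
    (hx : x ∈ S) (hy : y ∈ S) (u v : V) : theta T x y (v, u) = -theta T x y (u, v) := by
  unfold theta
  by_cases h : T.Adj u v
  · simp only [h, h.symm, if_true]
    rw [Sym2.eq_swap, cut_flip hT h (hc _ (hS _ _ h) _ hx), cut_flip hT h (hc _ (hS _ _ h) _ hy)]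
    ring
  · have : ¬ T.Adj v u := fun h' => h h'.symm
    simp [h, this]

lemma chi_anti (x y u v : V) : chi x y (v, u) = -chi x y (u, v) := by
  unfold chi
  simp only [Prod.mk.injEq]
  rw [neg_sub]
  congr 1 <;> simp only [and_comm]

section exch
variable {K : SimpleGraph V} {S : Finset V} {I D : Set (Sym2 V)}

lemma exchange (hS : ∀ a c, K.Adj a c → a ∈ S) {T : SimpleGraph V} (hT : Tr K S I D T)
    {x y u v : V} (hxy : K.Adj x y) (hD : s(x, y) ∉ D) (hI : s(u, v) ∉ I)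
    (hne : theta T x y (u, v) ≠ 0) :
    Tr K S I D (T.deleteEdges {s(u, v)} ⊔ edge x y) ∧
      (T.deleteEdges {s(u, v)} ⊔ edge x y).deleteEdges {s(x, y)} = T.deleteEdges {s(u, v)} ∧
      T.deleteEdges {s(u, v)} ⊔ edge u v = T ∧
      theta (T.deleteEdges {s(u, v)} ⊔ edge x y) u v (x, y) = theta T x y (u, v) := by
  have huv : T.Adj u v := by
    by_contra h; simp [theta, h] at hne
  obtain ⟨F, hF⟩ : ∃ F, F = T.deleteEdges {s(u, v)} := ⟨_, rfl⟩
  have hne' : cut F v y - cut F v x ≠ 0 := by simpa [theta, huv, ← hF] using hne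
  have hnr : ¬ F.Reachable x y := by
    intro h
    have : F.Reachable v y ↔ F.Reachable v x := ⟨fun h' => h'.trans h.symm, fun h' => h'.trans h⟩
    simp [cut, this] at hne'
  have hnuv : ¬ F.Reachable u v := hF ▸ not_reach hT.acyc huv
  have huS : u ∈ S := hS _ _ (hT.le huv)
  have hor : ∀ w ∈ S, F.Reachable u w ∨ F.Reachable v w := fun w hw =>
    hF ▸ reach_or (hT.conn u huS w hw)
  have hxS := hS _ _ hxy
  have hyS := hS _ _ hxy.symm
  have hdel : (F ⊔ edge x y).deleteEdges {s(x, y)} = F := by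
    ext a c
    simp only [deleteEdges_adj, sup_adj, adj_edge, Set.mem_singleton_iff]
    constructor
    · rintro ⟨h | h, h'⟩
      · exact h
      · exact absurd h.1.symm h'
    · intro h
      refine ⟨Or.inl h, fun he => hnr ?_⟩
      rcases Sym2.eq_iff.1 he with ⟨rfl, rfl⟩ | ⟨rfl, rfl⟩
      · exact h.reachable
      · exact h.reachable.symm
  have hadj : (F ⊔ edge x y).Adj x y := by simp [adj_edge, hxy.ne]
  have hcase : (F.Reachable u x ∧ F.Reachable v y) ∨ (F.Reachable v x ∧ F.Reachable u y) := by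
    rcases hor x hxS with h1 | h1 <;> rcases hor y hyS with h2 | h2
    · exact absurd (h1.symm.trans h2) hnr
    · exact Or.inl ⟨h1, h2⟩
    · exact Or.inr ⟨h1, h2⟩
    · exact absurd (h1.symm.trans h2) hnr
  rw [← hF]
  refine ⟨⟨?_, ?_, ?_, ?_, ?_⟩, hdel, ?_, ?_⟩
  · apply sup_le (hF ▸ (deleteEdges_le _).trans hT.le)
    rw [edge_le_iff]; exact Or.inr hxy
  · exact IsAcyclic.sup_edge_of_not_reachable hnr (hF ▸ hT.acyc.anti (deleteEdges_le _))
  · have huv' : (F ⊔ edge x y).Reachable u v := by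
      rcases hcase with ⟨h1, h2⟩ | ⟨h1, h2⟩
      · exact ((h1.mono le_sup_left).trans hadj.reachable).trans (h2.mono le_sup_left).symm
      · exact ((h2.mono le_sup_left).trans hadj.reachable.symm).trans (h1.mono le_sup_left).symm
    have : ∀ w ∈ S, (F ⊔ edge x y).Reachable u w := fun w hw =>
      (hor w hw).elim (fun h => h.mono le_sup_left) (fun h => huv'.trans (h.mono le_sup_left))
    exact fun a ha c hc => (this a ha).symm.trans (this c hc)
  · intro e he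
    rw [edgeSet_sup]
    left
    rw [hF, edgeSet_deleteEdges]
    exact ⟨hT.inc e he, fun h => hI (by rw [← Set.mem_singleton_iff.1 h]; exact he)⟩
  · intro e he
    rw [edgeSet_sup]
    rintro (h | h)
    · rw [hF, edgeSet_deleteEdges] at h
      exact hT.exc e he h.1
    · exact hD (by rw [← Set.mem_singleton_iff.1 (edgeSet_edge_subset h)]; exact he)
  · ext a c
    simp only [hF, deleteEdges_adj, sup_adj, adj_edge, Set.mem_singleton_iff]
    constructor
    · rintro (h | h)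
      · exact h.1
      · rcases Sym2.eq_iff.1 h.1 with ⟨rfl, rfl⟩ | ⟨rfl, rfl⟩
        · exact huv
        · exact huv.symm
    · intro h
      by_cases he : s(a, c) = s(u, v)
      · exact Or.inr ⟨he.symm, h.ne⟩
      · exact Or.inl ⟨h, he⟩
  · simp only [theta, hadj, huv, if_true, hdel, ← hF, cut]
    rcases hcase with ⟨h1, h2⟩ | ⟨h1, h2⟩
    · have a1 : ¬ F.Reachable y u := fun h => hnuv (h.symm.trans h2.symm)
      have a2 : ¬ F.Reachable v x := fun h => hnuv (h1.trans h.symm)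
      simp [h2, h2.symm, a1, a2]
    · have a1 : ¬ F.Reachable y v := fun h => hnuv (h2.trans h)
      have a2 : ¬ F.Reachable v y := fun h => a1 h.symm
      simp [h1, h2.symm, a1, a2]

lemma theta_symm (hS : ∀ a c, K.Adj a c → a ∈ S) {𝒯 : Finset (SimpleGraph V)}
    (h𝒯 : ∀ T, T ∈ 𝒯 ↔ Tr K S I D T) {x y u v : V} (hxy : K.Adj x y) (huv : K.Adj u v)
    (hD : s(x, y) ∉ D) (hI : s(x, y) ∉ I) (hD' : s(u, v) ∉ D) (hI' : s(u, v) ∉ I) :
    ∑ T ∈ 𝒯, theta T x y (u, v) = ∑ T ∈ 𝒯, theta T u v (x, y) := by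
  rw [← sum_filter_ne_zero 𝒯, ← sum_filter_ne_zero 𝒯 (f := fun T => theta T u v (x, y))]
  refine sum_nbij' (fun T => T.deleteEdges {s(u, v)} ⊔ edge x y)
    (fun T => T.deleteEdges {s(x, y)} ⊔ edge u v) ?_ ?_ ?_ ?_ ?_
  · intro T hT
    simp only [mem_filter, h𝒯] at hT ⊢
    have := exchange hS hT.1 hxy hD hI' hT.2
    exact ⟨this.1, by rw [this.2.2.2]; exact hT.2⟩
  · intro T hT
    simp only [mem_filter, h𝒯] at hT ⊢
    have := exchange hS hT.1 huv hD' hI hT.2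
    exact ⟨this.1, by rw [this.2.2.2]; exact hT.2⟩
  · intro T hT
    simp only [mem_filter, h𝒯] at hT
    have := exchange hS hT.1 hxy hD hI' hT.2
    rw [this.2.1, this.2.2.1]
  · intro T hT
    simp only [mem_filter, h𝒯] at hT
    have := exchange hS hT.1 huv hD' hI hT.2
    rw [this.2.1, this.2.2.1]
  · intro T hT
    simp only [mem_filter, h𝒯] at hT
    exact (exchange hS hT.1 hxy hD hI' hT.2).2.2.2.symm

/-- antisymmetric divergence free functions on the darts of `K` -/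
structure Flow (K : SimpleGraph V) (S : Finset V) (c : V × V → ℝ) : Prop where
  anti : ∀ u v, c (v, u) = -c (u, v)
  supp : ∀ u v, ¬ K.Adj u v → c (u, v) = 0
  div : ∀ v, ∑ w ∈ S, c (v, w) = 0

lemma Flow.grad {c : V × V → ℝ} (hc : Flow K S c) (g : V → ℝ) :
    ∑ p ∈ S ×ˢ S, (g p.2 - g p.1) * c p = 0 := by
  simp only [sub_mul, sum_sub_distrib]
  have h1 : ∑ p ∈ S ×ˢ S, g p.1 * c p = 0 := by
    rw [sum_product]
    exact sum_eq_zero fun v _ => by simp only [← mul_sum, hc.div, mul_zero]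
  have h2 : ∑ p ∈ S ×ˢ S, g p.2 * c p = 0 := by
    rw [sum_product_right]
    refine sum_eq_zero fun v _ => ?_
    simp only [← mul_sum]
    rw [sum_congr rfl fun w _ => hc.anti v w, sum_neg_distrib, hc.div]; simp
  rw [h1, h2, sub_zero]

def OO (S : Finset V) (I D : Set (Sym2 V)) : Finset (V × V) :=
  (S ×ˢ S).filter fun p => s(p.1, p.2) ∉ I ∧ s(p.1, p.2) ∉ D

def DD (S : Finset V) (D : Set (Sym2 V)) : Finset (V × V) :=
  (S ×ˢ S).filter fun p => s(p.1, p.2) ∈ D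

lemma core (hS : ∀ a c, K.Adj a c → a ∈ S) {𝒯 : Finset (SimpleGraph V)}
    (h𝒯 : ∀ T, T ∈ 𝒯 ↔ Tr K S I D T) {x y : V} (hxy : K.Adj x y)
    (hD : s(x, y) ∉ D) (hI : s(x, y) ∉ I) {c : V × V → ℝ} (hc : Flow K S c) :
    |∑ p ∈ OO S I D, (∑ T ∈ 𝒯, theta T x y p) * c p| ≤ 𝒯.card * ∑ p ∈ DD S D, |c p| := by
  have e1 : ∑ p ∈ OO S I D, (∑ T ∈ 𝒯, theta T x y p) * c p =
      ∑ T ∈ 𝒯, ∑ p ∈ OO S I D, theta T p.1 p.2 (x, y) * c p := by
    rw [sum_comm]
    refine sum_congr rfl fun p hp => ?_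
    rw [← sum_mul]
    by_cases h : K.Adj p.1 p.2
    · simp only [OO, mem_filter] at hp
      rw [theta_symm hS h𝒯 hxy h hD hI hp.2.2 hp.2.1]
    · rw [hc.supp _ _ h]; simp
  rw [e1]
  refine (abs_sum_le_sum_abs _ _).trans ?_
  rw [← nsmul_eq_mul]
  refine sum_le_card_nsmul _ _ _ fun T hT => ?_
  have hT' := (h𝒯 T).1 hT
  by_cases h : T.Adj x y
  · simp only [theta, h, if_true]
    obtain ⟨g, hg⟩ : ∃ g, g = cut (T.deleteEdges {s(x, y)}) y := ⟨_, rfl⟩
    rw [← hg]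
    have h0 := hc.grad g
    rw [← sum_filter_add_sum_filter_not _ (fun p => s(p.1, p.2) ∈ D)] at h0
    have h1 : ∑ p ∈ (S ×ˢ S).filter (fun p => ¬ s(p.1, p.2) ∈ D), (g p.2 - g p.1) * c p =
        ∑ p ∈ OO S I D, (g p.2 - g p.1) * c p := by
      symm
      apply sum_subset
      · intro p hp
        simp only [OO, mem_filter] at hp ⊢
        exact ⟨hp.1, hp.2.2⟩
      · intro p hp hp'
        simp only [OO, mem_filter] at hp hp'
        have hpI : s(p.1, p.2) ∈ I := by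
          by_contra h'; exact hp' ⟨hp.1, h', hp.2⟩
        have hadj : (T.deleteEdges {s(x, y)}).Adj p.1 p.2 := by
          rw [deleteEdges_adj]
          exact ⟨hT'.inc _ hpI, fun he => hI (by rw [← Set.mem_singleton_iff.1 he]; exact hpI)⟩
        have : (T.deleteEdges {s(x, y)}).Reachable y p.2 ↔
            (T.deleteEdges {s(x, y)}).Reachable y p.1 :=
          ⟨fun h => h.trans hadj.reachable.symm, fun h => h.trans hadj.reachable⟩
        simp [hg, cut, this]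
    rw [h1] at h0
    rw [eq_neg_of_add_eq_zero_right h0, abs_neg]
    refine (abs_sum_le_sum_abs _ _).trans (sum_le_sum fun p _ => ?_)
    rw [abs_mul]
    have : |g p.2 - g p.1| ≤ 1 := by
      rw [hg]; unfold cut; split_ifs <;> simp
    nlinarith [abs_nonneg (c p)]
  · simp only [theta, h, if_false, zero_mul, sum_const_zero, abs_zero]
    exact sum_nonneg fun p _ => abs_nonneg _

lemma sum_chi_mul {O : Finset (V × V)} {x y : V} (h1 : (x, y) ∈ O) (h2 : (y, x) ∈ O)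
    (f : V × V → ℝ) : ∑ p ∈ O, chi x y p * f p = f (x, y) - f (y, x) := by
  simp [chi, sub_mul, sum_sub_distrib, h1, h2]

lemma flow_chi_theta (hS : ∀ a c, K.Adj a c → a ∈ S) {𝒯 : Finset (SimpleGraph V)}
    (h𝒯 : ∀ T, T ∈ 𝒯 ↔ Tr K S I D T) {x y : V} (hxy : K.Adj x y) :
    Flow K S (fun p => 𝒯.card * chi x y p - ∑ T ∈ 𝒯, theta T x y p) := by
  have hx := hS _ _ hxy
  have hy := hS _ _ hxy.symm
  refine ⟨fun u v => ?_, fun u v h => ?_, fun v => ?_⟩
  · rw [chi_anti, sum_congr rfl fun T hT => theta_anti ((h𝒯 T).1 hT).acyc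
      (fun a c h => hS a c (((h𝒯 T).1 hT).le h)) ((h𝒯 T).1 hT).conn hx hy u v, sum_neg_distrib]
    ring
  · have h1 : chi x y (u, v) = 0 := by
      have a1 : (u, v) ≠ (x, y) := by
        intro he; obtain ⟨rfl, rfl⟩ := Prod.mk.inj he; exact h hxy
      have a2 : (u, v) ≠ (y, x) := by
        intro he; obtain ⟨rfl, rfl⟩ := Prod.mk.inj he; exact h hxy.symm
      simp [chi, a1, a2]
    rw [h1, sum_eq_zero fun T hT => ?_]
    · simp
    · have : ¬ T.Adj u v := fun h' => h (((h𝒯 T).1 hT).le h')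
      simp [theta, this]
  · rw [sum_sub_distrib, ← mul_sum, sum_chi hx hy, sum_comm,
      sum_congr rfl fun T hT => theta_div ((h𝒯 T).1 hT).acyc
      (fun a c h => hS a c (((h𝒯 T).1 hT).le h)) (((h𝒯 T).1 hT).conn x hx y hy) v]
    rw [sum_const, nsmul_eq_mul, sub_self]

lemma theta_zero_D {𝒯 : Finset (SimpleGraph V)} (h𝒯 : ∀ T, T ∈ 𝒯 ↔ Tr K S I D T) (x y : V)
    {p : V × V} (hp : s(p.1, p.2) ∈ D) : ∑ T ∈ 𝒯, theta T x y p = 0 :=
  sum_eq_zero fun T hT => by
    have : ¬ T.Adj p.1 p.2 := ((h𝒯 T).1 hT).exc _ hp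
    simp [theta, this]

lemma chi_zero {x y : V} {D : Set (Sym2 V)} (hD : s(x, y) ∉ D) {p : V × V}
    (hp : s(p.1, p.2) ∈ D) : chi x y p = 0 := by
  have a1 : p ≠ (x, y) := by rintro rfl; exact hD hp
  have a2 : p ≠ (y, x) := by rintro rfl; exact hD (Sym2.eq_swap ▸ hp)
  simp [chi, a1, a2]

lemma theta_xy (hS : ∀ a c, K.Adj a c → a ∈ S) {𝒯 : Finset (SimpleGraph V)}
    (h𝒯 : ∀ T, T ∈ 𝒯 ↔ Tr K S I D T) {x y : V} (hxy : K.Adj x y) :
    (∑ T ∈ 𝒯, theta T x y (x, y)) - ∑ T ∈ 𝒯, theta T x y (y, x) =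
      2 * (𝒯.filter fun T => T.Adj x y).card := by
  rw [← sum_sub_distrib, card_filter, Nat.cast_sum, mul_sum]
  refine sum_congr rfl fun T hT => ?_
  have hT' := (h𝒯 T).1 hT
  rw [theta_anti hT'.acyc (fun a c h => hS a c (hT'.le h)) hT'.conn (hS _ _ hxy)
    (hS _ _ hxy.symm) x y]
  by_cases h : T.Adj x y
  · rw [theta_adj hT'.acyc h]
    simp [chi, h, h.ne]; norm_num
  · simp [theta, h]

lemma theta_sq (hS : ∀ a c, K.Adj a c → a ∈ S) {𝒯 : Finset (SimpleGraph V)}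
    (h𝒯 : ∀ T, T ∈ 𝒯 ↔ Tr K S I D T) {x y : V} (hxy : K.Adj x y)
    (hD : s(x, y) ∉ D) (hI : s(x, y) ∉ I) :
    ∑ p ∈ OO S I D, (∑ T ∈ 𝒯, theta T x y p) ^ 2 =
      2 * 𝒯.card * (𝒯.filter fun T => T.Adj x y).card := by
  have h1 := core hS h𝒯 hxy hD hI (flow_chi_theta hS h𝒯 hxy)
  rw [sum_eq_zero (s := DD S D) fun p hp => by
    simp only [DD, mem_filter] at hp
    rw [theta_zero_D h𝒯 x y hp.2, chi_zero hD hp.2]; simp, mul_zero] at h1
  have h2 := abs_eq_zero.1 (le_antisymm h1 (abs_nonneg _))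
  have hxO : (x, y) ∈ OO S I D := by simp [OO, hS _ _ hxy, hS _ _ hxy.symm, hI, hD]
  have hyO : (y, x) ∈ OO S I D := by
    simp [OO, hS _ _ hxy, hS _ _ hxy.symm, Sym2.eq_swap (a := y), hI, hD]
  have h3 := sum_chi_mul hxO hyO (fun p => ∑ T ∈ 𝒯, theta T x y p)
  rw [theta_xy hS h𝒯 hxy] at h3
  have h4 : ∑ p ∈ OO S I D, (∑ T ∈ 𝒯, theta T x y p) *
      (𝒯.card * chi x y p - ∑ T ∈ 𝒯, theta T x y p) =
      𝒯.card * ∑ p ∈ OO S I D, chi x y p * (∑ T ∈ 𝒯, theta T x y p) -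
        ∑ p ∈ OO S I D, (∑ T ∈ 𝒯, theta T x y p) ^ 2 := by
    rw [mul_sum, ← sum_sub_distrib]
    exact sum_congr rfl fun p _ => by ring
  rw [h4, h3] at h2
  linarith

theorem kirch_a (hS : ∀ a c, K.Adj a c → a ∈ S) {𝒯 : Finset (SimpleGraph V)}
    (h𝒯 : ∀ T, T ∈ 𝒯 ↔ Tr K S I D T) {x y : V} (hxy : K.Adj x y)
    (hD : s(x, y) ∉ D) (hI : s(x, y) ∉ I) {h : V × V → ℝ}
    (hh : ∀ c, Flow K S c → ∑ p ∈ S ×ˢ S, c p * h p = 0)
    (hhI : ∀ p : V × V, s(p.1, p.2) ∈ I → h p = 0) :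
    𝒯.card * (h (x, y) - h (y, x)) ^ 2 ≤
      2 * (𝒯.filter fun T => T.Adj x y).card * ∑ p ∈ OO S I D, h p ^ 2 := by
  have h1 := hh _ (flow_chi_theta hS h𝒯 hxy)
  have hxO : (x, y) ∈ S ×ˢ S := by simp [hS _ _ hxy, hS _ _ hxy.symm]
  have hyO : (y, x) ∈ S ×ˢ S := by simp [hS _ _ hxy, hS _ _ hxy.symm]
  simp only [sub_mul, sum_sub_distrib, mul_assoc, ← mul_sum, sum_chi_mul hxO hyO] at h1
  have h2 : ∑ p ∈ S ×ˢ S, (∑ T ∈ 𝒯, theta T x y p) * h p =
      ∑ p ∈ OO S I D, (∑ T ∈ 𝒯, theta T x y p) * h p := by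
    symm
    apply sum_subset (filter_subset _ _)
    intro p hp hp'
    simp only [OO, mem_filter, hp, true_and, not_and_or, not_not] at hp'
    rcases hp' with h' | h'
    · rw [hhI p h', mul_zero]
    · rw [theta_zero_D h𝒯 x y h', zero_mul]
  have h3 := sum_mul_sq_le_sq_mul_sq (OO S I D) (fun p => ∑ T ∈ 𝒯, theta T x y p) h
  rw [← h2, ← sub_eq_zero.1 h1, theta_sq hS h𝒯 hxy hD hI] at h3
  rcases Nat.eq_zero_or_pos 𝒯.card with h0 | h0
  · rw [h0]
    simp only [Nat.cast_zero, zero_mul]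
    exact mul_nonneg (by positivity) (sum_nonneg fun p _ => sq_nonneg _)
  · have : (0 : ℝ) < 𝒯.card := by exact_mod_cast h0
    apply le_of_mul_le_mul_left _ this
    nlinarith

theorem kirch_b (hS : ∀ a c, K.Adj a c → a ∈ S) {𝒯 : Finset (SimpleGraph V)}
    (h𝒯 : ∀ T, T ∈ 𝒯 ↔ Tr K S I D T) {x y : V} (hxy : K.Adj x y)
    (hD : s(x, y) ∉ D) (hI : s(x, y) ∉ I) {c : V × V → ℝ} (hc : Flow K S c) :
    𝒯.card * |c (x, y) - c (y, x)| ≤
      √(2 * 𝒯.card * (𝒯.card - (𝒯.filter fun T => T.Adj x y).card) * ∑ p ∈ OO S I D, c p ^ 2)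
        + 𝒯.card * ∑ p ∈ DD S D, |c p| := by
  have h1 := core hS h𝒯 hxy hD hI hc
  have hxO : (x, y) ∈ OO S I D := by simp [OO, hS _ _ hxy, hS _ _ hxy.symm, hI, hD]
  have hyO : (y, x) ∈ OO S I D := by
    simp [OO, hS _ _ hxy, hS _ _ hxy.symm, Sym2.eq_swap (a := y), hI, hD]
  have h2 := sum_mul_sq_le_sq_mul_sq (OO S I D)
    (fun p => 𝒯.card * chi x y p - ∑ T ∈ 𝒯, theta T x y p) c
  have h3 : ∑ p ∈ OO S I D, (𝒯.card * chi x y p - ∑ T ∈ 𝒯, theta T x y p) ^ 2 =
      2 * 𝒯.card * (𝒯.card - (𝒯.filter fun T => T.Adj x y).card) := by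
    have a1 := sum_chi_mul hxO hyO (fun p => ∑ T ∈ 𝒯, theta T x y p)
    have a2 := sum_chi_mul hxO hyO (chi x y)
    have a3 : chi x y (x, y) - chi x y (y, x) = 2 := by
      simp [chi, hxy.ne, hxy.ne.symm]; norm_num
    rw [theta_xy hS h𝒯 hxy] at a1
    have a4 := theta_sq hS h𝒯 hxy hD hI
    have : ∑ p ∈ OO S I D, (𝒯.card * chi x y p - ∑ T ∈ 𝒯, theta T x y p) ^ 2 =
        (𝒯.card : ℝ) ^ 2 * ∑ p ∈ OO S I D, chi x y p * chi x y p -
        2 * 𝒯.card * ∑ p ∈ OO S I D, chi x y p * (∑ T ∈ 𝒯, theta T x y p) +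
        ∑ p ∈ OO S I D, (∑ T ∈ 𝒯, theta T x y p) ^ 2 := by
      rw [mul_sum, mul_sum, ← sum_sub_distrib, ← sum_add_distrib]
      exact sum_congr rfl fun p _ => by ring
    rw [this, a1, a2, a3, a4]; ring
  rw [h3] at h2
  have h4 := Real.abs_le_sqrt h2
  have h5 : 𝒯.card * (c (x, y) - c (y, x)) =
      ∑ p ∈ OO S I D, (𝒯.card * chi x y p - ∑ T ∈ 𝒯, theta T x y p) * c p +
      ∑ p ∈ OO S I D, (∑ T ∈ 𝒯, theta T x y p) * c p := by
    rw [← sum_chi_mul hxO hyO c, mul_sum, ← sum_add_distrib]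
    exact sum_congr rfl fun p _ => by ring
  calc _ = |𝒯.card * (c (x, y) - c (y, x))| := by rw [abs_mul, Nat.abs_cast]
    _ ≤ _ := by rw [h5]; exact (abs_add_le _ _).trans (add_le_add h4 h1)

end exch

end

end Vale.Agent.P143
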