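import Vale.Agent.P143.Glob

open MeasureTheory ProbabilityTheory Filter Topology SimpleGraph ContinuousLinearMap
open scoped InnerProductSpace ENNReal Classical

namespace Vale.Agent.P143

noncomputable section

variable {V : Type*} [Countable V] [MeasurableSpace V] [DiscreteMeasurableSpace V]
variable {μ : Measure (SimpleGraph V × V)} [IsProbabilityMeasure μ]

def dZ (z : Om V × ℝ) (e : Sym2 V) : ℝ≥0∞ :=
  if ¬ e.IsDiag ∧ e ∉ up z.1.1 z.1.2.1 z.2 then
    ENNReal.ofReal (1 - kr z.1.1 z.1.2.1 z.2 z.1.2.2.1 e - ksr z.1.1 z.1.2.1 z.2 z.1.2.2.1 e) else 0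

omit [MeasurableSpace V] [DiscreteMeasurableSpace V] in
lemma meas_dZ (e : Sym2 V) : Measurable fun z => dZ z e :=
  Measurable.ite ((MeasurableSet.const _).inter
    (meas_up (by fun_prop) (by fun_prop) (by fun_prop) e).compl)
    (((meas_kr (by fun_prop) (by fun_prop) (by fun_prop) (by fun_prop) e).const_sub 1).fun_sub
      (meas_ksr (by fun_prop) (by fun_prop) (by fun_prop) (by fun_prop) e)).ennreal_ofReal
    measurable_const

omit [MeasurableSpace V] [DiscreteMeasurableSpace V] in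
lemma meas_tmO (e : Sym2 V) : Measurable fun ω : Om V => tm ω.1 ω.2.1 e :=
  meas_tm measurable_fst (by fun_prop) e

theorem hyp_ae (hμ : Unimodular μ) (hG : ∀ᵐ p ∂μ, Good p.1) :
    ∀ᵐ p ∂μ, ∀ e, ∀ᵐ U ∂piL _, Hyp p.1 (nu p.1) U e := by
  have m1 : ∀ e, Measurable fun ω : Om V => ENNReal.ofReal (tm ω.1 ω.2.1 e) ^ 4 *
      dZ (ω, tm ω.1 ω.2.1 e) e := fun e =>
    ((meas_tmO e).ennreal_ofReal.pow_const 4).mul
      ((meas_dZ e).comp (measurable_id.prodMk (meas_tmO e)))
  have h1 := time_Q hG meas_dZ fun G U ρ e u u' r h1 h2 => by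
    obtain ⟨a1, a2⟩ := up_update (U := U) h1 h2
    simp only [dZ, kr_local a1 (fun _ _ => rfl), ksr_local a1 (fun _ _ => rfl), a1]
  have h2 : ∫⁻ r, ENNReal.ofReal r ^ 3 * ∫⁻ q, dZ (q.1, r) s(q.2.1, q.2.2) ∂QQ μ ∂lam = 0 := by
    refine (lintegral_congr_ae ?_).trans lintegral_zero
    filter_upwards [lam_ae] with r hr
    have := fam_Z (uni_QQ hμ) (gG := fun ω : Om V => ω.1) (gA := fun ω => up ω.1 ω.2.1 r)
      (gX := fun ω => ω.2.2.1) measurable_fst
      (meas_up measurable_fst (by fun_prop) measurable_const) (by fun_prop)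
      (fun _ _ => rfl) (fun σ ω e => up_comap σ ω.1 ω.2.1 r e) (fun _ _ _ => rfl) (Q_up hG hr.1)
    simp only [dZ, Sym2.mk_isDiag_iff, kr, ksr]
    rw [this, mul_zero]
  have h3 := root_all hμ (meas_dart m1) (fun σ ω x y => ?_) (le_antisymm (h2 ▸ h1) zero_le)
  · filter_upwards [h3, hG] with p hp hg e
    induction e with
    | h x y =>
    filter_upwards [Measure.ae_ae_of_ae_prod (hp x y), piL_ae] with U hU hU' he
    filter_upwards [Measure.ae_ae_of_ae_prod hU] with F hF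
    obtain ⟨W, hW⟩ := hF.exists
    have hxy : x ≠ y := p.1.ne_of_adj he
    have ht : 0 < tm p.1 U s(x, y) := mul_pos (aE_pos hg he) (hU' _).1
    simp only [dZ, Sym2.mk_isDiag_iff, hxy, not_mem_up, not_false_eq_true, and_self, if_true,
      mul_eq_zero, ENNReal.ofReal_eq_zero, pow_eq_zero_iff four_ne_zero, not_le.2 ht,
      false_or] at hW
    have := k_add_le (G := p.1) F hxy (not_mem_up p.1 U s(x, y))
    unfold kr ksr at hW ⊢
    linarith
  · have e1 : s(σ x, σ y) = s(x, y).map σ := rfl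
    simp only [act, actL, dZ, e1, tm_comap, up_comap, kr_comap, ksr_comap,
      Sym2.isDiag_map σ.injective]

def XO (n : ℕ) (ω : Om V) : Sym2 V → Bool := XX ω.1 ω.2.1 (vv ω.1 ω.2.1 ω.2.2.1 ω.2.2.2) n

omit [MeasurableSpace V] [DiscreteMeasurableSpace V] in
lemma meas_XO (n : ℕ) : Measurable (XO n : Om V → _) :=
  meas_XX measurable_fst (by fun_prop)
    (meas_vv measurable_fst (by fun_prop) (by fun_prop) (by fun_prop)) n

omit [Countable V] [MeasurableSpace V] [DiscreteMeasurableSpace V] in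
lemma XO_act (n : ℕ) (σ : Equiv.Perm V) (ω : Om V) : XO n (act σ ω) = rel σ (XO n ω) := by
  simp only [XO, act, actL, vv_comap, XX_comap]

def er (n : ℕ) (ω : Om V) (e : Sym2 V) : ℝ≥0∞ :=
  ENNReal.ofReal (tm ω.1 ω.2.1 e) ^ 4 * ne1 (XO n ω e) (ω.2.2.1 e)

omit [MeasurableSpace V] [DiscreteMeasurableSpace V] in
lemma meas_er (n : ℕ) (e : Sym2 V) : Measurable fun ω : Om V => er n ω e :=
  ((meas_tmO e).ennreal_ofReal.pow_const 4).mul
    (meas_ne1 ((measurable_pi_apply e).comp (meas_XO n)) (by fun_prop))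

def dL (n : ℕ) (z : Om V × ℝ) (e : Sym2 V) : ℝ≥0∞ :=
  ENNReal.ofReal |kr z.1.1 z.1.2.1 z.2 (XO n z.1) e - kr z.1.1 z.1.2.1 z.2 z.1.2.2.1 e|

omit [MeasurableSpace V] [DiscreteMeasurableSpace V] in
lemma meas_dL (n : ℕ) (e : Sym2 V) : Measurable fun z => dL n z e :=
  ((meas_kr (by fun_prop) (by fun_prop) (by fun_prop) ((meas_XO n).comp measurable_fst) e).fun_sub
    (meas_kr (by fun_prop) (by fun_prop) (by fun_prop) (by fun_prop) e)).abs.ennreal_ofReal

lemma lam_cube (t : ℝ) :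
    ∫⁻ r, (if r < t then ENNReal.ofReal r ^ 3 else 0) ∂lam ≤ ENNReal.ofReal t ^ 4 / 4 := by
  have h1 : ∫⁻ r, (if r < t then ENNReal.ofReal r ^ 3 else 0) ∂lam ≤
      ∫⁻ r in Set.Ioc 0 t, ENNReal.ofReal (r ^ 3) := by
    rw [← lintegral_indicator measurableSet_Ioc, lam, ← lintegral_indicator measurableSet_Ioc]
    refine lintegral_mono fun r => ?_
    by_cases h : r ∈ Set.Ioc (0 : ℝ) 1
    · rw [Set.indicator_of_mem h]
      split_ifs with h'
      · rw [Set.indicator_of_mem (show r ∈ Set.Ioc 0 t from ⟨h.1, h'.le⟩),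
          ENNReal.ofReal_pow h.1.le]
      · exact zero_le
    · rw [Set.indicator_of_notMem h]; exact zero_le
  refine h1.trans ?_
  rcases le_total t 0 with ht | ht
  · simp [Set.Ioc_eq_empty (not_lt.2 ht)]
  rw [← ofReal_integral_eq_lintegral_ofReal (by
      exact (intervalIntegral.intervalIntegrable_pow 3 (a := 0) (b := t)).1)
    ((ae_restrict_mem measurableSet_Ioc).mono fun r hr => pow_nonneg hr.1.le _),
    ← intervalIntegral.integral_of_le ht, integral_pow, ← ENNReal.ofReal_pow ht]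
  have h4 : (4 : ℝ≥0∞) = ENNReal.ofReal 4 := by simp
  rw [h4, ← ENNReal.ofReal_div_of_pos (by norm_num)]
  apply ENNReal.ofReal_le_ofReal
  norm_num

theorem er_step1 (hμ : Unimodular μ) (hG : ∀ᵐ p ∂μ, Good p.1) (n : ℕ) :
    ∫⁻ q, er (n + 1) q.1 s(q.2.1, q.2.2) ∂QQ μ ≤
      ∫⁻ q, ENNReal.ofReal (tm q.1.1 q.1.2.1 s(q.2.1, q.2.2)) ^ 4 *
        dL n (q.1, tm q.1.1 q.1.2.1 s(q.2.1, q.2.2)) s(q.2.1, q.2.2) ∂QQ μ := by
  have m1 : ∀ e, Measurable fun ω : Om V => ENNReal.ofReal (tm ω.1 ω.2.1 e) ^ 4 *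
      dL n (ω, tm ω.1 ω.2.1 e) e := fun e =>
    ((meas_tmO e).ennreal_ofReal.pow_const 4).mul
      ((meas_dL n e).comp (measurable_id.prodMk (meas_tmO e)))
  rw [lintegral_QQ (meas_dart (meas_er _)), lintegral_QQ (meas_dart m1)]
  refine lintegral_mono_ae ?_
  filter_upwards [hG, hyp_ae hμ hG] with p hp hh
  refine ENNReal.tsum_le_tsum fun y => ?_
  obtain ⟨e, he⟩ : ∃ e, e = s(p.2, y) := ⟨_, rfl⟩
  rw [← he]
  have m2 : Measurable fun l : Lab V => er (n + 1) (p.1, l) e :=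
    (meas_er _ e).comp (f := fun l : Lab V => (p.1, l)) (by fun_prop)
  have m3 : Measurable fun l : Lab V => ENNReal.ofReal (tm p.1 l.1 e) ^ 4 *
      dL n ((p.1, l), tm p.1 l.1 e) e := (m1 e).comp (f := fun l : Lab V => (p.1, l)) (by fun_prop)
  rw [PP, lintegral_prod _ m2.aemeasurable, lintegral_prod _ m3.aemeasurable]
  refine lintegral_mono_ae ?_
  filter_upwards [hh e] with U hU
  simp only [er]
  rw [lintegral_const_mul' _ _ (ENNReal.pow_ne_top ENNReal.ofReal_ne_top),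
    lintegral_const_mul' _ _ (ENNReal.pow_ne_top ENNReal.ofReal_ne_top)]
  exact mul_le_mul_right (mismatch (det_nu hp.1) hU n) _

theorem er_step (hμ : Unimodular μ) (hG : ∀ᵐ p ∂μ, Good p.1) (n : ℕ) :
    ∫⁻ q, er (n + 1) q.1 s(q.2.1, q.2.2) ∂QQ μ ≤ 2⁻¹ * ∫⁻ q, er n q.1 s(q.2.1, q.2.2) ∂QQ μ := by
  refine (er_step1 hμ hG n).trans ((time_Q hG (meas_dL n) ?_).trans ?_)
  · intro G U ρ e u u' r h1 h2
    obtain ⟨a1, a2⟩ := up_update (U := U) h1 h2
    simp only [dL, XO]
    rw [kr_local a1 (XX_local a1 a2 (vv_local a1 a2 (fun _ _ => rfl) (fun _ _ => rfl)) n),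
      kr_local a1 (X := ρ.1) (fun _ _ => rfl)]
  obtain ⟨g, hg⟩ : ∃ g : ℝ × (Om V × (V × V)) → ℝ≥0∞, ∀ z, g z =
      2 * ne1 (XO n z.2.1 s(z.2.2.1, z.2.2.2)) (z.2.1.2.2.1 s(z.2.2.1, z.2.2.2)) *
      (if z.1 < tm z.2.1.1 z.2.1.2.1 s(z.2.2.1, z.2.2.2) then ENNReal.ofReal z.1 ^ 3 else 0) :=
    ⟨_, fun _ => rfl⟩
  have mn : Measurable fun q : Om V × (V × V) =>
      ne1 (XO n q.1 s(q.2.1, q.2.2)) (q.1.2.2.1 s(q.2.1, q.2.2)) :=
    meas_dart (f := fun ω e => ne1 (XO n ω e) (ω.2.2.1 e)) fun e =>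
      meas_ne1 ((measurable_pi_apply e).comp (meas_XO n)) (by fun_prop)
  have mg : Measurable g := by
    rw [funext hg]
    exact ((mn.comp measurable_snd).const_mul 2).mul (Measurable.ite (measurableSet_lt measurable_fst
      ((meas_dart meas_tmO).comp measurable_snd)) (by fun_prop) measurable_const)
  calc _ ≤ ∫⁻ r, ∫⁻ q, g (r, q) ∂QQ μ ∂lam := by
        refine lintegral_mono_ae ?_
        filter_upwards [lam_ae] with r hr
        have mu := meas_up (gG := fun ω : Om V => ω.1) (gU := fun ω => ω.2.1) (gr := fun _ => r)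
          measurable_fst (by fun_prop) measurable_const
        have := fam_lip (uni_QQ hμ) (gG := fun ω : Om V => ω.1) (gA := fun ω => up ω.1 ω.2.1 r)
          (gX := XO n) (gY := fun ω => ω.2.2.1) measurable_fst mu (meas_XO n) (by fun_prop)
          (fun _ _ => rfl) (fun σ ω e => up_comap σ ω.1 ω.2.1 r e)
          (fun σ ω e => congrFun (XO_act n σ ω) e) (fun _ _ _ => rfl) (Q_up hG hr.1)
        refine (mul_le_mul_right this _).trans (le_of_eq ?_)
        have ms : MeasurableSet {q : Om V × (V × V) | s(q.2.1, q.2.2) ∈ up q.1.1 q.1.2.1 r ∧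
            XO n q.1 s(q.2.1, q.2.2) ≠ q.1.2.2.1 s(q.2.1, q.2.2)} :=
          measSet_prod (B := fun ω : Om V =>
          dart {e | e ∈ up ω.1 ω.2.1 r ∧ XO n ω e ≠ ω.2.2.1 e}) fun p => (mu _).inter
            (measurableSet_eq_fun ((measurable_pi_apply _).comp (meas_XO n)) (by fun_prop)).compl
        rw [← lintegral_indicator_one ms,
          ← mul_assoc, ← lintegral_const_mul' _ _
            (ENNReal.mul_ne_top (ENNReal.pow_ne_top ENNReal.ofReal_ne_top) (by norm_num))]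
        refine lintegral_congr fun q => ?_
        rw [hg]
        by_cases h1 : r < tm q.1.1 q.1.2.1 s(q.2.1, q.2.2)
        · by_cases h2 : XO n q.1 s(q.2.1, q.2.2) = q.1.2.2.1 s(q.2.1, q.2.2)
          · rw [Set.indicator_of_notMem (fun h => h.2 h2)]; simp [ne1, h2]
          · rw [Set.indicator_of_mem (by exact ⟨h1, h2⟩)]; simp [ne1, h1, h2, mul_comm]
        · rw [Set.indicator_of_notMem (fun h => h1 h.1)]; simp [h1]
    _ = ∫⁻ q, ∫⁻ r, g (r, q) ∂lam ∂QQ μ := lintegral_lintegral_swap mg.aemeasurable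
    _ ≤ _ := by
        rw [← lintegral_const_mul' _ _ (by norm_num)]
        refine lintegral_mono fun q => ?_
        simp only [hg, er]
        rw [lintegral_const_mul' _ _ (by unfold ne1; split_ifs <;> simp)]
        refine (mul_le_mul_right (lam_cube _) _).trans (le_of_eq ?_)
        have h4 : (4 : ℝ≥0∞)⁻¹ = 2⁻¹ * 2⁻¹ := by
          rw [← ENNReal.mul_inv (by simp) (by simp)]; norm_num
        have h2 : (2 : ℝ≥0∞) * 2⁻¹ = 1 := ENNReal.mul_inv_cancel (by simp) (by simp)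
        rw [div_eq_mul_inv, h4]
        have h5 : ∀ a b c : ℝ≥0∞, 2 * a * (b * (c * c)) = (2 * c) * (c * (b * a)) := by
          intros; ring
        rw [h5, h2, one_mul]

theorem er_le (hμ : Unimodular μ) (hG : ∀ᵐ p ∂μ, Good p.1) (n : ℕ) :
    ∫⁻ q, er n q.1 s(q.2.1, q.2.2) ∂QQ μ ≤ 2⁻¹ ^ n := by
  induction n with
  | zero =>
    refine Q_le hG (meas_dart (meas_er 0)) fun G l x y hg hl => ?_
    have h1 := tm_le (G := G) hl s(x, y)
    have h2 : ENNReal.ofReal (tm G l.1 s(x, y)) ≤ 1 :=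
      h1.trans (ENNReal.ofReal_le_one.2 (aE_le hg _))
    have h3 : ∀ a b, ne1 a b ≤ 1 := fun a b => by unfold ne1; split_ifs <;> simp
    rw [pow_zero, one_mul]
    exact (mul_le_of_le_one_right' (h3 _ _)).trans
      ((pow_le_of_le_one zero_le h2 four_ne_zero).trans h1)
  | succ n ih => rw [pow_succ']; exact (er_step hμ hG n).trans (mul_le_mul_right ih _)

theorem conv_ae (hμ : Unimodular μ) (hG : ∀ᵐ p ∂μ, Good p.1) :
    ∀ᵐ p ∂μ, ∀ x y, ∀ᵐ l ∂PP p.1, ∑' n, er n (p.1, l) s(x, y) ≠ ∞ := by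
  have m1 : Measurable fun q : Om V × (V × V) => ∑' n, er n q.1 s(q.2.1, q.2.2) :=
    .tsum fun n => meas_dart (meas_er n)
  have ms : MeasurableSet {q : Om V × (V × V) | ∑' n, er n q.1 s(q.2.1, q.2.2) = ∞} :=
    m1 (measurableSet_singleton _)
  have h1 : ∫⁻ q, ∑' n, er n q.1 s(q.2.1, q.2.2) ∂QQ μ ≠ ∞ := by
    rw [lintegral_tsum fun n => (meas_dart (meas_er n)).aemeasurable]
    refine ne_top_of_le_ne_top ?_ (ENNReal.tsum_le_tsum (er_le hμ hG))
    simp
  have h2 := root_all hμ (measurable_one.indicator ms) (fun σ ω x y => ?_)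
    (by rw [lintegral_indicator_one ms]; exact measure_eq_top_of_lintegral_ne_top m1.aemeasurable h1)
  · filter_upwards [h2] with p hp x y
    filter_upwards [hp x y] with l hl
    simpa [Set.indicator] using hl
  · have e1 : s(σ x, σ y) = s(x, y).map σ := rfl
    have : ∀ n, er n (act σ ω) s(x, y) = er n ω s(σ x, σ y) := fun n => by
      simp only [er, XO_act, e1]
      simp only [act, actL, tm_comap, rel]
    simp only [Set.indicator, Set.mem_ofPred_eq, this]
    split_ifs <;> rfl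

omit [MeasurableSpace V] [DiscreteMeasurableSpace V] in
lemma phi_eq {G : SimpleGraph V} (hg : Good G)
    (h : ∀ x y, ∀ᵐ l ∂PP G, ∑' n, er n (G, l) s(x, y) ≠ ∞) :
    ∀ᵐ l ∂PP G, Phi0 G l.1 (vv G l.1 l.2.1 l.2.2) = l.2.1 := by
  have hnon : ∀ e, e ∉ G.edgeSet → ∀ᵐ l ∂PP G,
      decide (vv G l.1 l.2.1 l.2.2 e < kE G l.1 l.2.1 e) = l.2.1 e := fun e he => by
    refine (Measure.ae_prod_iff_ae_ae ?_).2 (Eventually.of_forall fun U =>
      ae_vv (det_nu hg.1) fun h => absurd h he)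
    exact measurableSet_eq_fun (meas_decide (measurableSet_lt ((measurable_pi_apply e).comp
      (meas_vv measurable_const (by fun_prop) (by fun_prop) (by fun_prop)))
      (meas_kE measurable_const (by fun_prop) (by fun_prop) e))) (by fun_prop)
  have : ∀ e, ∀ᵐ l ∂PP G, ∀ᶠ n in atTop, XO n (G, l) e = l.2.1 e := by
    intro e
    by_cases he : e ∈ G.edgeSet
    · induction e with
      | h x y =>
      filter_upwards [h x y, Measure.quasiMeasurePreserving_fst.ae (piL_ae (ι := Sym2 V))]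
        with l hl hU
      have ht : 0 < ENNReal.ofReal (tm G l.1 s(x, y)) ^ 4 :=
        ENNReal.pow_pos (ENNReal.ofReal_pos.2 (mul_pos (aE_pos hg he) (hU _).1)) _
      filter_upwards [(ENNReal.tendsto_atTop_zero_of_tsum_ne_top hl).eventually (gt_mem_nhds ht)]
        with n hn
      by_contra hc
      simp [er, ne1, hc] at hn
    · filter_upwards [hnon e he] with l hl
      filter_upwards [eventually_gt_atTop 0] with n hn
      obtain ⟨n, rfl⟩ := Nat.exists_eq_succ_of_ne_zero hn.ne'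
      rw [← hl]
      simp only [XO, XX, kE, kr, kM_LL_nonadj _ _ he]
  filter_upwards [ae_all_iff.2 this] with l hl
  funext e
  cases hF : l.2.1 e
  · rw [Phi0, decide_eq_false_iff_not]
    intro h'
    obtain ⟨n, h1, h2⟩ := (h'.and (hl e)).exists
    rw [hF] at h2
    exact absurd (h1.symm.trans h2) (by simp)
  · rw [Phi0, decide_eq_true_eq]
    exact (hl e).mono fun n hn => hn.trans hF

theorem edge_main (hμ : Unimodular μ) (hG : ∀ᵐ p ∂μ, Good p.1) :
    ∀ᵐ p ∂μ, ((piL (Sym2 V)).prod (piL (Sym2 V))).map (fun z => Phi0 p.1 z.1 z.2) = nu p.1 := by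
  filter_upwards [hG, hyp_ae hμ hG, conv_ae hμ hG] with p hg hh hc
  obtain ⟨G, hp⟩ : ∃ G, G = p.1 := ⟨_, rfl⟩
  rw [← hp] at hg hh hc ⊢
  have mv : Measurable fun l : Lab V => vv G l.1 l.2.1 l.2.2 :=
    meas_vv measurable_const (by fun_prop) (by fun_prop) (by fun_prop)
  have mP : Measurable fun z : (Sym2 V → ℝ) × (Sym2 V → ℝ) => Phi0 G z.1 z.2 :=
    meas_Phi0 measurable_const measurable_fst measurable_snd
  have h1 : (PP G).map (fun l => (l.1, vv G l.1 l.2.1 l.2.2)) =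
      (piL (Sym2 V)).prod (piL (Sym2 V)) := by
    ext s hs
    rw [Measure.map_apply (measurable_fst.prodMk mv) hs, PP,
      Measure.prod_apply ((measurable_fst.prodMk mv) hs), Measure.prod_apply hs]
    refine lintegral_congr_ae ?_
    filter_upwards [ae_all_iff.2 hh, piL_inj (aE_ne hg)] with U hU hinj
    rw [← vv_iid (det_nu hg.1) hU hinj, Measure.map_apply
      (meas_vv measurable_const measurable_const measurable_fst measurable_snd)
      (measurable_prodMk_left hs), vv_iid (det_nu hg.1) hU hinj]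
    rfl
  rw [← h1, Measure.map_map mP (measurable_fst.prodMk mv)]
  have h2 : (PP G).map (fun l => l.2.1) = nu G := by
    have : (fun l : Lab V => l.2.1) = Prod.fst ∘ Prod.snd := rfl
    rw [this, ← Measure.map_map measurable_fst measurable_snd, PP]
    simp
  rw [← h2]
  exact Measure.map_congr (phi_eq hg hc)

end

end Vale.Agent.P143
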