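import Vale.Agent.P143.Ust

open MeasureTheory ProbabilityTheory Filter Topology SimpleGraph
open scoped InnerProductSpace ENNReal Classical

namespace Vale.Agent.P143

noncomputable section

variable {V : Type*}

def Det (G : SimpleGraph V) (ν : Measure (Sym2 V → Bool)) : Prop :=
  ∀ (A : Finset (Sym2 V)) (X : Sym2 V → Bool) (e : Sym2 V), e ∉ A →
    ν.real (cyl A X ∩ {F | F e = true}) = kM (LL G A X) e * ν.real (cyl A X)

lemma Det.insert {G : SimpleGraph V} {ν : Measure (Sym2 V → Bool)} [IsFiniteMeasure ν]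
    (h : Det G ν) {A : Finset (Sym2 V)} (X : Sym2 V → Bool) {e : Sym2 V} (he : e ∉ A) :
    ν.real (cyl (insert e A) X) =
      (if X e = true then kM (LL G A X) e else 1 - kM (LL G A X) e) * ν.real (cyl A X) := by
  rw [cyl_insert]
  cases X e
  · rw [real_false, h A X e he]; simp; ring
  · rw [h A X e he]; simp

lemma Det.unique {G : SimpleGraph V} {ν ν' : Measure (Sym2 V → Bool)} [IsProbabilityMeasure ν]
    [IsProbabilityMeasure ν'] (h : Det G ν) (h' : Det G ν') : ν = ν' := by
  refine ext_of_generate_finite _ generate_cyls isPiSystem_cyls ?_ (by simp)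
  rintro _ ⟨A, X, rfl⟩
  rw [← measureReal_eq_measureReal_iff]
  induction A using Finset.induction_on with
  | empty => simp [cyl_empty]
  | insert e A he ih => rw [h.insert X he, h'.insert X he, ih]

lemma chiV_mem_O {A : Set (Sym2 V)} {x y : V} (he : s(x, y) ∉ A) : chiV x y ∈ Co (dart Aᶜ) :=
  Submodule.sub_mem _ (bs_mem_Co he) (bs_mem_Co (by
    change s(y, x) ∉ A
    rwa [Sym2.eq_swap]))

variable {G : SimpleGraph V}

lemma ev_adj {K : ℕ → G.Subgraph} (hK : IsExhaustion G K) {x y : V} (h : G.Adj x y) :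
    ∀ᶠ n in atTop, (K n).Adj x y := by
  have : (⨆ n, K n).Adj x y := by rw [hK.2.2.2]; exact h
  obtain ⟨n, hn⟩ := Subgraph.iSup_adj.1 this
  exact eventually_atTop.2 ⟨n, fun m hm => (hK.2.2.1 hm).2 hn⟩

lemma ev_vert {K : ℕ → G.Subgraph} (hK : IsExhaustion G K) (x : V) :
    ∀ᶠ n in atTop, x ∈ (K n).verts := by
  have : x ∈ (⨆ n, K n).verts := by rw [hK.2.2.2]; trivial
  rw [Subgraph.verts_iSup] at this
  obtain ⟨n, hn⟩ := Set.mem_iUnion.1 this
  exact eventually_atTop.2 ⟨n, fun m hm => (hK.2.2.1 hm).1 hn⟩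

variable [Countable V]

def ustP {K : ℕ → G.Subgraph} (hK : IsExhaustion G K) (n : ℕ) :
    ProbabilityMeasure (Sym2 V → Bool) := ⟨ust (K n), ust_prob (hK.1 n) (hK.2.1 n)⟩

lemma det_of_tendsto {K : ℕ → G.Subgraph} (hK : IsExhaustion G K) {L : Filter ℕ} [L.NeBot]
    (hL : L ≤ atTop) {ν : ProbabilityMeasure (Sym2 V → Bool)} (hν : Tendsto (ustP hK) L (𝓝 ν)) :
    Det G ν := by
  have hcl : ∀ s, IsClopen s →
      Tendsto (fun n => (ust (K n)).real s) L (𝓝 ((ν : Measure _).real s)) := fun s hs =>
    NNReal.tendsto_coe.2 (ProbabilityMeasure.tendsto_measure_of_isClopen_of_tendsto hν hs)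
  intro A X e he
  have hp := hcl _ (isClopen_cyl A X)
  have hq := hcl _ ((isClopen_cyl A X).inter (isClopen_eval e true))
  have hqp : (ν : Measure _).real (cyl A X ∩ {F | F e = true}) ≤ (ν : Measure _).real (cyl A X) :=
    measureReal_mono Set.inter_subset_left
  have hq0 : 0 ≤ (ν : Measure _).real (cyl A X ∩ {F | F e = true}) := measureReal_nonneg
  obtain ⟨p, hpp⟩ : ∃ p, p = (ν : Measure _).real (cyl A X) := ⟨_, rfl⟩
  obtain ⟨q, hqq⟩ : ∃ q, q = (ν : Measure _).real (cyl A X ∩ {F | F e = true}) := ⟨_, rfl⟩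
  rw [← hpp] at hp hqp ⊢
  rw [← hqq] at hq hqp hq0 ⊢
  induction e with
  | h x y =>
  by_cases hxy : G.Adj x y
  swap
  · rw [kM_LL_nonadj _ _ hxy, zero_mul]
    refine tendsto_nhds_unique hq (tendsto_const_nhds.congr fun n => ?_)
    rw [ust_cyl' (hK.1 n) (hK.2.1 n), Finset.filter_false_of_mem]
    · simp
    · intro T hT h
      exact hxy ((K n).adj_sub (((mem_TT _ _ _ _).1 hT).le h))
  rcases eq_or_lt_of_le (hq0.trans hqp) with h0 | h0
  · rw [← h0] at hqp ⊢
    rw [mul_zero]; exact le_antisymm hqp hq0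
  have hO := cl_Co (dart (A : Set (Sym2 V))ᶜ)
  have hin : ∀ c, ⟪chiV x y, pr (Co (dart (A : Set (Sym2 V))ᶜ)) c⟫_ℝ = ⟪chiV x y, c⟫_ℝ := by
    intro c
    rw [← pr_inner, pr_self (chiV_mem_O he)]
  have ha : kM (LL G A X) s(x, y) ≤ q / p := by
    rw [kM_mk, div_le_iff₀ two_pos]
    apply norm_pr_RR_le hO _ (by positivity)
    intro c hc
    have := le_of_tendsto_of_tendsto (hp.mul_const _) ((hq.const_mul 2).mul_const _)
      (((ev_adj hK hxy).filter_mono hL).mono fun n hn => ust_a (hK.1 n) (hK.2.1 n) A X hn he hc)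
    rw [hin, div_mul_eq_mul_div, div_mul_eq_mul_div, le_div_iff₀ h0]
    linarith
  have hb : kM (LS G A X) s(x, y) ≤ (p - q) / p := by
    rw [kM_mk, div_le_iff₀ two_pos]
    have hpq : 0 ≤ p - q := by linarith
    apply norm_pr_RR_le hO _ (by positivity)
    intro c hc
    have hfin : (dart (sD (A : Set (Sym2 V)) X)).Finite :=
      finite_dart (A.finite_toSet.subset fun f hf => hf.1)
    have hclosed : IsClosed {c : HS V | p * |⟪chiV x y, c⟫_ℝ| ≤
        √(2 * p * (p - q) * ‖pr (Co (dart (A : Set (Sym2 V))ᶜ)) c‖ ^ 2) +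
          p * ∑ r ∈ hfin.toFinset, |co c r|} := by
      unfold co
      exact isClosed_le (by fun_prop) (by fun_prop)
    have h1 := closure_minimal (s := ⋃ S, (CycS G.Adj S : Set (HS V))) ?_ hclosed
      (exists_approx G hc.1)
    · simp only [Set.mem_ofPred_eq] at h1
      rw [Finset.sum_eq_zero, mul_zero, add_zero] at h1
      · have h2 := (Real.le_sqrt (by positivity) (by positivity)).1 h1
        rw [mul_pow, sq_abs] at h2
        rw [hin, div_mul_eq_mul_div, div_mul_eq_mul_div, le_div_iff₀ h0]
        apply le_of_mul_le_mul_left _ h0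
        linarith
      · intro r hr
        have := hc.2
        rw [cD, Co_orth] at this
        rw [mem_Co.1 this r (not_not.2 (hfin.mem_toFinset.1 hr)), abs_zero]
    · intro c hc
      obtain ⟨S, hS⟩ := Set.mem_iUnion.1 hc
      have e1 : ∀ᶠ n in atTop, ∀ v ∈ S, v ∈ (K n).verts :=
        (eventually_all_finset S).2 fun v _ => ev_vert hK v
      have e2 : ∀ᶠ n in atTop, ∀ v ∈ S, ∀ w ∈ S, G.Adj v w → (K n).Adj v w :=
        (eventually_all_finset S).2 fun v _ => (eventually_all_finset S).2 fun w _ => by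
          by_cases h : G.Adj v w
          · exact (ev_adj hK h).mono fun n hn _ => hn
          · simp [h]
      refine le_of_tendsto_of_tendsto (hp.mul_const _)
        ((((hp.const_mul 2).mul (hp.sub hq)).mul_const _).sqrt.add (hp.mul_const _)) ?_
      filter_upwards [hL (ev_adj hK hxy), hL e1, hL e2] with n h1 h2 h3
      exact ust_b (hK.1 n) (hK.2.1 n) A X h1 he h2 h3 hS fun r hr => hfin.mem_toFinset.2 hr
  have hc := k_add_finite G A.finite_toSet X hxy.ne he
  rw [le_div_iff₀ h0] at ha hb
  have : (kM (LL G A X) s(x, y) + kM (LS G A X) s(x, y)) * p = p := by rw [hc, one_mul]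
  linarith

lemma exists_exhaustion (hG : G.Connected) : ∃ K, IsExhaustion G K := by
  have := hG.nonempty
  obtain ⟨f, hf⟩ := exists_surjective_nat V
  have h1 : ∀ (t : Finset V) (v : V), ∃ t' : Finset V, insert v t ⊆ t' ∧
      (G.induce (t' : Set V)).Connected := fun t v =>
    extend_finset_to_connected hG.preconnected (Finset.insert_nonempty v t)
  choose g hg using h1
  let S : ℕ → Finset V := fun n => Nat.rec (g ∅ (f 0)) (fun n t => g t (f (n + 1))) n
  have hS1 : ∀ n, f n ∈ S n := by
    rintro (_ | n)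
    · exact (hg _ _).1 (Finset.mem_insert_self _ _)
    · exact (hg _ _).1 (Finset.mem_insert_self _ _)
  have hS2 : Monotone S := monotone_nat_of_le_succ fun n =>
    (Finset.subset_insert _ _).trans (hg (S n) (f (n + 1))).1
  have hS3 : ∀ n, (G.induce (SetLike.coe (S n))).Connected := by
    rintro (_ | n)
    · exact (hg _ _).2
    · exact (hg _ _).2
  refine ⟨fun n => (⊤ : G.Subgraph).induce (SetLike.coe (S n)), fun n => (S n).finite_toSet,
    fun n => connected_induce_iff.1 (hS3 n),
    fun m n h => Subgraph.induce_mono_right (hS2 h), ?_⟩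
  refine top_le_iff.1 ⟨fun v _ => ?_, fun v w h => ?_⟩
  · obtain ⟨n, rfl⟩ := hf v
    rw [Subgraph.verts_iSup]
    exact Set.mem_iUnion.2 ⟨n, hS1 n⟩
  · obtain ⟨n, rfl⟩ := hf v
    obtain ⟨m, rfl⟩ := hf w
    exact Subgraph.iSup_adj.2 ⟨max n m, hS2 (le_max_left _ _) (hS1 n),
      hS2 (le_max_right _ _) (hS1 m), h⟩

lemma exists_det (hG : G.Connected) : ∃ ν : ProbabilityMeasure (Sym2 V → Bool), Det G ν := by
  obtain ⟨K, hK⟩ := exists_exhaustion hG
  exact ⟨_, det_of_tendsto hK (Ultrafilter.of_le atTop)
    (Ultrafilter.le_nhds_lim ((Ultrafilter.of atTop).map (ustP hK)))⟩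

def nu (G : SimpleGraph V) : Measure (Sym2 V → Bool) :=
  if h : G.Connected then (exists_det h).choose else Measure.dirac fun _ => false

instance (G : SimpleGraph V) : IsProbabilityMeasure (nu G) := by
  unfold nu; split_ifs <;> infer_instance

lemma det_nu (hG : G.Connected) : Det G (nu G) := by
  rw [nu, dif_pos hG]; exact (exists_det hG).choose_spec

theorem isFUSF_nu (hG : G.Connected) : IsFUSF G (nu G) := by
  refine ⟨inferInstance, exists_exhaustion hG, fun K hK => ?_⟩
  have : Tendsto (ustP hK) atTop (𝓝 ⟨nu G, inferInstance⟩) := by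
    rw [tendsto_iff_ultrafilter]
    intro g hg
    have h1 : Tendsto (ustP hK) g (𝓝 (g.map (ustP hK)).lim) :=
      Ultrafilter.le_nhds_lim (g.map (ustP hK))
    have h2 : (g.map (ustP hK)).lim = ⟨nu G, inferInstance⟩ :=
      Subtype.ext ((det_of_tendsto hK hg h1).unique (det_nu hG))
    rwa [h2] at h1
  exact ProbabilityMeasure.tendsto_iff_forall_integral_tendsto.1 this

def rel {α : Type*} (σ : Equiv.Perm V) (F : Sym2 V → α) : Sym2 V → α := fun e => F (e.map σ)

omit [Countable V] in
lemma measurable_rel {α : Type*} [MeasurableSpace α] (σ : Equiv.Perm V) :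
    Measurable (rel σ : (Sym2 V → α) → _) :=
  measurable_pi_lambda _ fun _ => measurable_pi_apply _

omit [Countable V] in
lemma map_symm_map (σ : Equiv.Perm V) (e : Sym2 V) : (e.map σ).map σ.symm = e := by
  rw [Sym2.map_map]; simp

omit [Countable V] in
lemma map_map_symm (σ : Equiv.Perm V) (e : Sym2 V) : (e.map σ.symm).map σ = e := by
  rw [Sym2.map_map]; simp

omit [Countable V] in
lemma Det.comap {ν : Measure (Sym2 V → Bool)} (h : Det G ν) (σ : Equiv.Perm V) :
    Det (G.comap σ) (ν.map (rel σ)) := by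
  intro A X e he
  have hinj : Function.Injective (Sym2.map σ) := Sym2.map.injective σ.injective
  have h1 : rel σ ⁻¹' cyl A X = cyl (A.image (Sym2.map σ)) (rel σ.symm X) := by
    ext F
    simp [cyl, rel, map_symm_map]
  rw [map_measureReal_apply (measurable_rel σ) (meas_cyl _ _),
    map_measureReal_apply (measurable_rel σ) ((meas_cyl _ _).inter (meas_eval _ _)),
    Set.preimage_inter, h1, kM_LL_comap σ G (A := A.image (Sym2.map σ)) (X := rel σ.symm X)
      (fun e => by simp [hinj.eq_iff]) (fun e => by simp [rel, map_symm_map])]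
  exact h _ _ (e.map σ) (by simpa [hinj.eq_iff] using he)

lemma nu_comap (G : SimpleGraph V) (σ : Equiv.Perm V) :
    nu (G.comap σ) = (nu G).map (rel σ) := by
  by_cases hG : G.Connected
  · have := Measure.isProbabilityMeasure_map (μ := nu G) (measurable_rel σ).aemeasurable
    exact (det_nu ((Iso.comap σ G).connected_iff.2 hG)).unique ((det_nu hG).comap σ)
  · rw [nu, nu, dif_neg hG, dif_neg (mt (Iso.comap σ G).connected_iff.1 hG),
      Measure.map_dirac' (measurable_rel σ)]
    rfl

omit [Countable V] in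
lemma meas_adj (x y : V) : MeasurableSet {G : SimpleGraph V | G.Adj x y} :=
  measurableSet_setOfPred.2 ((SimpleGraph.measurable_iff_adj.1 measurable_id) x y)

lemma meas_connected : MeasurableSet {G : SimpleGraph V | G.Connected} := by
  have h1 : ∀ (n : ℕ) (x y : V), MeasurableSet {G : SimpleGraph V |
      ∃ p : G.Walk x y, p.length = n} := by
    intro n
    induction n with
    | zero =>
      intro x y
      simp only [Walk.exists_length_eq_zero_iff]
      exact MeasurableSet.const _
    | succ n ih =>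
      intro x y
      have : {G : SimpleGraph V | ∃ p : G.Walk x y, p.length = n + 1} =
          ⋃ z, {G | G.Adj x z} ∩ {G | ∃ p : G.Walk z y, p.length = n} := by
        ext G
        simp only [Set.mem_ofPred_eq, Set.mem_iUnion, Set.mem_inter_iff]
        constructor
        · rintro ⟨p, hp⟩
          cases p with
          | nil => simp at hp
          | cons h p => exact ⟨_, h, p, by simpa using hp⟩
        · rintro ⟨z, h, p, hp⟩
          exact ⟨Walk.cons h p, by simp [hp]⟩
      rw [this]
      exact MeasurableSet.iUnion fun z => (meas_adj x z).inter (ih z y)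
  have : {G : SimpleGraph V | G.Connected} = {G | Nonempty V} ∩
      ⋂ x, ⋂ y, ⋃ n, {G : SimpleGraph V | ∃ p : G.Walk x y, p.length = n} := by
    ext G
    simp only [connected_iff, Preconnected, Reachable, Set.mem_ofPred_eq, Set.mem_inter_iff,
      Set.mem_iInter, Set.mem_iUnion]
    exact ⟨fun h => ⟨h.2, fun x y => (h.1 x y).elim fun p => ⟨_, p, rfl⟩⟩,
      fun h => ⟨fun x y => (h.2 x y).elim fun _ h => ⟨h.choose⟩, h.1⟩⟩
  rw [this]
  exact (MeasurableSet.const _).inter
    (.iInter fun x => .iInter fun y => .iUnion fun n => h1 n x y)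

lemma measurable_nu : Measurable (nu : SimpleGraph V → _) := by
  refine Measurable.measure_of_isPiSystem_of_isProbabilityMeasure generate_cyls isPiSystem_cyls ?_
  rintro _ ⟨A, X, rfl⟩
  have : Measurable fun G : SimpleGraph V => (nu G).real (cyl A X) := by
    induction A using Finset.induction_on with
    | empty => simp [cyl_empty]
    | insert e A he ih =>
      have hk : Measurable fun G : SimpleGraph V => kM (LL G A X) e :=
        (MS_LL measurable_id (fun _ => MeasurableSet.const _) measurable_const).kM e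
      have : (fun G : SimpleGraph V => (nu G).real (cyl (insert e A) X)) = fun G =>
          if G.Connected then (if X e = true then kM (LL G A X) e else 1 - kM (LL G A X) e) *
            (nu G).real (cyl A X)
          else (Measure.dirac fun _ => false).real (cyl (insert e A) X) := by
        funext G
        split_ifs with h1 h2
        · rw [(det_nu h1).insert X he, if_pos h2]
        · rw [(det_nu h1).insert X he, if_neg h2]
        · rw [nu, dif_neg h1]
      rw [this]
      refine Measurable.ite meas_connected (Measurable.mul ?_ ih) measurable_const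
      split_ifs
      · exact hk
      · exact hk.const_sub 1
  simpa [Measure.real] using this.ennreal_ofReal

end

end Vale.Agent.P143
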