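import Vale.Agent.P143.Dim
import Vale.Agent.P143.Kirch

open MeasureTheory Filter Topology ContinuousLinearMap
open scoped InnerProductSpace ENNReal Classical

namespace Vale.Agent.P143

noncomputable section

def HS (V : Type*) : Type _ := lp (fun _ : V × V => ℝ) 2

variable {V : Type*}

instance : NormedAddCommGroup (HS V) :=
  inferInstanceAs (NormedAddCommGroup (lp (fun _ : V × V => ℝ) 2))
instance : InnerProductSpace ℝ (HS V) :=
  inferInstanceAs (InnerProductSpace ℝ (lp (fun _ : V × V => ℝ) 2))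
instance : CompleteSpace (HS V) := inferInstanceAs (CompleteSpace (lp (fun _ : V × V => ℝ) 2))

def bs (V : Type*) : HilbertBasis (V × V) ℝ (HS V) :=
  HilbertBasis.ofRepr (LinearIsometryEquiv.refl ℝ (lp (fun _ : V × V => ℝ) 2))

def co (v : HS V) (p : V × V) : ℝ := ⟪bs V p, v⟫_ℝ

lemma co_bs (p q : V × V) : co (bs V q) p = if p = q then 1 else 0 :=
  orthonormal_iff_ite.1 (bs V).orthonormal p q

lemma co_add (u v : HS V) (p) : co (u + v) p = co u p + co v p := inner_add_right _ _ _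
lemma co_sub (u v : HS V) (p) : co (u - v) p = co u p - co v p := inner_sub_right _ _ _

lemma hasSum_co (u v : HS V) : HasSum (fun p => co u p * co v p) ⟪u, v⟫_ℝ := by
  have := (bs V).hasSum_inner_mul_inner u v
  simpa only [co, real_inner_comm u] using this

lemma inner_eq_zero_of_co {u v : HS V} (h : ∀ p, co u p = 0 ∨ co v p = 0) : ⟪u, v⟫_ℝ = 0 := by
  rw [← (hasSum_co u v).tsum_eq]
  have : ∀ p, co u p * co v p = 0 := fun p => mul_eq_zero.2 (h p)
  simp [this]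

def sig (σ : Equiv.Perm V) : Equiv.Perm (V × V) := σ.prodCongr σ

def bsσ (σ : Equiv.Perm V) : HilbertBasis (V × V) ℝ (HS V) :=
  HilbertBasis.mk (v := fun p => bs V (sig σ p)) ((bs V).orthonormal.comp _ (sig σ).injective)
    (by
      have : Set.range (fun p => bs V (sig σ p)) = Set.range (bs V) :=
        (sig σ).surjective.range_comp _
      rw [this, (bs V).dense_span])

def UU (σ : Equiv.Perm V) : HS V ≃ₗᵢ[ℝ] HS V := (bsσ σ).repr.trans (bs V).repr.symm

lemma co_UU (σ : Equiv.Perm V) (v : HS V) (p : V × V) :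
    co (UU σ v) p = co v (σ p.1, σ p.2) := by
  unfold co
  rw [← (bs V).repr_apply_apply, UU, LinearIsometryEquiv.trans_apply,
    LinearIsometryEquiv.apply_symm_apply, (bsσ σ).repr_apply_apply, bsσ, HilbertBasis.coe_mk]
  rfl

lemma ext_co {u v : HS V} (h : ∀ p, co u p = co v p) : u = v := by
  rw [← sub_eq_zero, ← inner_self_eq_zero (𝕜 := ℝ)]
  exact inner_eq_zero_of_co fun p => Or.inl (by rw [co_sub, h, sub_self])

lemma UU_bs (σ : Equiv.Perm V) (x y : V) : UU σ (bs V (σ x, σ y)) = bs V (x, y) :=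
  ext_co fun p => by
    rw [co_UU, co_bs, co_bs]
    obtain ⟨a, c⟩ := p
    simp

/-- coordinate subspace -/
def Co (B : Set (V × V)) : Submodule ℝ (HS V) := (Submodule.span ℝ (bs V '' Bᶜ))ᗮ

lemma mem_Co {B : Set (V × V)} {v : HS V} : v ∈ Co B ↔ ∀ p, p ∉ B → co v p = 0 := by
  unfold Co
  rw [Submodule.mem_orthogonal]
  constructor
  · intro h p hp
    exact h _ (Submodule.subset_span ⟨p, hp, rfl⟩)
  · intro h u hu
    induction hu using Submodule.span_induction with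
    | mem x hx => obtain ⟨p, hp, rfl⟩ := hx; exact h p hp
    | zero => simp
    | add x y _ _ hx hy => rw [inner_add_left, hx, hy, add_zero]
    | smul a x _ hx => rw [inner_smul_left, hx, mul_zero]

lemma cl_Co (B : Set (V × V)) : Cl (Co B) := Cl.orth _

lemma bs_mem_Co {B : Set (V × V)} {p : V × V} (hp : p ∈ B) : bs V p ∈ Co B :=
  mem_Co.2 fun q hq => by
    rw [co_bs, if_neg]; rintro rfl; exact hq hp

lemma Co_orth (B : Set (V × V)) : (Co B)ᗮ = Co Bᶜ := by
  ext v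
  constructor
  · intro h
    exact mem_Co.2 fun p hp => inner_zero_of_mem (bs_mem_Co (not_not.1 hp)) h
  · intro h
    refine mem_orth fun u hu => inner_eq_zero_of_co fun p => ?_
    by_cases hp : p ∈ B
    · exact Or.inr (mem_Co.1 h p (not_not.2 hp))
    · exact Or.inl (mem_Co.1 hu p hp)

lemma Co_inf (B C : Set (V × V)) : Co B ⊓ Co C = Co (B ∩ C) := by
  ext v
  simp only [Submodule.mem_inf, mem_Co, Set.mem_inter_iff, not_and_or]
  exact ⟨fun h p hp => hp.elim (h.1 p) (h.2 p),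
    fun h => ⟨fun p hp => h p (Or.inl hp), fun p hp => h p (Or.inr hp)⟩⟩

lemma Co_mono {B C : Set (V × V)} (h : B ⊆ C) : Co B ≤ Co C :=
  fun _ hv => mem_Co.2 fun p hp => mem_Co.1 hv p fun h' => hp (h h')

lemma pr_Co_bs (B : Set (V × V)) (p : V × V) :
    pr (Co B) (bs V p) = if p ∈ B then bs V p else 0 := by
  split_ifs with h
  · exact pr_self (bs_mem_Co h)
  · apply pr_zero; rw [Co_orth]; exact bs_mem_Co h

lemma co_pr_Co (B : Set (V × V)) (v : HS V) (p : V × V) :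
    co (pr (Co B) v) p = if p ∈ B then co v p else 0 := by
  unfold co
  rw [← pr_inner, pr_Co_bs]
  split_ifs <;> simp

lemma norm_bs (p : V × V) : ‖bs V p‖ = 1 := (bs V).orthonormal.1 p

lemma sum_sq_le_pr {B : Set (V × V)} {s : Finset (V × V)} (hs : ∀ p ∈ s, p ∈ B) (v : HS V) :
    ∑ p ∈ s, co v p ^ 2 ≤ ‖pr (Co B) v‖ ^ 2 := by
  have := (bs V).orthonormal.sum_inner_products_le (pr (Co B) v) (s := s)
  refine le_trans (le_of_eq (Finset.sum_congr rfl fun p hp => ?_)) this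
  have h := co_pr_Co B v p
  rw [if_pos (hs p hp)] at h
  rw [← h, Real.norm_eq_abs, sq_abs]; rfl

section meas
variable {Ω : Type*} [MeasurableSpace Ω] [Countable V]

lemma Meas.of_co {T : Ω → HS V →L[ℝ] HS V} (h : ∀ u p, Measurable fun ω => co (T ω u) p) :
    Meas T := fun u v => by
  refine measurable_of_tendsto_metrizable' (atTop : Filter (Finset (V × V)))
    (f := fun s ω => ∑ p ∈ s, co (T ω u) p * co v p) (fun s => ?_)
    (tendsto_pi_nhds.2 fun ω => hasSum_co (T ω u) v)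
  exact Finset.measurable_sum s fun p _ => (h u p).mul_const _

lemma MS.co {B : Ω → Set (V × V)} (h : ∀ p, MeasurableSet {ω | p ∈ B ω}) :
    MS fun ω => Co (B ω) :=
  ⟨fun _ => cl_Co _, Meas.of_co fun u p => by
    simp only [co_pr_Co]
    exact Measurable.ite (h p) measurable_const measurable_const⟩

end meas

/-! ### cycle space -/

def star (a : V → V → Prop) (S : Finset V) (v : V) : HS V :=
  ∑ w ∈ S, if a v w then bs V (v, w) - bs V (w, v) else 0

def CycS (a : V → V → Prop) (S : Finset V) : Submodule ℝ (HS V) :=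
  Co ((S ×ˢ S : Finset (V × V)) : Set (V × V)) ⊓ (Submodule.span ℝ (star a S '' S))ᗮ

lemma cl_CycS (a : V → V → Prop) (S : Finset V) : Cl (CycS a S) := (cl_Co _).inf (Cl.orth _)

lemma mem_CycS {a : V → V → Prop} {S : Finset V} {c : HS V} :
    c ∈ CycS a S ↔ (∀ p, p ∉ S ×ˢ S → co c p = 0) ∧
      ∀ v ∈ S, ∑ w ∈ S, (if a v w then co c (v, w) - co c (w, v) else 0) = 0 := by
  have e : ∀ v, ⟪star a S v, c⟫_ℝ = ∑ w ∈ S, (if a v w then co c (v, w) - co c (w, v) else 0) := by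
    intro v
    rw [star, sum_inner]
    refine Finset.sum_congr rfl fun w _ => ?_
    split_ifs
    · rw [inner_sub_left]; rfl
    · simp
  unfold CycS
  rw [Submodule.mem_inf, mem_Co, Submodule.mem_orthogonal]
  refine and_congr (by simp only [Finset.mem_coe]) ⟨fun h v hv => ?_, fun h u hu => ?_⟩
  · rw [← e]; exact h _ (Submodule.subset_span ⟨v, hv, rfl⟩)
  · induction hu using Submodule.span_induction with
    | mem x hx => obtain ⟨p, hp, rfl⟩ := hx; rw [e]; exact h p hp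
    | zero => simp
    | add x y _ _ hx hy => rw [inner_add_left, hx, hy, add_zero]
    | smul a x _ hx => rw [inner_smul_left, hx, mul_zero]

lemma CycS_mono (a : V → V → Prop) : Monotone (CycS a) := by
  intro S S' hS c hc
  rw [mem_CycS] at hc ⊢
  refine ⟨fun p hp => hc.1 p fun h => hp (Finset.product_subset_product hS hS h), fun v _ => ?_⟩
  by_cases hv : v ∈ S
  · refine (Finset.sum_subset hS fun w _ hw => ?_).symm.trans (hc.2 v hv)
    rw [hc.1 (v, w) (by simp [hw]), hc.1 (w, v) (by simp [hw])]; simp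
  · refine Finset.sum_eq_zero fun w _ => ?_
    rw [hc.1 (v, w) (by simp [hv]), hc.1 (w, v) (by simp [hv])]; simp

lemma CycS_congr {a a' : V → V → Prop} {S : Finset V} (h : ∀ v ∈ S, ∀ w ∈ S, a v w ↔ a' v w) :
    CycS a S = CycS a' S := by
  ext c
  rw [mem_CycS, mem_CycS]
  refine and_congr_right fun _ => forall₂_congr fun v hv => ?_
  rw [Finset.sum_congr rfl fun w hw => by rw [h v hv w hw]]

def HH (G : SimpleGraph V) : Submodule ℝ (HS V) := (⨆ S, CycS G.Adj S)ᗮ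

lemma mem_HH {G : SimpleGraph V} {h : HS V} :
    h ∈ HH G ↔ ∀ S, ∀ c ∈ CycS G.Adj S, ⟪c, h⟫_ℝ = 0 := by
  unfold HH
  rw [← Submodule.iInf_orthogonal, Submodule.mem_iInf]
  rfl

lemma UU_mem_CycS (σ : Equiv.Perm V) (G : SimpleGraph V) (S : Finset V) (c : HS V) :
    UU σ c ∈ CycS (G.comap σ).Adj S ↔ c ∈ CycS G.Adj (S.map σ.toEmbedding) := by
  rw [mem_CycS, mem_CycS]
  simp only [co_UU, Finset.sum_map, Finset.forall_mem_map, Equiv.coe_toEmbedding,
    SimpleGraph.comap_adj]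
  refine and_congr ⟨fun h p hp => ?_, fun h p hp => h _ (by simpa using hp)⟩ Iff.rfl
  have := h (σ.symm p.1, σ.symm p.2) (by simpa using hp)
  simpa using this

lemma UU_mem_HH (σ : Equiv.Perm V) (G : SimpleGraph V) (h : HS V) :
    UU σ h ∈ HH (G.comap σ) ↔ h ∈ HH G := by
  rw [mem_HH, mem_HH]
  constructor
  · intro H S c hc
    rw [← (UU σ).inner_map_map]
    refine H (S.map σ.symm.toEmbedding) _ ((UU_mem_CycS σ G _ c).2 ?_)
    simpa [Finset.map_map] using hc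
  · intro H S c hc
    obtain ⟨c, rfl⟩ := (UU σ).surjective c
    rw [(UU σ).inner_map_map]
    exact H _ _ ((UU_mem_CycS σ G _ c).1 hc)

lemma UU_mem_Co (σ : Equiv.Perm V) {B B' : Set (V × V)}
    (h : ∀ p : V × V, p ∈ B' ↔ (σ p.1, σ p.2) ∈ B) (v : HS V) : UU σ v ∈ Co B' ↔ v ∈ Co B := by
  simp only [mem_Co, co_UU, h]
  refine ⟨fun H p hp => ?_, fun H p hp => H _ hp⟩
  simpa using H (σ.symm p.1, σ.symm p.2) (by simpa using hp)

lemma MS_HH [Countable V] : MS (HH : SimpleGraph V → _) := by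
  apply MS.orth'
  intro u v
  have hS : ∀ S : Finset V, Measurable fun G : SimpleGraph V => ⟪pr (CycS G.Adj S) u, v⟫_ℝ := by
    intro S
    have h1 : Measurable fun (G : SimpleGraph V) (p : S × S) => G.Adj p.1 p.2 :=
      measurable_pi_lambda _ fun p => (SimpleGraph.measurable_iff_adj.1 measurable_id) _ _
    have h2 : Measurable fun a : S × S → Prop =>
        ⟪pr (CycS (fun x y => ∃ hx hy, a (⟨x, hx⟩, ⟨y, hy⟩)) S) u, v⟫_ℝ := measurable_of_finite _
    convert h2.comp h1 using 2 with G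
    simp only [Function.comp]
    rw [CycS_congr (a := G.Adj) (a' := fun x y => ∃ (hx : x ∈ S) (hy : y ∈ S), G.Adj x y)
      (fun v hv w hw => by simp [hv, hw])]
  refine measurable_of_tendsto_metrizable' (atTop : Filter (Finset V)) hS
    (tendsto_pi_nhds.2 fun G => ?_)
  have hm : Monotone fun S => (CycS G.Adj S)ᗮᗮ := fun S S' h =>
    Submodule.orthogonal_le (Submodule.orthogonal_le (CycS_mono _ h))
  have := Submodule.starProjection_tendsto_closure_iSup (fun S => (CycS G.Adj S)ᗮᗮ) hm u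
  have e : (⨆ S, (CycS G.Adj S)ᗮᗮ).topologicalClosure = (⨆ S, CycS G.Adj S)ᗮᗮ := by
    rw [Submodule.orthogonal_orthogonal_eq_closure]
    congr 2
    funext S
    exact cl_CycS _ _
  have e2 : (⨆ S, (CycS G.Adj S)ᗮᗮ).topologicalClosure.starProjection u =
      pr (⨆ S, CycS G.Adj S) u := by
    unfold pr
    simp only [e]
  rw [e2] at this
  exact this.inner tendsto_const_nhds

lemma exists_approx (G : SimpleGraph V) {c : HS V} (hc : c ∈ (HH G)ᗮ) :
    c ∈ closure (⋃ S, (CycS G.Adj S : Set (HS V))) := by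
  unfold HH at hc
  rw [Submodule.orthogonal_orthogonal_eq_closure] at hc
  rw [← Submodule.coe_iSup_of_directed _ (CycS_mono _).directed_le]
  exact hc

/-! ### the conditional probabilities -/

def dart (B : Set (Sym2 V)) : Set (V × V) := {p | s(p.1, p.2) ∈ B}

def sI (A : Set (Sym2 V)) (X : Sym2 V → Bool) : Set (Sym2 V) := {f | f ∈ A ∧ X f = true}
def sD (A : Set (Sym2 V)) (X : Sym2 V → Bool) : Set (Sym2 V) := {f | f ∈ A ∧ X f = false}

def cI (A : Set (Sym2 V)) (X : Sym2 V → Bool) : Submodule ℝ (HS V) := Co (dart (sI A X))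
def cD (A : Set (Sym2 V)) (X : Sym2 V → Bool) : Submodule ℝ (HS V) := Co (dart (sD A X))

lemma cO_eq (A : Set (Sym2 V)) (X : Sym2 V → Bool) :
    (cI A X)ᗮ ⊓ (cD A X)ᗮ = Co (dart Aᶜ) := by
  rw [cI, cD, Co_orth, Co_orth, Co_inf]
  congr 1
  ext p
  simp only [dart, sI, sD, Set.mem_inter_iff, Set.mem_compl_iff, Set.mem_ofPred_eq]
  cases X s(p.1, p.2) <;> simp

lemma cI_le (A : Set (Sym2 V)) (X : Sym2 V → Bool) : cI A X ≤ (cD A X)ᗮ := by
  rw [cI, cD, Co_orth]
  apply Co_mono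
  intro p hp hp'
  simp only [dart, sI, sD, Set.mem_ofPred_eq] at hp hp'
  simp [hp.2] at hp'

def LL (G : SimpleGraph V) (A : Set (Sym2 V)) (X : Sym2 V → Bool) : Submodule ℝ (HS V) :=
  RR (Co (dart Aᶜ)) (HH G ⊓ (cI A X)ᗮ)
def LS (G : SimpleGraph V) (A : Set (Sym2 V)) (X : Sym2 V → Bool) : Submodule ℝ (HS V) :=
  RR (Co (dart Aᶜ)) ((HH G)ᗮ ⊓ (cD A X)ᗮ)
def ZZ (G : SimpleGraph V) (A : Set (Sym2 V)) (X : Sym2 V → Bool) : Submodule ℝ (HS V) :=
  ((HH G ⊓ (cI A X)ᗮ)ᗮ ⊓ ((HH G)ᗮ ⊓ (cD A X)ᗮ)ᗮ) ⊓ ((cI A X)ᗮ ⊓ (cD A X)ᗮ)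

def chiV (x y : V) : HS V := bs V (x, y) - bs V (y, x)

def kM (M : Submodule ℝ (HS V)) : Sym2 V → ℝ :=
  Sym2.lift ⟨fun x y => ‖pr M (chiV x y)‖ ^ 2 / 2, fun x y => by
    simp only [chiV, map_sub]; rw [norm_sub_rev]⟩

lemma kM_mk (M : Submodule ℝ (HS V)) (x y : V) : kM M s(x, y) = ‖pr M (chiV x y)‖ ^ 2 / 2 := rfl

lemma inner_chiV (x y : V) (v : HS V) : ⟪chiV x y, v⟫_ℝ = co v (x, y) - co v (y, x) :=
  inner_sub_left _ _ _

lemma norm_chiV {x y : V} (h : x ≠ y) : ‖chiV x y‖ ^ 2 = 2 := by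
  rw [← real_inner_self_eq_norm_sq, inner_chiV, chiV, co_sub, co_sub]
  simp [co_bs, h, h.symm]; norm_num

lemma kM_nonneg (M : Submodule ℝ (HS V)) (e : Sym2 V) : 0 ≤ kM M e := by
  induction e with | h x y => rw [kM_mk]; positivity

lemma kM_le_one (M : Submodule ℝ (HS V)) (e : Sym2 V) : kM M e ≤ 1 := by
  induction e with
  | h x y =>
    rw [kM_mk]
    by_cases h : x = y
    · simp [chiV, h]
    · have h1 := norm_pr_le M (chiV x y)
      have h2 : ‖pr M (chiV x y)‖ ^ 2 ≤ ‖chiV x y‖ ^ 2 := by gcongr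
      rw [norm_chiV h] at h2
      linarith

lemma kM_eq {M : Submodule ℝ (HS V)} {x y : V} (h : bs V (x, y) + bs V (y, x) ∈ Mᗮ) :
    kM M s(x, y) = 2 * ‖pr M (bs V (x, y))‖ ^ 2 := by
  have h1 := pr_zero h
  rw [map_add] at h1
  rw [kM_mk, chiV, map_sub, eq_neg_of_add_eq_zero_right h1, sub_neg_eq_add, ← two_smul ℝ,
    norm_smul]
  simp; ring

lemma sym_mem_HH (G : SimpleGraph V) (x y : V) : bs V (x, y) + bs V (y, x) ∈ (HH G)ᗮ := by
  refine mem_orth fun h hh => ?_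
  rw [real_inner_comm]
  refine mem_HH.1 hh {x, y} _ (mem_CycS.2 ⟨fun p hp => ?_, fun v _ => ?_⟩)
  · rw [co_add, co_bs, co_bs, if_neg, if_neg, add_zero] <;> rintro rfl <;> simp at hp
  · refine Finset.sum_eq_zero fun w _ => ?_
    split_ifs
    · simp only [co_add, co_bs, Prod.mk.injEq, and_comm (a := w = _)]
      ring
    · rfl

lemma bs_mem_HH {G : SimpleGraph V} {x y : V} (hxy : ¬ G.Adj x y) : bs V (x, y) ∈ (HH G)ᗮ := by
  refine mem_orth fun h hh => ?_
  rw [real_inner_comm]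
  refine mem_HH.1 hh {x, y} _ (mem_CycS.2 ⟨fun p hp => ?_, fun v _ => ?_⟩)
  · rw [co_bs, if_neg]; rintro rfl; simp at hp
  · refine Finset.sum_eq_zero fun w _ => ?_
    split_ifs with h1
    · rw [co_bs, co_bs, if_neg, if_neg, sub_zero]
      · intro he; obtain ⟨rfl, rfl⟩ := Prod.mk.inj he; exact hxy h1.symm
      · intro he; obtain ⟨rfl, rfl⟩ := Prod.mk.inj he; exact hxy h1
    · rfl

lemma orth_RR_of {G : SimpleGraph V} {A : Set (Sym2 V)} {N : Submodule ℝ (HS V)} (hN : N ≤ HH G)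
    {x y : V} {v : HS V} (hv : v ∈ (HH G)ᗮ) (hv' : v ∈ Co (dart {s(x, y)})) :
    v ∈ (RR (Co (dart Aᶜ)) N)ᗮ := by
  refine mem_orth fun l hl => ?_
  by_cases h : s(x, y) ∈ A
  · refine inner_zero_of_mem hl.1 ?_
    rw [Co_orth]
    refine Co_mono (fun p hp => ?_) hv'
    simp only [dart, Set.mem_ofPred_eq, Set.mem_singleton_iff, Set.mem_compl_iff, not_not] at hp ⊢
    rwa [hp]
  · refine inner_zero_of_mem' hl.2 ⟨Co_mono (fun p hp => ?_) hv', Submodule.orthogonal_le hN hv⟩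
    simp only [dart, Set.mem_ofPred_eq, Set.mem_singleton_iff, Set.mem_compl_iff] at hp ⊢
    rwa [hp]

lemma bs_mem_dart (x y : V) : bs V (x, y) ∈ Co (dart {s(x, y)}) := bs_mem_Co rfl
lemma bs_mem_dart' (x y : V) : bs V (y, x) ∈ Co (dart {s(x, y)}) := bs_mem_Co Sym2.eq_swap

lemma sym_orth_RR {G : SimpleGraph V} {A : Set (Sym2 V)} {N : Submodule ℝ (HS V)} (hN : N ≤ HH G)
    (x y : V) : bs V (x, y) + bs V (y, x) ∈ (RR (Co (dart Aᶜ)) N)ᗮ :=
  orth_RR_of hN (sym_mem_HH G x y) (Submodule.add_mem _ (bs_mem_dart x y) (bs_mem_dart' x y))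

lemma kM_LL_nonadj {G : SimpleGraph V} (A : Set (Sym2 V)) (X : Sym2 V → Bool) {e : Sym2 V}
    (he : e ∉ G.edgeSet) : kM (LL G A X) e = 0 := by
  induction e with
  | h x y =>
    rw [LL, kM_eq (sym_orth_RR inf_le_left x y),
      pr_zero (orth_RR_of inf_le_left (bs_mem_HH he) (bs_mem_dart x y))]
    simp

lemma k_add {G : SimpleGraph V} {A : Set (Sym2 V)} (X : Sym2 V → Bool) {x y : V} (hxy : x ≠ y)
    (hA : s(x, y) ∉ A) : kM (LL G A X) s(x, y) + kM (LS G A X) s(x, y) +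
      2 * ‖pr (ZZ G A X) (bs V (x, y))‖ ^ 2 = 1 := by
  have h1 := norm_O_decomp (H := HH G) (cl_Co (dart (sI A X))) (cl_Co (dart (sD A X)))
    (cI_le A X) (chiV x y)
  have hsub : dart {s(x, y)} ⊆ dart Aᶜ := fun p hp => by
    simp only [dart, Set.mem_ofPred_eq, Set.mem_singleton_iff, Set.mem_compl_iff] at hp ⊢
    rwa [hp]
  have h2 : kM (ZZ G A X) s(x, y) = 2 * ‖pr (ZZ G A X) (bs V (x, y))‖ ^ 2 := by
    apply kM_eq
    refine mem_orth fun z hz => inner_zero_of_mem' hz.1.2 ⟨sym_mem_HH G x y, ?_⟩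
    have : bs V (x, y) + bs V (y, x) ∈ (cI A X)ᗮ ⊓ (cD A X)ᗮ := by
      rw [cO_eq]
      exact Co_mono hsub (Submodule.add_mem _ (bs_mem_dart x y) (bs_mem_dart' x y))
    exact this.2
  rw [← h2, kM_mk, kM_mk, kM_mk]
  change ‖pr ((cI A X)ᗮ ⊓ (cD A X)ᗮ) _‖ ^ 2 = ‖pr (RR ((cI A X)ᗮ ⊓ (cD A X)ᗮ) _) _‖ ^ 2 +
    ‖pr (RR ((cI A X)ᗮ ⊓ (cD A X)ᗮ) _) _‖ ^ 2 + ‖pr (ZZ G A X) _‖ ^ 2 at h1
  rw [cO_eq, pr_self (Co_mono hsub
    (Submodule.sub_mem _ (bs_mem_dart x y) (bs_mem_dart' x y)) : chiV x y ∈ _), norm_chiV hxy] at h1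
  unfold LL LS cI cD
  linarith

end

end Vale.Agent.P143
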