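import Vale.Agent.P143.Hilb

open MeasureTheory Filter Topology ContinuousLinearMap
open scoped InnerProductSpace ENNReal

namespace Vale.Agent.P143

noncomputable section

variable {E : Type*} [NormedAddCommGroup E] [InnerProductSpace ℝ E] [CompleteSpace E]

omit [CompleteSpace E] in
lemma mapp (S T : E →L[ℝ] E) (v : E) : (S * T) v = S (T v) := rfl

/-- `1 - T T†` -/
def SS (T : E →L[ℝ] E) : E →L[ℝ] E := 1 - T * adjoint T

lemma SS_apply (T : E →L[ℝ] E) (v : E) : SS T v = v - T (adjoint T v) := rfl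

lemma SS_inner (T : E →L[ℝ] E) (u v : E) : ⟪SS T u, v⟫_ℝ = ⟪u, SS T v⟫_ℝ := by
  simp only [SS_apply, inner_sub_left, inner_sub_right]
  rw [← adjoint_inner_right T, ← adjoint_inner_left T]

lemma SS_pow_inner (T : E →L[ℝ] E) (j : ℕ) (u v : E) :
    ⟪(SS T ^ j) u, v⟫_ℝ = ⟪u, (SS T ^ j) v⟫_ℝ := by
  induction j generalizing u v with
  | zero => simp
  | succ j ih =>
    conv_lhs => rw [pow_succ']
    conv_rhs => rw [pow_succ]
    simp only [mapp]
    rw [SS_inner, ih]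

lemma adjoint_SS_pow (T : E →L[ℝ] E) (j : ℕ) : adjoint (SS T ^ j) = SS T ^ j := by
  symm
  rw [eq_adjoint_iff]
  exact SS_pow_inner T j

lemma SS_inner_self (T : E →L[ℝ] E) (v : E) : ⟪SS T v, v⟫_ℝ = ‖v‖ ^ 2 - ‖adjoint T v‖ ^ 2 := by
  simp only [SS_apply, inner_sub_left]
  rw [← adjoint_inner_right T, real_inner_self_eq_norm_sq, real_inner_self_eq_norm_sq]

omit [CompleteSpace E] in
lemma norm_apply_le_of {T : E →L[ℝ] E} (hT : ‖T‖ ≤ 1) (v : E) : ‖T v‖ ≤ ‖v‖ :=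
  (T.le_opNorm v).trans (by nlinarith [norm_nonneg v])

lemma norm_adjoint_le {T : E →L[ℝ] E} (hT : ‖T‖ ≤ 1) : ‖adjoint T‖ ≤ 1 := by
  rwa [LinearIsometryEquiv.norm_map]

lemma norm_SS_le {T : E →L[ℝ] E} (hT : ‖T‖ ≤ 1) : ‖SS T‖ ≤ 1 := by
  apply opNorm_le_bound _ zero_le_one
  intro v
  rw [one_mul]
  have h1 : ‖T (adjoint T v)‖ ≤ ‖adjoint T v‖ := norm_apply_le_of hT _
  have h2 : ‖SS T v‖ ^ 2 = ‖v‖ ^ 2 - 2 * ‖adjoint T v‖ ^ 2 + ‖T (adjoint T v)‖ ^ 2 := by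
    rw [SS_apply, norm_sub_sq_real, ← adjoint_inner_left T, real_inner_self_eq_norm_sq]
  have h3 : ‖T (adjoint T v)‖ ^ 2 ≤ ‖adjoint T v‖ ^ 2 := by gcongr
  have h4 : ‖SS T v‖ ^ 2 ≤ ‖v‖ ^ 2 := by nlinarith [sq_nonneg ‖adjoint T v‖]
  exact (pow_le_pow_iff_left₀ (norm_nonneg _) (norm_nonneg _) two_ne_zero).1 h4

lemma norm_SS_pow_apply {T : E →L[ℝ] E} (hT : ‖T‖ ≤ 1) (j : ℕ) (v : E) :
    ‖(SS T ^ j) v‖ ≤ ‖v‖ := by
  induction j with
  | zero => simp
  | succ j ih => rw [pow_succ', mapp]; exact (norm_apply_le_of (norm_SS_le hT) _).trans ih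

lemma SS_pow_nonneg {T : E →L[ℝ] E} (hT : ‖T‖ ≤ 1) (j : ℕ) (v : E) :
    0 ≤ ⟪(SS T ^ j) v, v⟫_ℝ := by
  obtain ⟨i, rfl | rfl⟩ := Nat.even_or_odd' j
  · rw [two_mul, pow_add, mapp, SS_pow_inner, real_inner_self_eq_norm_sq]; positivity
  · rw [show 2 * i + 1 = i + (1 + i) by ring, pow_add, mapp, SS_pow_inner, pow_add, pow_one,
      mapp, SS_inner_self]
    have := norm_apply_le_of (norm_adjoint_le hT) ((SS T ^ i) v)
    have h3 : ‖adjoint T ((SS T ^ i) v)‖ ^ 2 ≤ ‖(SS T ^ i) v‖ ^ 2 := by gcongr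
    linarith

lemma SS_intertwine (T : E →L[ℝ] E) (j : ℕ) : SS T ^ j * T = T * SS (adjoint T) ^ j := by
  induction j with
  | zero => simp
  | succ j ih =>
    have : SS T * T = T * SS (adjoint T) := by
      simp only [SS, adjoint_adjoint, sub_mul, mul_sub, one_mul, mul_one, mul_assoc]
    rw [pow_succ', mul_assoc, ih, ← mul_assoc, this, mul_assoc, ← pow_succ']

lemma term_nonneg {T : E →L[ℝ] E} (hT : ‖T‖ ≤ 1) (j : ℕ) (v : E) :
    0 ≤ ⟪((SS T ^ j * T) * adjoint T) v, v⟫_ℝ := by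
  rw [SS_intertwine, mapp, mapp, ← adjoint_inner_right T]
  exact SS_pow_nonneg (norm_adjoint_le hT) j _

lemma hasSum_range {T : E →L[ℝ] E} (hT : ‖T‖ ≤ 1) {M : Submodule ℝ E} (hM : Cl M)
    (h : ∀ x, adjoint T x = 0 ↔ x ∈ M) (v : E) :
    HasSum (fun j => ⟪((SS T ^ j * T) * adjoint T) v, v⟫_ℝ) (‖pr Mᗮ v‖ ^ 2) := by
  obtain ⟨a, ha⟩ : ∃ a : ℕ → ℝ, a = fun k => ⟪(SS T ^ k) v, v⟫_ℝ := ⟨_, rfl⟩
  have hd : ∀ j, ⟪((SS T ^ j * T) * adjoint T) v, v⟫_ℝ = a j - a (j + 1) := by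
    intro j
    have : (SS T ^ j * T) * adjoint T = SS T ^ j - SS T ^ (j + 1) := by
      rw [pow_succ, mul_assoc]
      conv_rhs => rw [← mul_one (SS T ^ j), mul_assoc, ← mul_sub]
      simp [SS]
    rw [this, ha]
    simp [inner_sub_left]
  have hanti : Antitone a := antitone_nat_of_succ_le fun j => by
    have := term_nonneg hT j v
    rw [hd] at this; linarith
  have hbdd : BddBelow (Set.range a) := ⟨0, by
    rintro _ ⟨j, rfl⟩; rw [ha]; exact SS_pow_nonneg hT j v⟩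
  have hlim := tendsto_atTop_ciInf hanti hbdd
  have hces := hlim.cesaro
  have hfix := tendsto_pr_fix (SS T) (norm_SS_le hT) hM (fun x => by
    rw [← h, SS_apply, sub_eq_self]
    constructor
    · intro hx
      have : ⟪T (adjoint T x), x⟫_ℝ = 0 := by rw [hx]; simp
      rw [← adjoint_inner_right T] at this
      exact inner_self_eq_zero.1 this
    · intro hx; rw [hx]; simp) v
  have hfix2 : Tendsto (fun n : ℕ => (n : ℝ)⁻¹ * ∑ k ∈ Finset.range n, a k) atTop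
      (𝓝 ⟪pr M v, v⟫_ℝ) := by
    refine (hfix.inner (𝕜 := ℝ) (tendsto_const_nhds (x := v))).congr fun n => ?_
    simp [ha, inner_smul_left, sum_inner]
  have heq : (⨅ i, a i) = ⟪pr M v, v⟫_ℝ := tendsto_nhds_unique hces hfix2
  rw [hasSum_iff_tendsto_nat_of_nonneg (term_nonneg hT · v)]
  simp only [hd, Finset.sum_range_sub']
  have : ‖pr Mᗮ v‖ ^ 2 = a 0 - ⨅ i, a i := by
    rw [heq, ← pr_inner_self, pr_orth, ha]; simp [inner_sub_left]
  rw [this]
  exact tendsto_const_nhds.sub hlim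

/-! ### measurable equivariant families -/

variable {Ω : Type*} [MeasurableSpace Ω] {Γ : Type*}

def Meas (T : Ω → E →L[ℝ] E) : Prop := ∀ u v, Measurable fun ω => ⟪T ω u, v⟫_ℝ

def Equi (act : Γ → Ω → Ω) (U : Γ → E ≃ₗᵢ[ℝ] E) (T : Ω → E →L[ℝ] E) : Prop :=
  ∀ g ω v, T (act g ω) (U g v) = U g (T ω v)

section meas
variable {ι : Type*} [Countable ι] (b : HilbertBasis ι ℝ E)
omit [CompleteSpace E]

lemma Meas.const (T : E →L[ℝ] E) : Meas (fun _ : Ω => T) := fun _ _ => measurable_const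

lemma Meas.add {S T : Ω → E →L[ℝ] E} (hS : Meas S) (hT : Meas T) : Meas (fun ω => S ω + T ω) :=
  fun u v => by simpa [inner_add_left] using (hS u v).fun_add (hT u v)

lemma Meas.sub {S T : Ω → E →L[ℝ] E} (hS : Meas S) (hT : Meas T) : Meas (fun ω => S ω - T ω) :=
  fun u v => by simpa [inner_sub_left] using (hS u v).fun_sub (hT u v)

lemma Meas.smul {T : Ω → E →L[ℝ] E} (c : ℝ) (hT : Meas T) : Meas (fun ω => c • T ω) :=
  fun u v => by simpa [inner_smul_left] using (hT u v).const_mul c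

lemma Meas.sum {T : ℕ → Ω → E →L[ℝ] E} (s : Finset ℕ) (hT : ∀ k, Meas (T k)) :
    Meas (fun ω => ∑ k ∈ s, T k ω) := fun u v => by
  simpa [sum_inner] using
    Finset.measurable_sum s fun k _ => hT k u v

lemma Meas.lim {T : ℕ → Ω → E →L[ℝ] E} {S : Ω → E →L[ℝ] E} (hT : ∀ k, Meas (T k))
    (h : ∀ ω v, Tendsto (fun n => T n ω v) atTop (𝓝 (S ω v))) : Meas S := fun u v =>
  measurable_of_tendsto_metrizable (fun n => hT n u v)
    (tendsto_pi_nhds.2 fun ω => (h ω u).inner tendsto_const_nhds)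

include b in
lemma measurable_inner_of {f g : Ω → E} (hf : ∀ v, Measurable fun ω => ⟪f ω, v⟫_ℝ)
    (hg : ∀ v, Measurable fun ω => ⟪g ω, v⟫_ℝ) : Measurable fun ω => ⟪f ω, g ω⟫_ℝ := by
  refine measurable_of_tendsto_metrizable' (atTop : Filter (Finset ι))
    (f := fun s ω => ∑ i ∈ s, ⟪f ω, b i⟫_ℝ * ⟪b i, g ω⟫_ℝ) (fun s => ?_)
    (tendsto_pi_nhds.2 fun ω => b.hasSum_inner_mul_inner (f ω) (g ω))
  refine Finset.measurable_sum s fun i _ => (hf _).mul ?_
  simpa [real_inner_comm] using hg (b i)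

include b in
lemma Meas.norm_sq {T : Ω → E →L[ℝ] E} (hT : Meas T) (u : E) :
    Measurable fun ω => ‖T ω u‖ ^ 2 := by
  simpa [real_inner_self_eq_norm_sq] using measurable_inner_of b (hT u) (hT u)

end meas

lemma Meas.adj {T : Ω → E →L[ℝ] E} (hT : Meas T) : Meas (fun ω => adjoint (T ω)) :=
  fun u v => by
    simp only [adjoint_inner_left]
    simpa [real_inner_comm] using hT v u

lemma Meas.mul {ι : Type*} [Countable ι] (b : HilbertBasis ι ℝ E) {S T : Ω → E →L[ℝ] E}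
    (hS : Meas S) (hT : Meas T) : Meas (fun ω => S ω * T ω) := fun u v => by
  simp only [mapp, ← adjoint_inner_right (S _)]
  exact measurable_inner_of b (hT u) (hS.adj v)

lemma Meas.pow {ι : Type*} [Countable ι] (b : HilbertBasis ι ℝ E) {T : Ω → E →L[ℝ] E}
    (hT : Meas T) (k : ℕ) : Meas (fun ω => T ω ^ k) := by
  induction k with
  | zero => simpa using Meas.const (Ω := Ω) (1 : E →L[ℝ] E)
  | succ k ih => simpa [pow_succ] using ih.mul b hT

section equi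
variable {act : Γ → Ω → Ω} {U : Γ → E ≃ₗᵢ[ℝ] E}
omit [MeasurableSpace Ω]

section
omit [CompleteSpace E]

lemma Equi.one : Equi act U (fun _ => 1) := fun _ _ _ => rfl

lemma Equi.add {S T : Ω → E →L[ℝ] E} (hS : Equi act U S) (hT : Equi act U T) :
    Equi act U (fun ω => S ω + T ω) := fun g ω v => by simp [hS g ω v, hT g ω v]

lemma Equi.sub {S T : Ω → E →L[ℝ] E} (hS : Equi act U S) (hT : Equi act U T) :
    Equi act U (fun ω => S ω - T ω) := fun g ω v => by simp [hS g ω v, hT g ω v]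

lemma Equi.mul {S T : Ω → E →L[ℝ] E} (hS : Equi act U S) (hT : Equi act U T) :
    Equi act U (fun ω => S ω * T ω) := fun g ω v => by simp [hS g ω, hT g ω v]

lemma Equi.pow {T : Ω → E →L[ℝ] E} (hT : Equi act U T) (k : ℕ) :
    Equi act U (fun ω => T ω ^ k) := by
  induction k with
  | zero => simpa using Equi.one
  | succ k ih => simpa [pow_succ] using ih.mul hT

end

lemma Equi.adj {T : Ω → E →L[ℝ] E} (hT : Equi act U T) :
    Equi act U (fun ω => adjoint (T ω)) := fun g ω v => by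
  apply ext_inner_right ℝ
  intro w
  obtain ⟨w, rfl⟩ := (U g).surjective w
  rw [adjoint_inner_left, hT g ω w, (U g).inner_map_map, (U g).inner_map_map, adjoint_inner_left]

lemma Equi.of_mem {M : Ω → Submodule ℝ E} (hM : ∀ ω, Cl (M ω))
    (h : ∀ g ω v, U g v ∈ M (act g ω) ↔ v ∈ M ω) : Equi act U (fun ω => pr (M ω)) := by
  intro g ω v
  apply pr_eq ((h g ω _).2 (pr_mem (hM ω) v))
  apply mem_orth
  intro w hw
  obtain ⟨w, rfl⟩ := (U g).surjective w
  rw [← map_sub, (U g).inner_map_map]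
  exact inner_zero_of_mem ((h g ω w).1 hw) (sub_pr_mem _ v)

end equi

/-- equivariant family of subspaces -/
def EqS (act : Γ → Ω → Ω) (U : Γ → E ≃ₗᵢ[ℝ] E) (M : Ω → Submodule ℝ E) : Prop :=
  ∀ g ω v, U g v ∈ M (act g ω) ↔ v ∈ M ω

omit [CompleteSpace E] [MeasurableSpace Ω] in
lemma EqS.inf {act : Γ → Ω → Ω} {U : Γ → E ≃ₗᵢ[ℝ] E} {M N : Ω → Submodule ℝ E}
    (hM : EqS act U M) (hN : EqS act U N) : EqS act U (fun ω => M ω ⊓ N ω) := fun g ω v => by
  simp only [Submodule.mem_inf, hM g ω v, hN g ω v]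

omit [CompleteSpace E] [MeasurableSpace Ω] in
lemma EqS.orth {act : Γ → Ω → Ω} {U : Γ → E ≃ₗᵢ[ℝ] E} {M : Ω → Submodule ℝ E}
    (hM : EqS act U M) : EqS act U (fun ω => (M ω)ᗮ) := fun g ω v => by
  simp only [Submodule.mem_orthogonal]
  constructor
  · intro h u hu
    rw [← (U g).inner_map_map]
    exact h _ ((hM g ω u).2 hu)
  · intro h u hu
    obtain ⟨u, rfl⟩ := (U g).surjective u
    rw [(U g).inner_map_map]
    exact h _ ((hM g ω u).1 hu)

/-- measurable family of closed subspaces -/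
def MS (M : Ω → Submodule ℝ E) : Prop := (∀ ω, Cl (M ω)) ∧ Meas (fun ω => pr (M ω))

lemma MS.orth' {M : Ω → Submodule ℝ E} (hM : Meas (fun ω => pr (M ω))) :
    MS (fun ω => (M ω)ᗮ) := by
  refine ⟨fun ω => Cl.orth _, ?_⟩
  have : (fun ω => pr (M ω)ᗮ) = fun ω => 1 - pr (M ω) := by
    funext ω; ext v; simp [pr_orth]
  rw [this]
  exact (Meas.const 1).sub hM

lemma MS.orth {M : Ω → Submodule ℝ E} (hM : MS M) : MS (fun ω => (M ω)ᗮ) := MS.orth' hM.2

lemma MS.inf {ι : Type*} [Countable ι] (b : HilbertBasis ι ℝ E) {M N : Ω → Submodule ℝ E}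
    (hM : MS M) (hN : MS N) : MS (fun ω => M ω ⊓ N ω) := by
  refine ⟨fun ω => (hM.1 ω).inf (hN.1 ω), ?_⟩
  refine Meas.lim (T := fun n ω => (n : ℝ)⁻¹ • ∑ k ∈ Finset.range n, (pr (M ω) * pr (N ω)) ^ k)
    (fun n => (Meas.sum _ fun k => (hM.2.mul b hN.2).pow b k).smul _) fun ω v => ?_
  apply tendsto_pr_fix _ _ ((hM.1 ω).inf (hN.1 ω))
  · intro x
    constructor
    · intro hx
      have h1 : x ∈ N ω := by
        apply mem_of_norm_pr (hN.1 ω)
        conv_lhs => rw [← hx]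
        exact norm_pr_le _ _
      refine ⟨?_, h1⟩
      rw [← hx]; exact pr_mem (hM.1 ω) _
    · intro hx
      rw [mapp, pr_self hx.2, pr_self hx.1]
  · exact (norm_mul_le _ _).trans (mul_le_one₀ (opNorm_pr_le _) (norm_nonneg _) (opNorm_pr_le _))

lemma MS.RR {ι : Type*} [Countable ι] (b : HilbertBasis ι ℝ E) {M N : Ω → Submodule ℝ E}
    (hM : MS M) (hN : MS N) : MS (fun ω => RR (M ω) (N ω)) :=
  hM.inf b (hM.inf b hN.orth).orth

omit [CompleteSpace E] [MeasurableSpace Ω] in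
lemma EqS.RR {act : Γ → Ω → Ω} {U : Γ → E ≃ₗᵢ[ℝ] E} {M N : Ω → Submodule ℝ E}
    (hM : EqS act U M) (hN : EqS act U N) : EqS act U (fun ω => RR (M ω) (N ω)) :=
  hM.inf (hM.inf hN.orth).orth

end

end Vale.Agent.P143
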