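import Vale.Agent.P143.Fam
import Vale.Agent.P143.Defs

open MeasureTheory ProbabilityTheory Filter Topology SimpleGraph
open scoped InnerProductSpace ENNReal Classical

namespace Vale.Agent.P143

noncomputable section

variable {V : Type*}

def cyl (A : Finset (Sym2 V)) (X : Sym2 V → Bool) : Set (Sym2 V → Bool) :=
  {F | ∀ f ∈ A, F f = X f}

lemma isClopen_eval (e : Sym2 V) (c : Bool) : IsClopen {F : Sym2 V → Bool | F e = c} :=
  (isClopen_discrete {c}).preimage (continuous_apply e)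

lemma isClopen_cyl (A : Finset (Sym2 V)) (X : Sym2 V → Bool) : IsClopen (cyl A X) := by
  have : cyl A X = ⋂ f ∈ A, {F | F f = X f} := by ext F; simp [cyl]
  rw [this]
  exact isClopen_biInter_finset fun f _ => isClopen_eval f _

lemma meas_eval (e : Sym2 V) (c : Bool) : MeasurableSet {F : Sym2 V → Bool | F e = c} :=
  measSet_eq measurable_id e c

lemma meas_cyl (A : Finset (Sym2 V)) (X : Sym2 V → Bool) : MeasurableSet (cyl A X) := by
  have : cyl A X = ⋂ f ∈ A, {F | F f = X f} := by ext F; simp [cyl]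
  rw [this]
  exact A.measurableSet_biInter fun f _ => meas_eval f _

def cyls (V : Type*) : Set (Set (Sym2 V → Bool)) := {s | ∃ A X, s = cyl A X}

lemma isPiSystem_cyls : IsPiSystem (cyls V) := by
  rintro _ ⟨A, X, rfl⟩ _ ⟨B, Y, rfl⟩ ⟨Z, hZ⟩
  refine ⟨A ∪ B, Z, ?_⟩
  ext F
  simp only [cyl, Set.mem_inter_iff, Set.mem_ofPred_eq, Finset.mem_union] at hZ ⊢
  constructor
  · rintro ⟨h1, h2⟩ f (hf | hf)
    · rw [h1 f hf, hZ.1 f hf]
    · rw [h2 f hf, hZ.2 f hf]
  · intro h
    exact ⟨fun f hf => (h f (Or.inl hf)).trans (hZ.1 f hf),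
      fun f hf => (h f (Or.inr hf)).trans (hZ.2 f hf)⟩

lemma generate_cyls : (inferInstance : MeasurableSpace (Sym2 V → Bool)) =
    MeasurableSpace.generateFrom (cyls V) := by
  apply le_antisymm
  · have : @Measurable _ _ (MeasurableSpace.generateFrom (cyls V)) _
        (id : (Sym2 V → Bool) → Sym2 V → Bool) := by
      refine @measurable_pi_lambda _ _ _ (MeasurableSpace.generateFrom (cyls V)) _ _ fun e => ?_
      refine @measurable_to_bool _ (MeasurableSpace.generateFrom (cyls V)) _ ?_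
      exact MeasurableSpace.measurableSet_generateFrom ⟨{e}, fun _ => true, by ext F; simp [cyl]⟩
    exact fun s hs => this hs
  · refine MeasurableSpace.generateFrom_le ?_
    rintro _ ⟨A, X, rfl⟩
    exact meas_cyl A X

lemma cyl_empty (X : Sym2 V → Bool) : cyl ∅ X = Set.univ := by ext F; simp [cyl]

lemma cyl_insert (e : Sym2 V) (A : Finset (Sym2 V)) (X : Sym2 V → Bool) :
    cyl (insert e A) X = cyl A X ∩ {F | F e = X e} := by
  ext F; simp [cyl, and_comm]

lemma real_false (ν : Measure (Sym2 V → Bool)) [IsFiniteMeasure ν] (s : Set (Sym2 V → Bool))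
    (e : Sym2 V) : ν.real (s ∩ {F | F e = false}) = ν.real s - ν.real (s ∩ {F | F e = true}) := by
  rw [← measureReal_inter_add_sdiff (μ := ν) (s := s) (meas_eval e true)]
  have : s \ {F | F e = true} = s ∩ {F | F e = false} := by ext F; simp
  rw [this]; ring

/-! ### spanning trees -/

lemma lift_reach {H : SimpleGraph V} {s : Set V} (hs : ∀ a c, H.Adj a c → c ∈ s) {u v : V}
    (hu : u ∈ s) (h : H.Reachable u v) : ∃ hv : v ∈ s, (H.induce s).Reachable ⟨u, hu⟩ ⟨v, hv⟩ := by
  rw [reachable_iff_reflTransGen] at h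
  induction h with
  | refl => exact ⟨hu, Reachable.refl _⟩
  | @tail a c _ hac ih =>
    obtain ⟨ha, h⟩ := ih
    exact ⟨hs _ _ hac, h.trans (Adj.reachable (by simpa using hac))⟩

def ind (T : SimpleGraph V) : Sym2 V → Bool := fun e => decide (e ∈ T.edgeSet)

lemma ind_inj : Function.Injective (ind : SimpleGraph V → _) := fun T T' h => by
  apply edgeSet_injective
  ext e
  simpa [ind] using congrFun h e

variable {G : SimpleGraph V}

lemma spanning_iff {K : G.Subgraph} (hK : K.verts.Finite) (hc : K.Connected) (ω : Sym2 V → Bool) :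
    IsSpanningTreeOf K ω ↔ ∃ T, Tr K.spanningCoe hK.toFinset ∅ ∅ T ∧ ind T = ω := by
  constructor
  · rintro ⟨T, hle, hv, ht, hω⟩
    refine ⟨T.spanningCoe, ⟨Subgraph.spanningCoe_le_of_le hle, ?_, ?_, by simp, by simp⟩, ?_⟩
    · rw [isAcyclic_iff_forall_adj_isBridge]
      intro u v huv hr
      have hu : u ∈ T.verts := T.edge_vert huv
      obtain ⟨hv', h⟩ := lift_reach (s := T.verts)
        (fun a c h => T.edge_vert (T.adj_symm (deleteEdges_le _ h))) hu hr
      refine isAcyclic_iff_forall_adj_isBridge.1 ht.isAcyclic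
        (show T.coe.Adj ⟨u, hu⟩ ⟨v, hv'⟩ from huv) (h.mono ?_)
      intro a c hac
      simp only [comap_adj, Function.Embedding.coe_subtype, deleteEdges_adj,
        Set.mem_singleton_iff] at hac ⊢
      refine ⟨hac.1, fun he => hac.2 ?_⟩
      simpa using congrArg (Sym2.map Subtype.val) he
    · intro x hx y hy
      rw [Set.Finite.mem_toFinset, ← hv] at hx hy
      exact (ht.connected ⟨x, hx⟩ ⟨y, hy⟩).map T.coeEmbeddingSpanningCoe.toHom
    · funext e
      rw [Bool.eq_iff_iff, hω]; simp [ind]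
  · rintro ⟨T, hT, rfl⟩
    let T' : G.Subgraph := ⟨K.verts, T.Adj, fun h => K.adj_sub (hT.le h),
      fun h => K.edge_vert (hT.le h), T.symm⟩
    refine ⟨T', ⟨le_rfl, fun _ _ h => hT.le h⟩, rfl, ⟨?_, ?_⟩, fun e => ?_⟩
    · have := hc.nonempty.to_subtype
      refine ⟨fun x y => ?_⟩
      obtain ⟨_, h⟩ := lift_reach (H := T) (s := K.verts)
        (fun a c h => K.edge_vert (hT.le h.symm)) x.2
        (hT.conn x (by simp) y (by simp))
      exact h
    · exact hT.acyc.induce K.verts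
    · induction e with
      | h a c => simp [ind, T']

lemma finite_Tr {K : G.Subgraph} (hK : K.verts.Finite) (I D : Set (Sym2 V)) :
    {T | Tr K.spanningCoe hK.toFinset I D T}.Finite := by
  have h1 : K.spanningCoe.edgeSet.Finite := by
    refine ((hK.prod hK).image fun p => s(p.1, p.2)).subset fun e he => ?_
    induction e with
    | h a c => exact ⟨(a, c), ⟨K.edge_vert he, K.edge_vert (K.adj_symm he)⟩, rfl⟩
  refine Set.Finite.of_finite_image (f := edgeSet) (h1.finite_subsets.subset ?_)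
    edgeSet_injective.injOn
  rintro _ ⟨T, hT, rfl⟩
  exact edgeSet_mono hT.le

def TT {K : G.Subgraph} (hK : K.verts.Finite) (I D : Set (Sym2 V)) : Finset (SimpleGraph V) :=
  (finite_Tr hK I D).toFinset

lemma mem_TT {K : G.Subgraph} (hK : K.verts.Finite) (I D : Set (Sym2 V)) (T : SimpleGraph V) :
    T ∈ TT hK I D ↔ Tr K.spanningCoe hK.toFinset I D T := Set.Finite.mem_toFinset _

lemma st_eq {K : G.Subgraph} (hK : K.verts.Finite) (hc : K.Connected) :
    {ω | IsSpanningTreeOf K ω} = ((TT hK ∅ ∅).image ind : Finset _) := by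
  ext ω
  simp [spanning_iff hK hc, mem_TT]

lemma TT_nonempty {K : G.Subgraph} (hK : K.verts.Finite) (hc : K.Connected) :
    (TT hK ∅ ∅).Nonempty := by
  obtain ⟨T, hle, hT⟩ := hc.coe.exists_isTree_le
  have : IsSpanningTreeOf K (ind (SimpleGraph.spanningCoe T)) := by
    let T' : G.Subgraph := ⟨K.verts, (SimpleGraph.spanningCoe T).Adj, fun {a c} h => by
        obtain ⟨_, a, c, h, rfl, rfl⟩ := h
        exact K.adj_sub (hle h),
      fun {a c} h => by
        obtain ⟨_, a, c, h, rfl, rfl⟩ := h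
        exact a.2, (SimpleGraph.spanningCoe T).symm⟩
    refine ⟨T', ⟨le_rfl, fun _ _ h => ?_⟩, rfl, ?_, fun e => ?_⟩
    · obtain ⟨_, a, c, h, rfl, rfl⟩ := h
      exact hle h
    · convert hT
      ext a c
      exact SimpleGraph.map_adj_apply (f := Function.Embedding.subtype _)
    · induction e with
      | h a c => simp [ind, T']
  obtain ⟨T, hT, -⟩ := (spanning_iff hK hc _).1 this
  exact ⟨T, (mem_TT _ _ _ _).2 hT⟩

variable [Countable V]

lemma ust_prob {K : G.Subgraph} (hK : K.verts.Finite) (hc : K.Connected) :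
    IsProbabilityMeasure (ust K) := by
  unfold ust
  rw [st_eq hK hc]
  exact isProbabilityMeasure_uniformOn (Finset.finite_toSet _)
    (by simpa using TT_nonempty hK hc)

lemma ust_real {K : G.Subgraph} (hK : K.verts.Finite) (hc : K.Connected)
    (s : Set (Sym2 V → Bool)) :
    (ust K).real s = (((TT hK ∅ ∅).filter fun T => ind T ∈ s).card : ℝ) / (TT hK ∅ ∅).card := by
  unfold ust Measure.real
  rw [st_eq hK hc, uniformOn, cond_apply (Finset.measurableSet _), Measure.count_apply_finset]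
  have : (((TT hK ∅ ∅).image ind : Finset _) : Set (Sym2 V → Bool)) ∩ s =
      (((TT hK ∅ ∅).filter fun T => ind T ∈ s).image ind : Finset _) := by
    ext ω
    simp only [Finset.coe_image, Set.mem_inter_iff, Set.mem_image, Finset.mem_coe,
      Finset.mem_filter]
    constructor
    · rintro ⟨⟨T, hT, rfl⟩, h⟩; exact ⟨T, ⟨hT, h⟩, rfl⟩
    · rintro ⟨T, ⟨hT, h⟩, rfl⟩; exact ⟨⟨T, hT, rfl⟩, h⟩
  rw [this, Measure.count_apply_finset, Finset.card_image_of_injective _ ind_inj,
    Finset.card_image_of_injective _ ind_inj]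
  simp [div_eq_inv_mul]

omit [Countable V] in
lemma filter_cyl {K : G.Subgraph} (hK : K.verts.Finite) (A : Finset (Sym2 V))
    (X : Sym2 V → Bool) :
    ((TT hK ∅ ∅).filter fun T => ind T ∈ cyl A X) = TT hK (sI A X) (sD A X) := by
  ext T
  rw [Finset.mem_filter]
  simp only [mem_TT, cyl, Set.mem_ofPred_eq]
  constructor
  · rintro ⟨h, h'⟩
    refine ⟨h.le, h.acyc, h.conn, fun e he => ?_, fun e he => ?_⟩
    · have := h' e he.1
      rw [he.2] at this
      simpa [ind] using this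
    · have := h' e he.1
      rw [he.2] at this
      simpa [ind] using this
  · intro h
    refine ⟨⟨h.le, h.acyc, h.conn, by simp, by simp⟩, fun f hf => ?_⟩
    cases hx : X f
    · simpa [ind] using h.exc f ⟨hf, hx⟩
    · simpa [ind] using h.inc f ⟨hf, hx⟩

lemma ust_cyl {K : G.Subgraph} (hK : K.verts.Finite) (hc : K.Connected) (A : Finset (Sym2 V))
    (X : Sym2 V → Bool) :
    (ust K).real (cyl A X) = ((TT hK (sI A X) (sD A X)).card : ℝ) / (TT hK ∅ ∅).card := by
  rw [ust_real hK hc, filter_cyl]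

lemma ust_cyl' {K : G.Subgraph} (hK : K.verts.Finite) (hc : K.Connected) (A : Finset (Sym2 V))
    (X : Sym2 V → Bool) (x y : V) :
    (ust K).real (cyl A X ∩ {F | F s(x, y) = true}) =
      (((TT hK (sI A X) (sD A X)).filter fun T => T.Adj x y).card : ℝ) / (TT hK ∅ ∅).card := by
  rw [ust_real hK hc, ← filter_cyl, Finset.filter_filter]
  congr 3
  ext T
  simp [ind]

omit [Countable V] in
lemma hSK {K : G.Subgraph} (hK : K.verts.Finite) :
    ∀ a c, K.spanningCoe.Adj a c → a ∈ hK.toFinset := fun _ _ h =>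
  hK.mem_toFinset.2 (K.edge_vert h)

omit [Countable V] in
lemma OO_sub {S : Finset V} {A : Set (Sym2 V)} {X : Sym2 V → Bool} :
    ∀ p ∈ OO S (sI A X) (sD A X), p ∈ dart Aᶜ := by
  intro p hp hA
  rw [OO, Finset.mem_filter] at hp
  cases hx : X s(p.1, p.2)
  · exact hp.2.2 ⟨hA, hx⟩
  · exact hp.2.1 ⟨hA, hx⟩

lemma ust_a {K : G.Subgraph} (hK : K.verts.Finite) (hc : K.Connected) (A : Finset (Sym2 V))
    (X : Sym2 V → Bool) {x y : V} (hxy : K.Adj x y) (he : s(x, y) ∉ A) {h : HS V}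
    (hh : h ∈ HH G ⊓ (cI A X)ᗮ) :
    (ust K).real (cyl A X) * ⟪chiV x y, h⟫_ℝ ^ 2 ≤
      2 * (ust K).real (cyl A X ∩ {F | F s(x, y) = true}) *
        ‖pr (Co (dart (A : Set (Sym2 V))ᶜ)) h‖ ^ 2 := by
  have h1 := kirch_a (hSK hK) (mem_TT hK (sI A X) (sD A X)) (x := x) (y := y) hxy
    (fun h => he h.1) (fun h => he h.1) (h := co h) ?_ ?_
  · rw [ust_cyl hK hc, ust_cyl' hK hc, inner_chiV]
    have h2 := sum_sq_le_pr (OO_sub (S := hK.toFinset) (A := A) (X := X)) h
    have h3 : (0 : ℝ) < (TT hK ∅ ∅).card := by exact_mod_cast (TT_nonempty hK hc).card_pos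
    rw [div_mul_eq_mul_div, mul_div_assoc', div_mul_eq_mul_div]
    exact div_le_div_of_nonneg_right (h1.trans (by gcongr)) h3.le
  · intro c hc
    have hco : ∀ q, co (∑ p ∈ hK.toFinset ×ˢ hK.toFinset, c p • bs V p) q =
        if q ∈ hK.toFinset ×ˢ hK.toFinset then c q else 0 := by
      intro q
      simp only [co, inner_sum, inner_smul_right]
      have : ∀ p, ⟪bs V q, bs V p⟫_ℝ = if q = p then 1 else 0 := fun p => co_bs q p
      simp [this]
    have := mem_HH.1 hh.1 hK.toFinset (∑ p ∈ hK.toFinset ×ˢ hK.toFinset, c p • bs V p)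
      (mem_CycS.2 ⟨fun p hp => by rw [hco, if_neg hp], fun v hv => ?_⟩)
    · rw [sum_inner] at this
      simpa only [real_inner_smul_left, co] using this
    · refine Eq.trans ?_ (show 2 * ∑ w ∈ hK.toFinset, c (v, w) = 0 by rw [hc.div, mul_zero])
      rw [Finset.mul_sum]
      refine Finset.sum_congr rfl fun w hw => ?_
      rw [hco, hco, if_pos (Finset.mem_product.2 ⟨hv, hw⟩), if_pos (Finset.mem_product.2 ⟨hw, hv⟩),
        hc.anti v w]
      split_ifs with h'
      · ring
      · rw [hc.supp v w fun h'' => h' (K.adj_sub h'')]; simp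
  · intro p hp
    have := hh.2
    rw [cI, Co_orth] at this
    exact mem_Co.1 this p (not_not.2 hp)

omit [Countable V] in
lemma sum_swap_OO (S : Finset V) (I D : Set (Sym2 V)) (f : V × V → ℝ) :
    ∑ p ∈ OO S I D, f (p.2, p.1) = ∑ p ∈ OO S I D, f p := by
  refine Finset.sum_equiv (Equiv.prodComm V V) (fun p => ?_) (fun p _ => rfl)
  simp [OO, Sym2.eq_swap (a := p.2), and_comm]

omit [Countable V] in
lemma sum_swap_DD (S : Finset V) (D : Set (Sym2 V)) (f : V × V → ℝ) :
    ∑ p ∈ DD S D, f (p.2, p.1) = ∑ p ∈ DD S D, f p := by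
  refine Finset.sum_equiv (Equiv.prodComm V V) (fun p => ?_) (fun p _ => rfl)
  simp [DD, Sym2.eq_swap (a := p.2), and_comm]

lemma ust_b {K : G.Subgraph} (hK : K.verts.Finite) (hc : K.Connected) (A : Finset (Sym2 V))
    (X : Sym2 V → Bool) {x y : V} (hxy : K.Adj x y) (he : s(x, y) ∉ A) {S : Finset V} {c : HS V}
    (hS : ∀ v ∈ S, v ∈ K.verts) (hS' : ∀ v ∈ S, ∀ w ∈ S, G.Adj v w → K.Adj v w)
    (hcc : c ∈ CycS G.Adj S) {B : Finset (V × V)} (hB : ∀ p, p ∈ dart (sD A X) → p ∈ B) :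
    (ust K).real (cyl A X) * |⟪chiV x y, c⟫_ℝ| ≤
      √(2 * (ust K).real (cyl A X) * ((ust K).real (cyl A X) -
        (ust K).real (cyl A X ∩ {F | F s(x, y) = true})) *
        ‖pr (Co (dart (A : Set (Sym2 V))ᶜ)) c‖ ^ 2) +
        (ust K).real (cyl A X) * ∑ p ∈ B, |co c p| := by
  obtain ⟨c', hc'⟩ : ∃ c' : V × V → ℝ,
    c' = fun p => if G.Adj p.1 p.2 then (co c p - co c (p.2, p.1)) / 2 else 0 := ⟨_, rfl⟩
  have hSS : S ⊆ hK.toFinset := fun v hv => hK.mem_toFinset.2 (hS v hv)
  have hfl : Flow K.spanningCoe hK.toFinset c' := by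
    rw [hc']
    refine ⟨fun u v => ?_, fun u v h => ?_, fun v => ?_⟩
    · simp only [G.adj_comm v u]
      split_ifs <;> ring
    · dsimp only
      split_ifs with h'
      · have : ¬ (u ∈ S ∧ v ∈ S) := fun h'' => h (hS' u h''.1 v h''.2 h')
        rw [(mem_CycS.1 hcc).1 (u, v) (by simpa using this),
          (mem_CycS.1 hcc).1 (v, u) (by simpa [and_comm] using this)]
        simp
      · rfl
    · by_cases hv : v ∈ hK.toFinset
      · have := (mem_CycS.1 (CycS_mono _ hSS hcc)).2 v hv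
        refine Eq.trans ?_ ((congrArg (· / 2) this).trans (zero_div _))
        rw [Finset.sum_div]
        refine Finset.sum_congr rfl fun w _ => ?_
        split_ifs <;> simp
      · refine Finset.sum_eq_zero fun w _ => ?_
        have hv' : v ∉ S := fun h => hv (hSS h)
        dsimp only
        rw [(mem_CycS.1 hcc).1 (v, w) (by simp [hv']), (mem_CycS.1 hcc).1 (w, v) (by simp [hv'])]
        simp
  have h1 := kirch_b (hSK hK) (mem_TT hK (sI A X) (sD A X)) (x := x) (y := y) hxy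
    (fun h => he h.1) (fun h => he h.1) hfl
  have e1 : c' (x, y) - c' (y, x) = ⟪chiV x y, c⟫_ℝ := by
    rw [hc', inner_chiV]
    simp only [K.adj_sub hxy, (K.adj_sub hxy).symm, if_true]; ring
  have e2 : ∑ p ∈ OO hK.toFinset (sI A X) (sD A X), c' p ^ 2 ≤
      ‖pr (Co (dart (A : Set (Sym2 V))ᶜ)) c‖ ^ 2 := by
    refine le_trans ?_ (sum_sq_le_pr (OO_sub (S := hK.toFinset) (A := A) (X := X)) c)
    have := sum_swap_OO hK.toFinset (sI A X) (sD A X) fun p => co c p ^ 2
    have h2 : ∑ p ∈ OO hK.toFinset (sI A X) (sD A X), c' p ^ 2 ≤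
        ∑ p ∈ OO hK.toFinset (sI A X) (sD A X), (co c p ^ 2 + co c (p.2, p.1) ^ 2) / 2 := by
      refine Finset.sum_le_sum fun p _ => ?_
      rw [hc']
      dsimp only
      split_ifs
      · nlinarith [sq_nonneg (co c p + co c (p.2, p.1))]
      · nlinarith [sq_nonneg (co c p), sq_nonneg (co c (p.2, p.1))]
    rw [← Finset.sum_div, Finset.sum_add_distrib, this] at h2
    linarith
  have e3 : ∑ p ∈ DD hK.toFinset (sD A X), |c' p| ≤ ∑ p ∈ B, |co c p| := by
    have := sum_swap_DD hK.toFinset (sD A X) fun p => |co c p|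
    have h2 : ∑ p ∈ DD hK.toFinset (sD A X), |c' p| ≤
        ∑ p ∈ DD hK.toFinset (sD A X), (|co c p| + |co c (p.2, p.1)|) / 2 := by
      refine Finset.sum_le_sum fun p _ => ?_
      rw [hc']
      dsimp only
      split_ifs
      · rw [abs_div, abs_two]; gcongr; exact abs_sub _ _
      · simp only [abs_zero]; positivity
    rw [← Finset.sum_div, Finset.sum_add_distrib, this] at h2
    refine le_trans (by linarith) (Finset.sum_le_sum_of_subset_of_nonneg
      (s := DD hK.toFinset (sD A X)) (fun p hp => hB p ?_) fun _ _ _ => abs_nonneg _)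
    exact (Finset.mem_filter.1 hp).2
  rw [e1] at h1
  rw [ust_cyl hK hc, ust_cyl' hK hc]
  have h3 : (0 : ℝ) < (TT hK ∅ ∅).card := by exact_mod_cast (TT_nonempty hK hc).card_pos
  have h4 : (((TT hK (sI A X) (sD A X)).filter fun T => T.Adj x y).card : ℝ) ≤
      (TT hK (sI A X) (sD A X)).card := by exact_mod_cast Finset.card_filter_le _ _
  obtain ⟨N, hN⟩ : ∃ N : ℝ, N = (TT hK ∅ ∅).card := ⟨_, rfl⟩
  obtain ⟨n, hn⟩ : ∃ n : ℝ, n = (TT hK (sI A X) (sD A X)).card := ⟨_, rfl⟩
  obtain ⟨m, hm⟩ : ∃ m : ℝ, m = (((TT hK (sI A X) (sD A X)).filter fun T => T.Adj x y).card : ℝ) :=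
    ⟨_, rfl⟩
  have hn0 : 0 ≤ n := by rw [hn]; positivity
  rw [← hN] at h3 ⊢
  rw [← hn, ← hm] at h1 h4 ⊢
  have h5 : 2 * (n / N) * (n / N - m / N) * ‖pr (Co (dart (A : Set (Sym2 V))ᶜ)) c‖ ^ 2 =
      (2 * n * (n - m) * ‖pr (Co (dart (A : Set (Sym2 V))ᶜ)) c‖ ^ 2) / N ^ 2 := by
    field_simp
  rw [h5, Real.sqrt_div' _ (by positivity), Real.sqrt_sq h3.le, div_mul_eq_mul_div,
    div_mul_eq_mul_div, ← add_div]
  gcongr
  refine h1.trans ?_
  have : 0 ≤ n - m := by linarith
  gcongr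

end

end Vale.Agent.P143
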