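import Vale.Agent.P143.Main

open MeasureTheory ProbabilityTheory Filter Topology SimpleGraph
open scoped ENNReal Classical

namespace Vale.Agent.P143

noncomputable section

variable {V : Type*}

lemma piL_sum (ι κ : Type*) :
    ((piL ι).prod (piL κ)).map (fun z => Sum.elim z.1 z.2) = piL (ι ⊕ κ) := by
  have hm : Measurable fun z : (ι → ℝ) × (κ → ℝ) => Sum.elim z.1 z.2 :=
    measurable_pi_lambda _ fun i => by cases i <;> simp only [Sum.elim_inl, Sum.elim_inr] <;> fun_prop
  refine Measure.eq_infinitePi _ fun s t ht => ?_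
  rw [Measure.map_apply hm (.pi s.countable_toSet fun _ _ => ht _)]
  have : (fun z : (ι → ℝ) × (κ → ℝ) => Sum.elim z.1 z.2) ⁻¹' (s : Set _).pi t =
      (s.toLeft : Set ι).pi (fun i => t (Sum.inl i)) ×ˢ
        (s.toRight : Set κ).pi (fun i => t (Sum.inr i)) := by
    ext z; simp
  rw [this, Measure.prod_prod, piL, piL, Measure.infinitePi_pi _ fun j _ => ht _,
    Measure.infinitePi_pi _ fun j _ => ht _, Finset.prod_sum_eq_prod_toLeft_mul_prod_toRight]

lemma piL_pair {ι ι' κ : Type*} {f : ι → κ} {g : ι' → κ} (h : Function.Injective (Sum.elim f g)) :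
    (piL κ).map (fun L => (fun i => L (f i), fun j => L (g j))) = (piL ι).prod (piL ι') := by
  have hm : Measurable fun z : (ι → ℝ) × (ι' → ℝ) => Sum.elim z.1 z.2 :=
    measurable_pi_lambda _ fun i => by cases i <;> simp only [Sum.elim_inl, Sum.elim_inr] <;> fun_prop
  have hs : Measurable fun L : ι ⊕ ι' → ℝ => (fun i => L (Sum.inl i), fun j => L (Sum.inr j)) := by
    fun_prop
  have h1 := congrArg (Measure.map fun L : ι ⊕ ι' → ℝ =>
    (fun i => L (Sum.inl i), fun j => L (Sum.inr j))) ((piL_reindex h).trans (piL_sum ι ι').symm)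
  rw [Measure.map_map hs (by fun_prop), Measure.map_map hs hm] at h1
  exact h1.trans Measure.map_id

def rk (G : SimpleGraph V) (K : V → ℝ) (x y : V) : ℕ := {z | G.Adj x z ∧ K z < K y}.ncard

def ix (G : SimpleGraph V) (K : V → ℝ) : Sym2 V → Option (V × ℕ) :=
  Sym2.lift ⟨fun x y => if G.Adj x y then (if K y < K x then some (x, rk G K x y) else
    if K x < K y then some (y, rk G K y x) else none) else none, fun x y => by
      simp only [G.adj_comm x y]
      split_ifs with h1 h2 h3 <;> first | rfl | linarith⟩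

lemma ix_mk (G : SimpleGraph V) (K : V → ℝ) (x y : V) : ix G K s(x, y) =
    if G.Adj x y then (if K y < K x then some (x, rk G K x y) else
    if K x < K y then some (y, rk G K y x) else none) else none := rfl

def el (G : SimpleGraph V) (K : V → ℝ) (R : V × ℕ → ℝ) (c : ℕ) (e : Sym2 V) : ℝ :=
  (ix G K e).elim (1 / 2) fun p => R (p.1, 2 * p.2 + c)

lemma rk_comap (σ : Equiv.Perm V) (G : SimpleGraph V) (K : V → ℝ) (x y : V) :
    rk (G.comap σ) (fun v => K (σ v)) x y = rk G K (σ x) (σ y) := by
  unfold rk
  rw [← Set.ncard_image_of_injective _ σ.injective]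
  congr 1
  ext z
  obtain ⟨z, rfl⟩ := σ.surjective z
  simp

lemma el_comap (σ : Equiv.Perm V) (G : SimpleGraph V) (K : V → ℝ) (R : V × ℕ → ℝ) (c : ℕ) :
    el (G.comap σ) (fun v => K (σ v)) (fun p => R (σ p.1, p.2)) c = rel σ (el G K R c) := by
  funext e
  induction e with
  | h x y =>
    simp only [el, rel, Sym2.map_mk, ix_mk, rk_comap, comap_adj]
    split_ifs <;> rfl

lemma meas_el [Countable V] {Ω : Type*} [MeasurableSpace Ω] {gG : Ω → SimpleGraph V}
    {gK : Ω → V → ℝ} {gR : Ω → V × ℕ → ℝ} (hG : Measurable gG) (hK : Measurable gK)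
    (hR : Measurable gR) (c : ℕ) : Measurable fun ω => el (gG ω) (gK ω) (gR ω) c := by
  have h1 : ∀ x y, Measurable fun ω => gR ω (x, 2 * rk (gG ω) (gK ω) x y + c) := by
    intro x y
    have a1 : Measurable fun ω => rk (gG ω) (gK ω) x y :=
      measurable_ncard.comp (measurable_set_iff.2 fun z => measurableSet_setOfPred.1
        ((hG (meas_adj x z)).inter (measurableSet_lt ((measurable_pi_apply z).comp hK)
          ((measurable_pi_apply y).comp hK))))
    have a2 : Measurable fun z : Ω × ℕ => gR z.1 (x, 2 * z.2 + c) :=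
      measurable_from_prod_countable_left fun n => (measurable_pi_apply (x, 2 * n + c)).comp hR
    exact a2.comp (measurable_id.prodMk a1)
  refine measurable_pi_lambda _ fun e => ?_
  induction e with
  | h x y =>
    have : (fun ω => el (gG ω) (gK ω) (gR ω) c s(x, y)) = fun ω => if (gG ω).Adj x y then
        (if gK ω y < gK ω x then gR ω (x, 2 * rk (gG ω) (gK ω) x y + c) else
        if gK ω x < gK ω y then gR ω (y, 2 * rk (gG ω) (gK ω) y x + c) else 1 / 2) else 1 / 2 := by
      funext ω
      simp only [el, ix_mk]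
      split_ifs <;> rfl
    rw [this]
    have hx := (measurable_pi_apply x).comp hK
    have hy := (measurable_pi_apply y).comp hK
    exact Measurable.ite (hG (meas_adj x y)) (Measurable.ite
      (measurableSet_lt hy hx) (h1 x y) (Measurable.ite
      (measurableSet_lt hx hy) (h1 y x) measurable_const)) measurable_const

lemma ix_spec {G : SimpleGraph V} {K : V → ℝ} {e : Sym2 V} {p : V × ℕ} (h : ix G K e = some p) :
    ∃ y, e = s(p.1, y) ∧ G.Adj p.1 y ∧ p.2 = rk G K p.1 y := by
  induction e with
  | h x y =>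
    rw [ix_mk] at h
    split_ifs at h with h1 h2 h3
    · obtain rfl := Option.some.inj h
      exact ⟨y, rfl, h1, rfl⟩
    · obtain rfl := Option.some.inj h
      exact ⟨x, Sym2.eq_swap, h1.symm, rfl⟩

lemma rk_lt {G : SimpleGraph V} (hg : Good G) {K : V → ℝ} {x y y' : V} (h : G.Adj x y)
    (hlt : K y < K y') : rk G K x y < rk G K x y' := by
  refine Set.ncard_lt_ncard ⟨fun z hz => ⟨hz.1, hz.2.trans hlt⟩, fun hsub => ?_⟩
    ((hg.2 x).subset fun z hz => hz.1)
  exact lt_irrefl _ (hsub ⟨h, hlt⟩).2

def ext2 (G : SimpleGraph V) (U : G.edgeSet → ℝ) (e : Sym2 V) : ℝ :=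
  if h : e ∈ G.edgeSet then U ⟨e, h⟩ else 1 / 2

lemma meas_ext2 (G : SimpleGraph V) : Measurable (ext2 G) :=
  measurable_pi_lambda _ fun e => by
    unfold ext2
    split_ifs
    · exact measurable_pi_apply _
    · exact measurable_const

lemma law_el [Countable V] {G : SimpleGraph V} (hg : Good G) {K : V → ℝ}
    (hK : Function.Injective K) :
    (piL (V × ℕ)).map (fun R => (el G K R 0, el G K R 1)) =
      ((piL G.edgeSet).prod (piL G.edgeSet)).map (Prod.map (ext2 G) (ext2 G)) := by
  have h1 : ∀ e : G.edgeSet, ∃ p, ix G K e = some p := by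
    rintro ⟨e, he⟩
    induction e with
    | h x y =>
      have hxy : G.Adj x y := he
      simp only [ix_mk, hxy, if_true]
      split_ifs with h1 h2
      · exact ⟨_, rfl⟩
      · exact ⟨_, rfl⟩
      · exact absurd (hK (le_antisymm (not_lt.1 h1) (not_lt.1 h2))) hxy.ne
  choose f hf using h1
  have hinj : Function.Injective f := by
    intro e e' h
    obtain ⟨y, a1, a2, a3⟩ := ix_spec (hf e)
    obtain ⟨y', b1, b2, b3⟩ := ix_spec (hf e')
    rw [← h] at b1 b2 b3
    have : y = y' := by
      apply hK
      rcases lt_trichotomy (K y) (K y') with h' | h' | h'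
      · have := rk_lt hg a2 h'; omega
      · exact h'
      · have := rk_lt hg b2 h'; omega
    exact Subtype.ext (by rw [a1, b1, this])
  have h2 := piL_pair (f := fun e => ((f e).1, 2 * (f e).2 + 0))
    (g := fun e => ((f e).1, 2 * (f e).2 + 1)) (by
      rintro (e | e) (e' | e') h <;>
        simp only [Sum.elim_inl, Sum.elim_inr, Prod.mk.injEq] at h
      · rw [hinj (Prod.ext h.1 (by omega))]
      · omega
      · omega
      · rw [hinj (Prod.ext h.1 (by omega))])
  rw [← h2, Measure.map_map ((meas_ext2 G).prodMap (meas_ext2 G)) (by fun_prop)]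
  congr 1
  funext R
  have : ∀ c, el G K R c = ext2 G fun e => R ((f e).1, 2 * (f e).2 + c) := by
    intro c
    funext e
    unfold el ext2
    split_ifs with he
    · rw [hf ⟨e, he⟩]; rfl
    · induction e with
      | h x y => rw [ix_mk, if_neg (show ¬ G.Adj x y from he)]; rfl
  simp only [this, Function.comp, Prod.map]

lemma Phi0_local {G : SimpleGraph V} (hg : Good G) {U U' Y Y' : Sym2 V → ℝ}
    (hU : ∀ e, 0 < U e) (hU' : ∀ e, 0 < U' e) (hY : ∀ e, 0 < Y e) (hY' : ∀ e, 0 < Y' e)
    (h1 : ∀ e ∈ G.edgeSet, U e = U' e) (h2 : ∀ e ∈ G.edgeSet, Y e = Y' e) :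
    Phi0 G U Y = Phi0 G U' Y' := by
  have hup : ∀ U : Sym2 V → ℝ, (∀ e, 0 < U e) → up G U 0 = G.edgeSet := by
    intro U hU
    ext e
    constructor
    · intro h
      by_contra he
      induction e with
      | h x y =>
        have : 0 < aE G s(x, y) * U s(x, y) := h
        rw [aE_mk, if_neg (show ¬ G.Adj x y from he)] at this
        linarith [hU s(x, y)]
    · exact fun he => mul_pos (aE_pos hg he) (hU e)
  have : ∀ n, XX G U Y n = XX G U' Y' n := by
    intro n
    funext e
    by_cases he : e ∈ G.edgeSet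
    · exact XX_local ((hup U hU).trans (hup U' hU').symm) (by rwa [hup U hU]) (by rwa [hup U hU])
        n e (by rwa [hup U hU])
    · cases n with
      | zero => rfl
      | succ n => simp [XX, kE, kr, kM_LL_nonadj _ _ he, not_lt.2 (hY e).le, not_lt.2 (hY' e).le]
  funext e
  simp only [Phi0, this]

lemma law_ext [Countable V] {G : SimpleGraph V} (hg : Good G) :
    (((piL G.edgeSet).prod (piL G.edgeSet)).map (Prod.map (ext2 G) (ext2 G))).map
      (fun z => Phi0 G z.1 z.2) =
    ((piL (Sym2 V)).prod (piL (Sym2 V))).map (fun z => Phi0 G z.1 z.2) := by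
  have mP : Measurable fun z : (Sym2 V → ℝ) × (Sym2 V → ℝ) => Phi0 G z.1 z.2 :=
    meas_Phi0 measurable_const measurable_fst measurable_snd
  have mr : Measurable fun (U : Sym2 V → ℝ) (e : G.edgeSet) => U e.1 := by fun_prop
  rw [← piL_reindex (ι := Sym2 V) (f := fun e : G.edgeSet => e.1) Subtype.val_injective,
    Measure.map_prod_map _ _ mr mr,
    Measure.map_map ((meas_ext2 G).prodMap (meas_ext2 G)) (mr.prodMap mr),
    Measure.map_map mP (((meas_ext2 G).prodMap (meas_ext2 G)).comp (mr.prodMap mr))]
  refine Measure.map_congr ?_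
  filter_upwards [Measure.quasiMeasurePreserving_fst.ae (piL_ae (ι := Sym2 V)),
    Measure.quasiMeasurePreserving_snd.ae (piL_ae (ι := Sym2 V))] with z h1 h2
  have hp : ∀ U : Sym2 V → ℝ, (∀ e, U e ∈ Set.Ioo (0 : ℝ) 1) → ∀ e,
      0 < ext2 G (fun e : G.edgeSet => U e.1) e := by
    intro U hU e
    unfold ext2
    split_ifs
    · exact (hU e).1
    · norm_num
  exact Phi0_local hg (hp _ h1) (fun e => (h1 e).1) (hp _ h2) (fun e => (h2 e).1)
    (fun e he => by simp [ext2, he]) (fun e he => by simp [ext2, he])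

def sp : unitInterval → ℕ → ℝ := (Measure.exists_measurable_map_eq (piL ℕ)).choose

lemma meas_sp : Measurable sp := (Measure.exists_measurable_map_eq (piL ℕ)).choose_spec.1

lemma map_sp : volume.map sp = piL ℕ := (Measure.exists_measurable_map_eq (piL ℕ)).choose_spec.2

lemma law_sp : (iid V).map (fun U => (fun v => sp (U v) 0, fun p : V × ℕ => sp (U p.1) (p.2 + 1))) =
    (piL V).prod (piL (V × ℕ)) := by
  have h1 : (iid V).map (fun U v => sp (U v)) = Measure.infinitePi fun _ : V => piL ℕ := by
    rw [iid, Measure.infinitePi_map_pi _ fun _ => meas_sp]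
    simp only [map_sp]
  have h2 := Measure.infinitePi_map_curry_symm (fun (_ : V) (_ : ℕ) => lam)
  have h3 := piL_pair (f := fun v : V => (v, 0)) (g := fun p : V × ℕ => (p.1, p.2 + 1)) (by
    rintro (e | e) (e' | e') h <;>
      simp only [Sum.elim_inl, Sum.elim_inr, Prod.mk.injEq] at h
    · rw [h.1]
    · omega
    · omega
    · rw [Prod.ext h.1 (by omega)])
  have m1 : Measurable fun (U : V → unitInterval) v => sp (U v) :=
    measurable_pi_lambda _ fun v => meas_sp.comp (measurable_pi_apply v)
  rw [← h3, piL, ← h2]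
  change _ = ((Measure.infinitePi fun _ : V => piL ℕ).map _).map _
  rw [← h1, Measure.map_map (MeasurableEquiv.measurable _) m1,
    Measure.map_map (by fun_prop) ((MeasurableEquiv.measurable _).comp m1)]
  rfl

def Phi (G : SimpleGraph V) (U : V → unitInterval) : Sym2 V → Bool :=
  Phi0 G (el G (fun v => sp (U v) 0) (fun p => sp (U p.1) (p.2 + 1)) 0)
    (el G (fun v => sp (U v) 0) (fun p => sp (U p.1) (p.2 + 1)) 1)

lemma Phi_comap (σ : Equiv.Perm V) (G : SimpleGraph V) (U : V → unitInterval) (e : Sym2 V) :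
    Phi (G.comap σ) (U ∘ σ) e = Phi G U (e.map σ) := by
  have := fun c => el_comap σ G (fun v => sp (U v) 0) (fun p => sp (U p.1) (p.2 + 1)) c
  simp only [Phi, Function.comp, this, Phi0_comap, rel]

lemma meas_Phi [Countable V] :
    Measurable fun p : SimpleGraph V × (V → unitInterval) => Phi p.1 p.2 := by
  have h : ∀ v n, Measurable fun p : SimpleGraph V × (V → unitInterval) => sp (p.2 v) n :=
    fun v n => (measurable_pi_apply n).comp (meas_sp.comp (by fun_prop))
  exact meas_Phi0 measurable_fst
    (meas_el measurable_fst (measurable_pi_lambda _ fun v => h v 0)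
      (measurable_pi_lambda _ fun q => h _ _) 0)
    (meas_el measurable_fst (measurable_pi_lambda _ fun v => h v 0)
      (measurable_pi_lambda _ fun q => h _ _) 1)

lemma law_Phi [Countable V] {G : SimpleGraph V} (hg : Good G) :
    (iid V).map (Phi G) = ((piL (Sym2 V)).prod (piL (Sym2 V))).map (fun z => Phi0 G z.1 z.2) := by
  have mP : Measurable fun z : (Sym2 V → ℝ) × (Sym2 V → ℝ) => Phi0 G z.1 z.2 :=
    meas_Phi0 measurable_const measurable_fst measurable_snd
  have me : Measurable fun z : (V → ℝ) × (V × ℕ → ℝ) => (el G z.1 z.2 0, el G z.1 z.2 1) :=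
    (meas_el measurable_const measurable_fst measurable_snd 0).prodMk
      (meas_el measurable_const measurable_fst measurable_snd 1)
  have h : ∀ v n, Measurable fun U : V → unitInterval => sp (U v) n :=
    fun v n => (measurable_pi_apply n).comp (meas_sp.comp (by fun_prop))
  have h1 : ((piL V).prod (piL (V × ℕ))).map (fun z => (el G z.1 z.2 0, el G z.1 z.2 1)) =
      ((piL G.edgeSet).prod (piL G.edgeSet)).map (Prod.map (ext2 G) (ext2 G)) := by
    ext s hs
    rw [Measure.map_apply me hs, Measure.prod_apply (me hs)]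
    refine (lintegral_congr_ae (g := fun _ => (((piL G.edgeSet).prod (piL G.edgeSet)).map
      (Prod.map (ext2 G) (ext2 G))) s) ?_).trans (by simp)
    filter_upwards [piL_inj (a := fun _ : V => (1 : ℝ)) fun _ => one_ne_zero] with K hK
    simp only [one_mul] at hK
    rw [← law_el hg hK]
    exact (Measure.map_apply (me.comp measurable_prodMk_left) hs).symm
  rw [← law_ext hg, ← h1, ← law_sp, Measure.map_map me, Measure.map_map mP]
  · rfl
  · exact me.comp ((measurable_pi_lambda _ fun v => h v 0).prodMk
      (measurable_pi_lambda _ fun q => h _ _))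
  · exact (measurable_pi_lambda _ fun v => h v 0).prodMk (measurable_pi_lambda _ fun q => h _ _)

theorem vert_main [Countable V] [MeasurableSpace V] [DiscreteMeasurableSpace V]
    {μ : Measure (SimpleGraph V × V)} [IsProbabilityMeasure μ] (hμ : Unimodular μ)
    (hG : ∀ᵐ p ∂μ, Good p.1) : ∀ᵐ p ∂μ, IsFUSF p.1 ((iid V).map (Phi p.1)) := by
  filter_upwards [hG, edge_main hμ hG] with p hg h
  rw [law_Phi hg, h]
  exact isFUSF_nu hg.1

/-! ### Cayley graphs -/

section cayley
variable {Γ : Type*} [Group Γ] {S : Finset Γ}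

lemma cayley_good (hS : Subgroup.closure (S : Set Γ) = ⊤) : Good (mulCayley (S : Set Γ)) := by
  constructor
  · have h1 : ∀ g : Γ, ∀ u, (mulCayley (S : Set Γ)).Reachable u (u * g) := by
      intro g
      have hg : g ∈ Subgroup.closure (S : Set Γ) := hS ▸ Subgroup.mem_top g
      induction hg using Subgroup.closure_induction with
      | mem x hx =>
        intro u
        by_cases h : u = u * x
        · rw [← h]
        · exact Adj.reachable ((mulCayley_adj' _ _ _).2 ⟨h, x, hx, Or.inl rfl⟩)
      | one => intro u; rw [mul_one]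
      | mul x y _ _ hx hy => intro u; rw [← mul_assoc]; exact (hx u).trans (hy _)
      | inv x _ hx => intro u; simpa using (hx (u * x⁻¹)).symm
    exact ⟨fun u v => by simpa using h1 (u⁻¹ * v) u⟩
  · intro v
    refine ((S.finite_toSet.image (v * ·)).union (S.finite_toSet.image (v * ·⁻¹))).subset ?_
    intro w hw
    obtain ⟨-, g, hg, h | h⟩ := (mulCayley_adj' _ _ _).1 hw
    · exact Or.inl ⟨g, hg, h⟩
    · exact Or.inr ⟨g, hg, by simp [h]⟩

lemma countable_of_good {G : SimpleGraph V} (hg : Good G) : Countable V := by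
  obtain ⟨o⟩ := hg.1.nonempty
  have h1 : ∀ n, {v | ∃ p : G.Walk v o, p.length = n}.Finite := by
    intro n
    induction n with
    | zero => exact (Set.finite_singleton o).subset fun v hv => Walk.exists_length_eq_zero_iff.1 hv
    | succ n ih =>
      refine (ih.biUnion fun v _ => hg.2 v).subset ?_
      rintro v ⟨p, hp⟩
      cases p with
      | nil => simp at hp
      | cons h p => exact Set.mem_biUnion (x := _) ⟨p, by simpa using hp⟩ h.symm
  rw [← Set.countable_univ_iff]
  refine (Set.countable_iUnion fun n => (h1 n).countable).mono fun v _ => ?_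
  obtain ⟨p⟩ := hg.1 v o
  exact Set.mem_iUnion.2 ⟨_, p, rfl⟩

lemma cayley_comap (g : Γ) : (mulCayley (S : Set Γ)).comap (Equiv.mulLeft g) = mulCayley S := by
  ext u v
  simp

theorem cayley_main (hS : Subgroup.closure (S : Set Γ) = ⊤) :
    IsFUSF (mulCayley (S : Set Γ)) ((iid Γ).map (Phi (mulCayley (S : Set Γ)))) := by
  have hg := cayley_good hS
  have := countable_of_good hg
  let : MeasurableSpace Γ := ⊤
  have : DiscreteMeasurableSpace Γ := ⟨fun _ => trivial⟩
  have : MeasurableSingletonClass (SimpleGraph Γ) := ⟨fun G => by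
    have : ({G} : Set (SimpleGraph Γ)) = SimpleGraph.Adj ⁻¹' {G.Adj} := by
      ext H; exact SimpleGraph.ext_iff
    rw [this]
    exact SimpleGraph.measurable_adj (measurableSet_singleton _)⟩
  have h := vert_main (μ := Measure.dirac (mulCayley (S : Set Γ), (1 : Γ))) ?_ (by simpa using hg)
  · simpa using h
  · intro f _ hf
    rw [lintegral_dirac, lintegral_dirac, ← (Equiv.inv Γ).tsum_eq]
    refine tsum_congr fun v => ?_
    have := hf (Equiv.mulLeft v⁻¹) (mulCayley (S : Set Γ)) v 1
    rw [cayley_comap] at this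
    simpa using this.symm

end cayley

end

end Vale.Agent.P143
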